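import Vale.Agent.P184.H290.Fin

/-!
# P184: row Q2 and the traces at elliptic classes
-/

namespace Vale.Agent.P184.H290

open Vale.Agent.P184

/-- Row Q2: almost all values in finite subgroups depending on the point. -/
def RowQ2.{u', v', w'} : Prop :=
  ∀ {G : Type u'} {X : Type v'} {L : Type w'} [Group G] [MulAction G X] [Group L]
    (α : G → X → L), (∀ g h x, α (g * h) x = α g (h • x) * α h x) →
    ∀ (A : X → Subgroup L), (∀ x, Finite (A x)) →
      (∀ g, {x | ¬ (A (g • x) = A x ∧ α g x ∈ A x)}.Finite) →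
      Spec α fun D => ∀ x, ∀ a ∈ A x, ConjClasses.mk a ≠ D

theorem rowQ_of_rowQ2.{u', v', w'} (h : RowQ2.{u', v', w'}) : RowQ.{u', v', w'} := by
  intro G X L _ _ _ α hα A _ hA q e he
  obtain ⟨e₁, h1, h2, m, f, f', h3, h4, h5⟩ := h α hα (fun _ => A) (fun _ => inferInstance)
    (fun g => (hA g).subset fun x hx h => hx ⟨rfl, h⟩) q e he
  exact ⟨e₁, h1, h2, m, f, f', h3, h4, fun D hD => h5 D fun _ => hD⟩

/-- the traces at the classes seen by the cocycle -/
theorem elliptic_gen {G X L : Type*} [Group G] [MulAction G X] [Group L] (ι : L →* G)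
    {α : G → X → L} {R : ConjClasses L → Prop} (hR : Spec α R) (h : L1Bass L) {q : ℕ}
    {e : Matrix (Fin q) (Fin q) (G → ℂ)} (he : IsIdem e) :
    ∃ F : Finset (ConjClasses L), (∀ C ∈ F, IsTorsionClass C) ∧
      ∀ a : L, R (ConjClasses.mk a) →
        (∀ g, (∃ x, g • x = x ∧ ConjClasses.mk (α g x) = ConjClasses.mk a) ↔
          ConjClasses.mk g = ConjClasses.mk (ι a)) →
        (∀ g x x', g • x = x → ConjClasses.mk (α g x) = ConjClasses.mk a → g • x' = x' →
          x = x') →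
        ConjClasses.mk a ∉ F → tau (ConjClasses.mk (ι a)) e = 0 := by
  classical
  obtain ⟨e₁, he₁, htau, m, f, f', hf, hf', hff⟩ := hR q e he
  obtain ⟨F, hF1, hF2⟩ := h m f hf
  obtain ⟨F', hF1', hF2'⟩ := h m f' hf'
  refine ⟨F ∪ F', fun C hC => (Finset.mem_union.1 hC).elim (hF1 C) (hF1' C), ?_⟩
  intro a hRa hfix huni haF
  rw [Finset.mem_union, not_or] at haF
  have h1 := hff _ hRa
  rw [hF2 _ haF.1, hF2' _ haF.2, sub_zero] at h1
  rw [← htau, h1, tau_eq]
  let E : {p : G × X // p.1 • p.2 = p.2 ∧ ConjClasses.mk (α p.1 p.2) = ConjClasses.mk a} →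
      {y : G // ConjClasses.mk y = ConjClasses.mk (ι a)} := fun p =>
    ⟨p.1.1, (hfix p.1.1).1 ⟨p.1.2, p.2.1, p.2.2⟩⟩
  have hE : Function.Bijective E := by
    constructor
    · rintro ⟨⟨g, x⟩, h2, h3⟩ ⟨⟨g', x'⟩, h4, h5⟩ h6
      obtain rfl : g = g' := congrArg Subtype.val h6
      obtain rfl : x = x' := huni g x x' h2 h3 h4
      rfl
    · rintro ⟨g, hg⟩
      obtain ⟨x, h2, h3⟩ := (hfix g).2 hg
      exact ⟨⟨⟨g, x⟩, h2, h3⟩, rfl⟩
  exact ((Equiv.ofBijective E hE).tsum_eq fun y => ∑ i, e₁ i i y.1).symm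

end Vale.Agent.P184.H290
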