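import Vale.Agent.P184.H290.Tree1

/-!
# Sections along a tree
-/

namespace Vale.Agent.P184.H290.Tree

open SimpleGraph

section

variable {G V : Type*} [Group G] [MulAction G V] {T : SimpleGraph V}

/-- canonical representatives of orbits -/
theorem exists_rep (L : Type*) [Group L] [MulAction L V] :
    ∃ r : V → V, (∀ n, ∃ h : L, r n = h • n) ∧ ∀ (h : L) n, r (h • n) = r n := by
  refine ⟨fun n => (Quotient.mk (MulAction.orbitRel L V) n).out, fun n => ?_, fun h n => ?_⟩
  · have h1 : (MulAction.orbitRel L V) (Quotient.mk (MulAction.orbitRel L V) n).out n :=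
      Quotient.exact (Quotient.out_eq _)
    rw [MulAction.orbitRel_apply] at h1
    obtain ⟨h, hh⟩ := h1
    exact ⟨h, hh.symm⟩
  · have h1 : Quotient.mk (MulAction.orbitRel L V) (h • n) =
        Quotient.mk (MulAction.orbitRel L V) n :=
      Quotient.sound (by
        change (MulAction.orbitRel L V) (h • n) n
        rw [MulAction.orbitRel_apply]
        exact ⟨h, rfl⟩)
    change (Quotient.mk (MulAction.orbitRel L V) (h • n)).out = _
    rw [h1]

/-- an element of the stabilizer fixing no edge at the vertex -/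
def NoEdge (T : SimpleGraph V) (v : V) (a : G) : Prop := ∀ n, T.Adj v n → a • n ≠ n

theorem fix_eq (hT : T.IsTree) (hadj : ∀ (g : G) u v, T.Adj u v → T.Adj (g • u) (g • v))
    {v : V} {a : G} (hv : a • v = v) (ha : NoEdge T v a) {w : V} (hw : a • w = w) : w = v := by
  by_contra h
  refine ha _ (par_adj hT h) ?_
  rw [← par_smul hadj hT, hv, hw]

/-- **Sections along the tree.** -/
theorem exists_data (hT : T.IsTree) (hadj : ∀ (g : G) u v, T.Adj u v → T.Adj (g • u) (g • v))
    (hfin : ∀ u v, T.Adj u v →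
      Finite (MulAction.stabilizer G u ⊓ MulAction.stabilizer G v : Subgroup G)) (v : V) :
    ∃ (s : G ⧸ MulAction.stabilizer G v → G)
      (α : G → G ⧸ MulAction.stabilizer G v → MulAction.stabilizer G v)
      (A : G ⧸ MulAction.stabilizer G v → Subgroup (MulAction.stabilizer G v)),
      (∀ x, (s x : G ⧸ MulAction.stabilizer G v) = x) ∧
      (∀ g x, g * s x = s (g • x) * α g x) ∧
      (∀ g h x, α (g * h) x = α g (h • x) * α h x) ∧
      (∀ x, Finite (A x)) ∧
      (∀ g, {x | ¬ (A (g • x) = A x ∧ α g x ∈ A x)}.Finite) ∧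
      ∀ x, ∀ a ∈ A x, a = 1 ∨ ∃ n, T.Adj v n ∧ (a : G) • n = n := by
  classical
  obtain ⟨r, hr1, hr2⟩ := exists_rep (V := V) (MulAction.stabilizer G v)
  -- the representatives
  have hex : ∀ x : G ⧸ MulAction.stabilizer G v, ∃ p : G,
      (p : G ⧸ MulAction.stabilizer G v) = x ∧
        r (p⁻¹ • par T v (p • v)) = p⁻¹ • par T v (p • v) := by
    intro x
    obtain ⟨p, rfl⟩ := QuotientGroup.mk_surjective x
    obtain ⟨h, hh⟩ := hr1 (p⁻¹ • par T v (p • v))
    have h1 : (p * (h : G)⁻¹) • v = p • v := by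
      rw [mul_smul, inv_smul_eq_iff.2 h.2.symm]
    have h2 : (p * (h : G)⁻¹)⁻¹ • par T v ((p * (h : G)⁻¹) • v) =
        h • (p⁻¹ • par T v (p • v)) := by
      rw [h1, mul_inv_rev, inv_inv, mul_smul]
      rfl
    refine ⟨p * (h : G)⁻¹, ?_, ?_⟩
    · rw [QuotientGroup.eq]
      have : (p * (h : G)⁻¹)⁻¹ * p = h := by group
      rw [this]
      exact h.2
    · rw [h2, hr2, hh]
  choose s hs hsr using hex
  have hsv : ∀ (g : G) x, s (g • x) • v = g • s x • v := by
    intro g x
    have h1 : MulAction.ofQuotientStabilizer G v (g • x) =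
        g • MulAction.ofQuotientStabilizer G v x := MulAction.ofQuotientStabilizer_smul G v g x
    have h2 : ∀ y, MulAction.ofQuotientStabilizer G v y = s y • v := by
      intro y
      conv_lhs => rw [← hs y]
      rfl
    rwa [h2, h2] at h1
  have hinj : ∀ x y, s x • v = s y • v → x = y := by
    intro x y h
    rw [← hs x, ← hs y, QuotientGroup.eq]
    change ((s x)⁻¹ * s y) • v = v
    rw [mul_smul, ← h, inv_smul_smul]
  have hα : ∀ (g : G) x, ∃ a : MulAction.stabilizer G v, g * s x = s (g • x) * a := by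
    intro g x
    refine ⟨⟨(s (g • x))⁻¹ * (g * s x), ?_⟩, ?_⟩
    · change ((s (g • x))⁻¹ * (g * s x)) • v = v
      rw [mul_smul, mul_smul, ← hsv, inv_smul_smul]
    · rw [mul_inv_cancel_left]
  choose α hα using hα
  set n : G ⧸ MulAction.stabilizer G v → V := fun x => (s x)⁻¹ • par T v (s x • v) with hn
  have hnr : ∀ x, r (n x) = n x := hsr
  have hnadj : ∀ x, x ≠ ((1 : G) : G ⧸ MulAction.stabilizer G v) → T.Adj v (n x) := by
    intro x hx
    have h1 : v ≠ s x • v := by
      intro h
      refine hx ?_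
      rw [← hs x, QuotientGroup.eq, mul_one]
      change (s x)⁻¹ • v = v
      rw [inv_smul_eq_iff, ← h]
    have h2 := hadj (s x)⁻¹ _ _ (par_adj hT h1)
    rwa [inv_smul_smul] at h2
  let A : G ⧸ MulAction.stabilizer G v → Subgroup (MulAction.stabilizer G v) := fun x =>
    if x = ((1 : G) : G ⧸ MulAction.stabilizer G v) then ⊥
    else MulAction.stabilizer (MulAction.stabilizer G v) (n x)
  refine ⟨s, α, A, hs, hα, fun g h x => ?_, fun x => ?_, fun g => ?_, fun x a ha => ?_⟩
  · refine Subtype.ext ?_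
    change (α (g * h) x : G) = α g (h • x) * α h x
    refine mul_left_cancel (a := s ((g * h) • x)) ?_
    rw [← hα, ← mul_assoc, mul_smul, ← hα, mul_assoc, mul_assoc, hα h x]
  · by_cases hx : x = ((1 : G) : G ⧸ MulAction.stabilizer G v)
    · have h1 : A x = ⊥ := if_pos hx
      rw [h1]
      infer_instance
    · have h1 : A x = MulAction.stabilizer (MulAction.stabilizer G v) (n x) := if_neg hx
      rw [h1]
      have h2 := hfin v (n x) (hnadj x hx)
      refine Finite.of_injective (β := (MulAction.stabilizer G v ⊓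
        MulAction.stabilizer G (n x) : Subgroup G)) (fun a => ⟨a.1.1, a.1.2, a.2⟩) ?_
      intro a b hab
      have h3 : a.1.1 = b.1.1 := congrArg (fun z : (MulAction.stabilizer G v ⊓
        MulAction.stabilizer G (n x) : Subgroup G) => (z : G)) hab
      exact Subtype.ext (Subtype.ext h3)
  · have h1 : {x | par T v (g • s x • v) ≠ g • par T v (s x • v)}.Finite :=
      (par_smul_finite hadj hT v g).preimage (f := fun x => s x • v)
        (fun x _ y _ h => hinj x y h)
    refine ((Set.toFinite {((1 : G) : G ⧸ MulAction.stabilizer G v),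
      g⁻¹ • ((1 : G) : G ⧸ MulAction.stabilizer G v)}).union h1).subset ?_
    intro x hx
    by_contra hcon
    rw [Set.mem_union, not_or, Set.mem_insert_iff, Set.mem_singleton_iff, not_or] at hcon
    obtain ⟨⟨h2, h3⟩, h4⟩ := hcon
    have h5 : par T v (g • s x • v) = g • par T v (s x • v) := by
      by_contra h5
      exact h4 h5
    have h6 : g • x ≠ ((1 : G) : G ⧸ MulAction.stabilizer G v) := fun h =>
      h3 (by rw [← h, inv_smul_smul])
    have h7 : n (g • x) = α g x • n x := by
      change (s (g • x))⁻¹ • par T v (s (g • x) • v) =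
        (α g x : G) • (s x)⁻¹ • par T v (s x • v)
      rw [hsv, h5, inv_smul_eq_iff, ← mul_smul, ← hα, mul_smul, smul_inv_smul]
    have h8 : n (g • x) = n x := by
      rw [← hnr (g • x), h7, hr2, hnr]
    refine hx ⟨?_, ?_⟩
    · change (if _ then _ else _) = (if _ then _ else _)
      rw [if_neg h6, if_neg h2, h8]
    · change _ ∈ (if _ then _ else _)
      rw [if_neg h2]
      change α g x • n x = n x
      rw [← h7, h8]
  · by_cases hx : x = ((1 : G) : G ⧸ MulAction.stabilizer G v)
    · have h1 : A x = ⊥ := if_pos hx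
      rw [h1, Subgroup.mem_bot] at ha
      exact Or.inl ha
    · have h1 : A x = MulAction.stabilizer (MulAction.stabilizer G v) (n x) := if_neg hx
      rw [h1] at ha
      exact Or.inr ⟨n x, hnadj x hx, ha⟩

section

variable {v : V} {s : G ⧸ MulAction.stabilizer G v → G}
  {α : G → G ⧸ MulAction.stabilizer G v → MulAction.stabilizer G v}

theorem stab_fix_iff (hs : ∀ x, (s x : G ⧸ MulAction.stabilizer G v) = x)
    (hα : ∀ g x, g * s x = s (g • x) * α g x) (a : MulAction.stabilizer G v) (g : G) :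
    (∃ x, g • x = x ∧ ConjClasses.mk (α g x) = ConjClasses.mk a) ↔
      ConjClasses.mk g = ConjClasses.mk (a : G) := by
  constructor
  · rintro ⟨x, h1, h2⟩
    have h3 := hα g x
    rw [h1] at h3
    rw [ConjClasses.mk_eq_mk_iff_isConj] at h2 ⊢
    refine IsConj.trans ?_ ((MulAction.stabilizer G v).subtype.map_isConj h2)
    exact isConj_iff.2 ⟨(s x)⁻¹, by rw [inv_inv, mul_assoc, h3, inv_mul_cancel_left]; rfl⟩
  · intro h
    obtain ⟨c, hc⟩ := isConj_iff.1 (ConjClasses.mk_eq_mk_iff_isConj.1 h.symm)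
    obtain ⟨b, hb⟩ : ∃ b : MulAction.stabilizer G v,
        s (c : G ⧸ MulAction.stabilizer G v) = c * b :=
      ⟨⟨c⁻¹ * s (c : G ⧸ MulAction.stabilizer G v), QuotientGroup.eq.1
        (hs (c : G ⧸ MulAction.stabilizer G v)).symm⟩, by rw [mul_inv_cancel_left]⟩
    have h1 : g • (c : G ⧸ MulAction.stabilizer G v) = c := by
      change ((g * c : G) : G ⧸ MulAction.stabilizer G v) = c
      rw [← hc, QuotientGroup.eq]
      have : (c * (a : G) * c⁻¹ * c)⁻¹ * c = (a⁻¹ : MulAction.stabilizer G v) := by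
        rw [Subgroup.coe_inv]; group
      rw [this]
      exact (a⁻¹).2
    refine ⟨c, h1, ?_⟩
    have h2 := hα g c
    rw [h1, hb, ← hc] at h2
    have h3 : α (c * (a : G) * c⁻¹) c = b⁻¹ * a * b := by
      refine Subtype.ext ?_
      change (α (c * (a : G) * c⁻¹) c : G) = (b : G)⁻¹ * a * b
      refine mul_left_cancel (a := c * (b : G)) ?_
      rw [← h2]
      group
    rw [← hc, h3, ConjClasses.mk_eq_mk_iff_isConj]
    exact isConj_iff.2 ⟨b, by group⟩

theorem stab_fix_unique (hT : T.IsTree)
    (hadj : ∀ (g : G) u v, T.Adj u v → T.Adj (g • u) (g • v))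
    (hs : ∀ x, (s x : G ⧸ MulAction.stabilizer G v) = x)
    (hα : ∀ g x, g * s x = s (g • x) * α g x) {a : MulAction.stabilizer G v}
    (ha : NoEdge T v (a : G)) {g : G} {x x' : G ⧸ MulAction.stabilizer G v} (hx : g • x = x)
    (hxa : ConjClasses.mk (α g x) = ConjClasses.mk a) (hx' : g • x' = x') : x = x' := by
  have h1 := hα g x
  have h2 := hα g x'
  rw [hx] at h1
  rw [hx'] at h2
  obtain ⟨c, hc⟩ := isConj_iff.1 (ConjClasses.mk_eq_mk_iff_isConj.1 hxa)
  have hb : NoEdge T v (α g x : G) := by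
    intro n hn h
    refine ha ((c : G) • n) ?_ ?_
    · have := hadj (c : G) _ _ hn
      rwa [show (c : G) • v = v from c.2] at this
    · rw [← hc]
      change ((c : G) * α g x * (c : G)⁻¹) • (c : G) • n = (c : G) • n
      rw [mul_smul, inv_smul_smul, mul_smul, h]
  have h3 : (α g x : G) • ((s x)⁻¹ * s x') • v = ((s x)⁻¹ * s x') • v := by
    rw [← mul_smul]
    have h4 : (α g x : G) * ((s x)⁻¹ * s x') = (s x)⁻¹ * s x' * α g x' := by
      rw [mul_assoc _ (s x'), ← h2, ← mul_assoc, ← mul_assoc]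
      refine congrArg (· * s x') ?_
      refine mul_left_cancel (a := s x) ?_
      rw [← mul_assoc, ← h1, mul_assoc, mul_inv_cancel, mul_one, mul_inv_cancel_left]
    rw [h4, mul_smul, show (α g x' : G) • v = v from (α g x').2]
  have h5 := fix_eq hT hadj (α g x).2 hb h3
  rw [← hs x, ← hs x', QuotientGroup.eq]
  exact h5

end

end

end Vale.Agent.P184.H290.Tree
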