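import Vale.Agent.P184.H290.Tree2
import Vale.Agent.P184.H290.Tree3
import Vale.Agent.P184.H290.RowQ2

/-!
# P184: groups acting on trees with finite edge stabilizers, assembly
-/

namespace Vale.Agent.P184.H290.Tree

open SimpleGraph Vale.Agent.P184

universe u v

section

variable {G : Type u} {V : Type v} [Group G] [MulAction G V] {T : SimpleGraph V}

theorem elliptic_tree (hT : T.IsTree) (hadj : ∀ (g : G) u v, T.Adj u v → T.Adj (g • u) (g • v))
    (hfin : ∀ u v, T.Adj u v →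
      Finite (MulAction.stabilizer G u ⊓ MulAction.stabilizer G v : Subgroup G))
    (hQ : RowQ2.{u, u, u}) (v : V) (h : L1Bass (MulAction.stabilizer G v)) {q : ℕ}
    {e : Matrix (Fin q) (Fin q) (G → ℂ)} (he : IsIdem e) :
    ∃ F : Finset (ConjClasses (MulAction.stabilizer G v)), (∀ C ∈ F, IsTorsionClass C) ∧
      ∀ a : MulAction.stabilizer G v, a ≠ 1 → NoEdge T v (a : G) → ConjClasses.mk a ∉ F →
        tau (ConjClasses.mk (a : G)) e = 0 := by
  obtain ⟨s, α, A, hs, hα, hc, hA1, hA2, hA3⟩ := exists_data hT hadj hfin v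
  obtain ⟨F, hF1, hF2⟩ := elliptic_gen (MulAction.stabilizer G v).subtype
    (hQ α hc A hA1 hA2) h he
  refine ⟨F, hF1, fun a ha1 ha haF => hF2 a ?_ (stab_fix_iff hs hα a)
    (fun g x x' h1 h2 h3 => stab_fix_unique hT hadj hs hα ha h1 h2 h3) haF⟩
  intro x b hb hab
  obtain ⟨c, hc⟩ := isConj_iff.1 (ConjClasses.mk_eq_mk_iff_isConj.1 hab)
  rcases hA3 x b hb with rfl | ⟨n, hn1, hn2⟩
  · exact ha1 (by rw [← hc]; group)
  · refine ha ((c : G) • n) ?_ ?_
    · have := hadj (c : G) _ _ hn1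
      rwa [show (c : G) • v = v from c.2] at this
    · rw [← hc]
      change ((c : G) * b * (c : G)⁻¹) • (c : G) • n = (c : G) • n
      rw [mul_smul, inv_smul_smul, mul_smul, hn2]

/-- A class with a nonzero trace fixes a vertex. -/
theorem exists_fixed (hT : T.IsTree) (hadj : ∀ (g : G) u v, T.Adj u v → T.Adj (g • u) (g • v))
    (hinv : ∀ (g : G) v, T.Adj v (g • v) → g • g • v ≠ v) {q : ℕ}
    {e : Matrix (Fin q) (Fin q) (G → ℂ)} (he : IsIdem e) (t : G)
    (ht : tau (ConjClasses.mk t) e ≠ 0) : ∃ v : V, t • v = v := by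
  by_contra hcon
  rw [not_exists] at hcon
  exact ht (vanishesAt_of_charged (charged_of_free hT hadj t hcon (hinv t)) q e he)

theorem mk_conj (g t : G) : ConjClasses.mk (g * t * g⁻¹) = ConjClasses.mk t :=
  ConjClasses.mk_eq_mk_iff_isConj.2 (isConj_iff.2 ⟨g⁻¹, by group⟩)

/-- the classes meeting the edge groups of a finite set -/
theorem edge_finite (hfin : ∀ u v, T.Adj u v →
      Finite (MulAction.stabilizer G u ⊓ MulAction.stabilizer G v : Subgroup G)) (K : Finset V) :
    {C : ConjClasses G | ∃ u ∈ K, ∃ v ∈ K, T.Adj u v ∧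
      ∃ g : G, g • u = u ∧ g • v = v ∧ C = ConjClasses.mk g}.Finite := by
  have h : (⋃ u ∈ K, ⋃ v ∈ K, {C : ConjClasses G | T.Adj u v ∧
      ∃ g : G, g • u = u ∧ g • v = v ∧ C = ConjClasses.mk g}).Finite := by
    refine K.finite_toSet.biUnion fun u _ => K.finite_toSet.biUnion fun v _ => ?_
    by_cases huv : T.Adj u v
    · have h1 := hfin u v huv
      refine (Set.finite_range fun g : (MulAction.stabilizer G u ⊓
        MulAction.stabilizer G v : Subgroup G) => ConjClasses.mk (g : G)).subset ?_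
      rintro C ⟨_, g, hg1, hg2, rfl⟩
      exact ⟨⟨g, hg1, hg2⟩, rfl⟩
    · refine Set.finite_empty.subset ?_
      rintro C ⟨h1, _⟩
      exact huv h1
  refine h.subset ?_
  rintro C ⟨u, hu, v, hv, h1⟩
  rw [Set.mem_iUnion₂]
  refine ⟨u, hu, ?_⟩
  rw [Set.mem_iUnion₂]
  exact ⟨v, hv, h1⟩

theorem torsion_of_edge (hfin : ∀ u v, T.Adj u v →
      Finite (MulAction.stabilizer G u ⊓ MulAction.stabilizer G v : Subgroup G)) {u v : V}
    (huv : T.Adj u v) {g : G} (h1 : g • u = u) (h2 : g • v = v) : IsOfFinOrder g := by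
  have h3 := hfin u v huv
  have h4 : IsOfFinOrder (⟨g, h1, h2⟩ : (MulAction.stabilizer G u ⊓
    MulAction.stabilizer G v : Subgroup G)) := isOfFinOrder_of_finite _
  exact (MulAction.stabilizer G u ⊓ MulAction.stabilizer G v : Subgroup G).subtype.isOfFinOrder h4

theorem tree_dir (hT : T.IsTree) (hadj : ∀ (g : G) u v, T.Adj u v → T.Adj (g • u) (g • v))
    (hinv : ∀ (g : G) v, T.Adj v (g • v) → g • g • v ≠ v)
    (hfin : ∀ u v, T.Adj u v →
      Finite (MulAction.stabilizer G u ⊓ MulAction.stabilizer G v : Subgroup G))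
    (K : Finset V) (hK : ∀ v, ∃ g : G, g • v ∈ K)
    (hK2 : ∀ u v, T.Adj u v → ∃ g : G, g • u ∈ K ∧ g • v ∈ K)
    (hQ : RowQ2.{u, u, u}) (h : ∀ v : V, L1Bass (MulAction.stabilizer G v)) : L1Bass G := by
  classical
  intro q e he
  choose F hF1 hF2 using fun v => elliptic_tree hT hadj hfin hQ v (h v) he
  refine ⟨insert (ConjClasses.mk 1) ((edge_finite hfin K).toFinset ∪ K.biUnion fun v =>
    (F v).image (ConjClasses.map (MulAction.stabilizer G v).subtype)), ?_, ?_⟩
  · intro C hC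
    rcases Finset.mem_insert.1 hC with rfl | hC
    · exact isTorsionClass_mk.mpr IsOfFinOrder.one
    rcases Finset.mem_union.1 hC with hC | hC
    · rw [Set.Finite.mem_toFinset] at hC
      obtain ⟨u, _, v, _, huv, g, h1, h2, rfl⟩ := hC
      exact isTorsionClass_mk.mpr (torsion_of_edge hfin huv h1 h2)
    · obtain ⟨v, _, hC⟩ := Finset.mem_biUnion.1 hC
      obtain ⟨D, hD, rfl⟩ := Finset.mem_image.mp hC
      obtain ⟨y, rfl⟩ := ConjClasses.mk_surjective D
      exact isTorsionClass_mk.mpr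
        ((MulAction.stabilizer G v).subtype.isOfFinOrder (isTorsionClass_mk.mp (hF1 v _ hD)))
  · intro C hC
    rw [Finset.mem_insert, not_or, Finset.mem_union, not_or, Set.Finite.mem_toFinset] at hC
    obtain ⟨hC1, hC2, hC3⟩ := hC
    by_contra h0
    obtain ⟨t, rfl⟩ := ConjClasses.mk_surjective C
    obtain ⟨w, hw⟩ := exists_fixed hT hadj hinv he t h0
    obtain ⟨g, hg⟩ := hK w
    have ht' : (g * t * g⁻¹) • g • w = g • w := by
      rw [mul_smul, inv_smul_smul, mul_smul, hw]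
    rw [← mk_conj g t] at hC1 hC2 hC3 h0
    by_cases hn : NoEdge T (g • w) (g * t * g⁻¹)
    · refine h0 (hF2 (g • w) ⟨g * t * g⁻¹, ht'⟩ ?_ hn fun h2 => hC3 (Finset.mem_biUnion.2
        ⟨g • w, hg, Finset.mem_image.2 ⟨_, h2, rfl⟩⟩))
      intro h1
      exact hC1 (congrArg ConjClasses.mk (congrArg Subtype.val h1))
    · unfold NoEdge at hn
      push Not at hn
      obtain ⟨n, hn1, hn2⟩ := hn
      obtain ⟨g', h1, h2⟩ := hK2 _ _ hn1
      refine hC2 ⟨_, h1, _, h2, hadj g' _ _ hn1, g' * (g * t * g⁻¹) * g'⁻¹, ?_, ?_,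
        (mk_conj _ _).symm⟩
      · rw [mul_smul, inv_smul_smul, mul_smul, ht']
      · rw [mul_smul, inv_smul_smul, mul_smul, hn2]

theorem tree_conv (hT : T.IsTree) (hadj : ∀ (g : G) u v, T.Adj u v → T.Adj (g • u) (g • v))
    (hfin : ∀ u v, T.Adj u v →
      Finite (MulAction.stabilizer G u ⊓ MulAction.stabilizer G v : Subgroup G))
    (K : Finset V) (hK2 : ∀ u v, T.Adj u v → ∃ g : G, g • u ∈ K ∧ g • v ∈ K)
    (h : L1Bass G) (v : V) : L1Bass (MulAction.stabilizer G v) := by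
  classical
  refine l1Bass_of_inj (MulAction.stabilizer G v).subtype Subtype.val_injective
    {C | ∃ a : MulAction.stabilizer G v, C = ConjClasses.mk a ∧
      (a = 1 ∨ ∃ n, T.Adj v n ∧ (a : G) • n = n)} ?_ ?_ ?_ h
  · -- finiteness
    have hg : ∀ u : V, ∃ g₀ : G, (∃ g : G, g • v = u) → g₀ • v = u := by
      intro u
      by_cases hu : ∃ g : G, g • v = u
      · obtain ⟨g, hg⟩ := hu
        exact ⟨g, fun _ => hg⟩
      · exact ⟨1, fun h => absurd h hu⟩
    choose g₀ hg₀ using hg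
    have h1 : (⋃ u ∈ K, ⋃ w ∈ K, {C : ConjClasses (MulAction.stabilizer G v) | T.Adj u w ∧
        ∃ b : MulAction.stabilizer G v, C = ConjClasses.mk b ∧
          (g₀ u * b * (g₀ u)⁻¹) • u = u ∧ (g₀ u * b * (g₀ u)⁻¹) • w = w}).Finite := by
      refine K.finite_toSet.biUnion fun u _ => K.finite_toSet.biUnion fun w _ => ?_
      by_cases huw : T.Adj u w
      · have h2 := hfin u w huw
        have h3 : {b : MulAction.stabilizer G v | (g₀ u * b * (g₀ u)⁻¹) • u = u ∧
            (g₀ u * b * (g₀ u)⁻¹) • w = w}.Finite := by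
          refine Set.Finite.of_injOn (f := fun b : MulAction.stabilizer G v =>
            g₀ u * b * (g₀ u)⁻¹) (t := ((MulAction.stabilizer G u ⊓
              MulAction.stabilizer G w : Subgroup G) : Set G)) (fun b hb => ⟨hb.1, hb.2⟩) ?_
            (Set.toFinite _)
          intro b _ b' _ hbb
          exact Subtype.ext (mul_left_cancel (mul_right_cancel hbb))
        refine (h3.image ConjClasses.mk).subset ?_
        rintro C ⟨_, b, rfl, hb⟩
        exact ⟨b, hb, rfl⟩
      · refine Set.finite_empty.subset ?_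
        rintro C ⟨h2, _⟩
        exact huw h2
    refine ((Set.finite_singleton (ConjClasses.mk
      (1 : MulAction.stabilizer G v))).union h1).subset ?_
    rintro C ⟨a, rfl, rfl | ⟨n, hn1, hn2⟩⟩
    · exact Or.inl rfl
    · refine Or.inr ?_
      obtain ⟨g, h2, h3⟩ := hK2 _ _ hn1
      rw [Set.mem_iUnion₂]
      refine ⟨g • v, h2, ?_⟩
      rw [Set.mem_iUnion₂]
      refine ⟨g • n, h3, hadj g _ _ hn1, ?_⟩
      have h4 : g₀ (g • v) • v = g • v := hg₀ (g • v) ⟨g, rfl⟩
      let c : MulAction.stabilizer G v := ⟨(g₀ (g • v))⁻¹ * g, by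
        change ((g₀ (g • v))⁻¹ * g) • v = v
        rw [mul_smul, inv_smul_eq_iff, h4]⟩
      have h5 : g₀ (g • v) * ((c * a * c⁻¹ : MulAction.stabilizer G v) : G) *
          (g₀ (g • v))⁻¹ = g * a * g⁻¹ := by
        change g₀ (g • v) * ((g₀ (g • v))⁻¹ * g * a * ((g₀ (g • v))⁻¹ * g)⁻¹) *
          (g₀ (g • v))⁻¹ = _
        group
      refine ⟨c * a * c⁻¹, ConjClasses.mk_eq_mk_iff_isConj.2 (isConj_iff.2 ⟨c, rfl⟩), ?_, ?_⟩
      · rw [h5, mul_smul, inv_smul_smul, mul_smul, show (a : G) • v = v from a.2]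
      · rw [h5, mul_smul, inv_smul_smul, mul_smul, hn2]
  · rintro C ⟨a, rfl, rfl | ⟨n, hn1, hn2⟩⟩
    · exact isTorsionClass_mk.mpr IsOfFinOrder.one
    · refine isTorsionClass_mk.mpr ?_
      exact (Subtype.val_injective (p := fun x => x ∈ MulAction.stabilizer G v) |>
        fun hi => (Function.Injective.isOfFinOrder_iff
          (f := (MulAction.stabilizer G v).subtype) hi).1
          (torsion_of_edge hfin hn1 a.2 hn2))
  · intro a a' ha haa
    obtain ⟨c, hc⟩ := isConj_iff.1 haa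
    have h1 : NoEdge T v (a : G) := fun n hn h => ha ⟨a, rfl, Or.inr ⟨n, hn, h⟩⟩
    have h2 : (a : G) • c⁻¹ • v = c⁻¹ • v := by
      have h3 : (c * (a : G) * c⁻¹) • v = v := by
        change c * (a : G) * c⁻¹ = _ at hc
        rw [hc]
        exact a'.2
      rw [mul_smul, mul_smul] at h3
      rw [← smul_left_cancel_iff c, h3, smul_inv_smul]
    have h4 := fix_eq hT hadj a.2 h1 h2
    exact isConj_iff.2 ⟨⟨c, (inv_smul_eq_iff.1 h4).symm⟩, Subtype.ext hc⟩

end

/-- **Groups acting on trees with finite edge stabilizers.** -/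
theorem treeFin {G : Type u} {V : Type v} [Group G] [MulAction G V] (T : SimpleGraph V)
    (hT : T.IsTree) (hadj : ∀ (g : G) u v, T.Adj u v → T.Adj (g • u) (g • v))
    (hinv : ∀ (g : G) v, T.Adj v (g • v) → g • g • v ≠ v)
    (hfin : ∀ u v, T.Adj u v →
      Finite (MulAction.stabilizer G u ⊓ MulAction.stabilizer G v : Subgroup G))
    (K : Finset V) (hK : ∀ v, ∃ g : G, g • v ∈ K)
    (hK2 : ∀ u v, T.Adj u v → ∃ g : G, g • u ∈ K ∧ g • v ∈ K) (hQ : RowQ2.{u, u, u}) :
    L1Bass G ↔ ∀ v : V, L1Bass (MulAction.stabilizer G v) :=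
  ⟨fun h v => tree_conv hT hadj hfin K hK2 h v, tree_dir hT hadj hinv hfin K hK hK2 hQ⟩

end Vale.Agent.P184.H290.Tree
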