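import Vale.Agent.P184.H290.Fin

/-!
# P184: amalgams over locally finite groups
-/

namespace Vale.Agent.P184.H290

open Monoid Monoid.PushoutI Vale.Agent.P184

universe u v w

/-- A quotient which is a directed colimit of quotients. -/
theorem l1Bass_of_quot {P₀ P : Type u} [Group P₀] [Group P] (f : P₀ →* P)
    (hf : Function.Surjective f)
    (h : ∀ W : Finset P₀, (∀ w ∈ W, f w = 1) → ∃ (Q : Type v) (_ : Group Q) (a : P₀ →* Q)
      (b : Q →* P), (∀ x, b (a x) = f x) ∧ (∀ w ∈ W, a w = 1) ∧ L1Bass Q) : L1Bass P := by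
  classical
  refine l1Bass_of_local.{u, v} fun S => ?_
  choose σ hσ using hf
  obtain ⟨Q, _, a, b, h1, h2, h3⟩ := h ((S ×ˢ S).image fun p =>
    σ p.1 * σ p.2 * (σ (p.1 * p.2))⁻¹) (by
      intro w hw
      obtain ⟨p, _, rfl⟩ := Finset.mem_image.1 hw
      rw [map_mul, map_mul, map_inv, hσ, hσ, hσ, mul_inv_cancel])
  refine ⟨Q, inferInstance, b, fun x => a (σ x), ⟨fun x _ => by rw [h1, hσ],
    fun x hx y hy _ => ?_⟩, h3⟩
  have h4 := h2 _ (Finset.mem_image.2 ⟨(x, y), Finset.mem_product.2 ⟨hx, hy⟩, rfl⟩)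
  rw [map_mul, map_mul, map_inv, mul_inv_eq_one] at h4
  exact h4

section

variable {I : Type u} {G : I → Type v} {H : Type w} [∀ i, Group (G i)] [Group H]

/-- the amalgam over a subgroup of the base -/
abbrev Sub (φ : ∀ i, H →* G i) (K : Subgroup H) := PushoutI fun i => (φ i).comp K.subtype

variable (φ : ∀ i, H →* G i)

/-- the map to the amalgam -/
noncomputable def toAm (K : Subgroup H) : Sub φ K →* PushoutI φ :=
  lift (fun i => of (φ := φ) i) ((base φ).comp K.subtype) fun i => MonoidHom.ext fun x =>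
    of_apply_eq_base φ i x

/-- the map between amalgams over subgroups -/
noncomputable def toSub (K : Subgroup H) : Sub φ ⊥ →* Sub φ K :=
  lift (fun i => of (φ := fun i => (φ i).comp K.subtype) i)
    ((base fun i => (φ i).comp K.subtype).comp (Subgroup.inclusion bot_le))
    fun i => MonoidHom.ext fun x => by
      have h := of_apply_eq_base (fun i => (φ i).comp K.subtype) i
        (Subgroup.inclusion bot_le x)
      exact h

theorem toAm_of (K : Subgroup H) (i : I) (a : G i) : toAm φ K (of i a) = of i a := by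
  unfold toAm
  rw [lift_of]

theorem toSub_of (K : Subgroup H) (i : I) (a : G i) : toSub φ K (of i a) = of i a := by
  unfold toSub
  rw [lift_of]

theorem base_bot (x : (⊥ : Subgroup H)) : base (fun i => (φ i).comp (⊥ : Subgroup H).subtype) x =
    1 := by
  rw [Subsingleton.elim x 1, map_one]

theorem toAm_toSub (K : Subgroup H) (x : Sub φ ⊥) : toAm φ K (toSub φ K x) = toAm φ ⊥ x := by
  induction x using PushoutI.induction_on with
  | of i a => rw [toSub_of, toAm_of, toAm_of]
  | base a => rw [base_bot, map_one, map_one, map_one]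
  | mul x y hx hy => rw [map_mul, map_mul, map_mul, hx, hy]

/-- the elements killed over a finitely generated subgroup -/
def Kill : Subgroup (Sub φ ⊥) where
  carrier := {w | ∃ T : Finset H, ∀ K : Subgroup H, (∀ x ∈ T, x ∈ K) → toSub φ K w = 1}
  one_mem' := ⟨∅, fun K _ => map_one _⟩
  mul_mem' := by
    classical
    rintro a b ⟨T, hT⟩ ⟨T', hT'⟩
    refine ⟨T ∪ T', fun K hK => ?_⟩
    rw [map_mul, hT K fun x hx => hK x (Finset.mem_union_left _ hx),
      hT' K fun x hx => hK x (Finset.mem_union_right _ hx), mul_one]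
  inv_mem' := by
    rintro a ⟨T, hT⟩
    exact ⟨T, fun K hK => by rw [map_inv, hT K hK, inv_one]⟩

theorem mem_Kill {w : Sub φ ⊥} : w ∈ Kill φ ↔
    ∃ T : Finset H, ∀ K : Subgroup H, (∀ x ∈ T, x ∈ K) → toSub φ K w = 1 := Iff.rfl

instance : (Kill φ).Normal where
  conj_mem := by
    rintro a ⟨T, hT⟩ g
    exact ⟨T, fun K hK => by rw [map_mul, map_mul, hT K hK, mul_one, map_inv, mul_inv_cancel]⟩

theorem mem_Kill_of [Nonempty I] {w : Sub φ ⊥} (hw : toAm φ ⊥ w = 1) : w ∈ Kill φ := by
  classical
  let i₀ : I := Classical.arbitrary I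
  have hc : ∀ i, ((QuotientGroup.mk' (Kill φ)).comp
      (of (φ := fun i => (φ i).comp (⊥ : Subgroup H).subtype) i)).comp (φ i) =
      ((QuotientGroup.mk' (Kill φ)).comp
      (of (φ := fun i => (φ i).comp (⊥ : Subgroup H).subtype) i₀)).comp (φ i₀) := by
    intro i
    ext x
    simp only [MonoidHom.comp_apply, QuotientGroup.mk'_apply]
    rw [QuotientGroup.eq]
    refine ⟨{x}, fun K hK => ?_⟩
    have hx : x ∈ K := hK x (Finset.mem_singleton_self x)
    have h1 : ∀ j, toSub φ K (of j (φ j x)) =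
        base (fun i => (φ i).comp K.subtype) ⟨x, hx⟩ := by
      intro j
      rw [toSub_of, ← of_apply_eq_base (fun i => (φ i).comp K.subtype) j]
      rfl
    rw [map_mul, map_inv, h1, h1, inv_mul_cancel]
  let θ : PushoutI φ →* Sub φ ⊥ ⧸ Kill φ := lift
    (fun i => (QuotientGroup.mk' (Kill φ)).comp
      (of (φ := fun i => (φ i).comp (⊥ : Subgroup H).subtype) i))
    (((QuotientGroup.mk' (Kill φ)).comp
      (of (φ := fun i => (φ i).comp (⊥ : Subgroup H).subtype) i₀)).comp (φ i₀)) hc
  have h1 : ∀ x, θ (toAm φ ⊥ x) = (x : Sub φ ⊥ ⧸ Kill φ) := by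
    intro x
    induction x using PushoutI.induction_on with
    | of i a =>
      rw [toAm_of]
      change lift _ _ _ (of i a) = _
      rw [lift_of]
      rfl
    | base a => rw [base_bot, map_one, map_one]; rfl
    | mul x y hx hy => rw [map_mul, map_mul, hx, hy]; rfl
  have h2 := h1 w
  rw [hw, map_one] at h2
  exact (QuotientGroup.eq_one_iff w).1 h2.symm

/-- **Directed unions of base groups.** -/
theorem l1Bass_base [Nonempty I]
    (h : ∀ T : Finset H, ∃ K : Subgroup H, (∀ x ∈ T, x ∈ K) ∧ L1Bass (Sub φ K)) :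
    L1Bass (PushoutI φ) := by
  classical
  refine l1Bass_of_quot.{max u v w, max u v w} (toAm φ ⊥) ?_ fun W hW => ?_
  · intro x
    induction x using PushoutI.induction_on with
    | of i a => exact ⟨of i a, toAm_of φ ⊥ i a⟩
    | base a =>
      refine ⟨of (Classical.arbitrary I) (φ _ a), ?_⟩
      rw [toAm_of, of_apply_eq_base]
    | mul x y hx hy =>
      obtain ⟨x', rfl⟩ := hx
      obtain ⟨y', rfl⟩ := hy
      exact ⟨x' * y', map_mul _ _ _⟩
  · choose! T hT using fun w (hw : w ∈ W) => (mem_Kill φ).1 (mem_Kill_of φ (hW w hw))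
    obtain ⟨K, hK1, hK2⟩ := h (W.biUnion T)
    exact ⟨Sub φ K, inferInstance, toSub φ K, toAm φ K, toAm_toSub φ K,
      fun w hw => hT w hw K fun x hx => hK1 x (Finset.mem_biUnion.2 ⟨w, hw, hx⟩), hK2⟩

end

/-- **Amalgams over a locally finite group.** -/
theorem amalgam_locFinite {I : Type u} [Nonempty I] {G : I → Type v} {H : Type w}
    [∀ i, Group (G i)] [Group H] (φ : ∀ i, H →* G i) (hφ : ∀ i, Function.Injective (φ i))
    (hH : ∀ T : Finset H, Finite (Subgroup.closure (T : Set H)))
    (hQ : RowQ.{max u v w, max u v w, v}) (h : ∀ i, L1Bass (G i)) : L1Bass (PushoutI φ) := by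
  refine l1Bass_base φ fun T => ⟨Subgroup.closure (T : Set H), fun x hx =>
    Subgroup.subset_closure hx, ?_⟩
  have := hH T
  exact (amalgam_finite (H := Subgroup.closure (T : Set H))
    (fun i => (φ i).comp (Subgroup.closure (T : Set H)).subtype)
    (fun i => (hφ i).comp Subtype.val_injective) hQ).2 h

end Vale.Agent.P184.H290
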