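import Vale.Agent.P184.H788.ProdN
import Mathlib.GroupTheory.FiniteAbelian.Basic
import Mathlib.GroupTheory.Schreier

namespace Vale.Agent.P184.H290

open Vale.Agent.P184 Vale.Agent.P184.H788

universe u

/-- A finitely generated abelian group: an element outside a subgroup `R` is outside `R M^k`. -/
theorem exists_pow_sep {M : Type u} [CommGroup M] [Group.FG M] (R : Subgroup M) {d : M}
    (hd : d ∉ R) : ∃ (P : Subgroup M) (k : ℕ), 0 < k ∧ R ≤ P ∧ d ∉ P ∧ ∀ m : M, m ^ k ∈ P := by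
  classical
  obtain ⟨P, ⟨hRP, hdP⟩, hmax⟩ : ∃ P : Subgroup M, (R ≤ P ∧ d ∉ P) ∧
      ∀ P' : Subgroup M, P ≤ P' → d ∉ P' → P' ≤ P := by
    obtain ⟨P, hP, hmax⟩ := zorn_le_nonempty₀ {P : Subgroup M | d ∉ P} (fun c hc hchain y hy => by
      refine ⟨sSup c, ?_, fun z hz => le_sSup hz⟩
      intro hmem
      have := (Subgroup.mem_sSup_of_directedOn ⟨y, hy⟩ hchain.directedOn).1 hmem
      obtain ⟨s, hs, hds⟩ := this
      exact hc hs hds) R hd
    exact ⟨P, ⟨hP, hmax.1⟩, fun P' hle hd' => hmax.2 hd' hle⟩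
  -- every element of M / P is torsion
  have htor : IsMulTorsion (M ⧸ P) := by
    intro q
    obtain ⟨g, rfl⟩ := QuotientGroup.mk_surjective q
    by_contra hinf
    -- d ∈ P ⊔ zpowers g ; d^n ∈ P for some n
    have key : ∀ g' : M, g' ∉ P → ∃ n : ℤ, (g' ^ n)⁻¹ * d ∈ P := by
      intro g' hg'
      have h1 : d ∈ P ⊔ Subgroup.zpowers g' := by
        by_contra h
        have := hmax (P ⊔ Subgroup.zpowers g') le_sup_left h
        exact hg' (this (le_sup_right (a := P) (Subgroup.mem_zpowers g')))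
      obtain ⟨p, hp, z, hz, hpz⟩ := Subgroup.mem_sup.1 h1
      obtain ⟨n, rfl⟩ := Subgroup.mem_zpowers_iff.1 hz
      refine ⟨n, ?_⟩
      rw [← hpz, mul_comm p, inv_mul_cancel_left]
      exact hp
    have hfin : ∀ n : ℤ, g ^ n ∈ P → n = 0 := by
      intro n hn
      by_contra hn0
      apply hinf
      rw [isOfFinOrder_iff_zpow_eq_one]
      exact ⟨n, hn0, by rw [← QuotientGroup.mk_zpow]; exact (QuotientGroup.eq_one_iff _).2 hn⟩
    have hg : g ∉ P := fun h => by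
      have := hfin 1 (by simpa using h)
      exact one_ne_zero this
    obtain ⟨n, hn⟩ := key g hg
    have hn0 : n ≠ 0 := by
      rintro rfl
      simp only [zpow_zero, inv_one, one_mul] at hn
      exact hdP hn
    -- apply key to g ^ (2 n)
    have hg2 : g ^ (2 * n) ∉ P := fun h => by
      have := hfin _ h
      omega
    obtain ⟨m, hm⟩ := key _ hg2
    have h3 : g ^ (2 * n * m - n) ∈ P := by
      have := P.mul_mem hn (P.inv_mem hm)
      have e : (g ^ n)⁻¹ * d * (((g ^ (2 * n)) ^ m)⁻¹ * d)⁻¹ = g ^ (2 * n * m - n) := by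
        rw [zpow_sub, zpow_mul]
        group
      rwa [e] at this
    have h4 := hfin _ h3
    have : n * (2 * m - 1) = 0 := by linarith
    rcases mul_eq_zero.1 this with h | h
    · exact hn0 h
    · omega
  have : Finite (M ⧸ P) := CommGroup.finite_of_fg_isMulTorsion _ htor
  refine ⟨P, Nat.card (M ⧸ P), Nat.card_pos, hRP, hdP, fun m => ?_⟩
  rw [← QuotientGroup.eq_one_iff, QuotientGroup.mk_pow]
  exact pow_card_eq_one'

/-- Finitely generated abelian-by-finite groups are conjugacy separable. -/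
theorem conjSep_va {L : Type u} [Group L] (hfg : Group.FG L) (M : Subgroup L) [M.Normal]
    [M.FiniteIndex] (hM : ∀ a ∈ M, ∀ b ∈ M, a * b = b * a) (x y : L) (hxy : ¬ IsConj x y) :
    ∃ N : Subgroup L, N.Normal ∧ N.FiniteIndex ∧ ∀ c, c * x * c⁻¹ * y⁻¹ ∉ N := by
  classical
  have hFG : Group.FG M := Subgroup.fg_of_index_ne_zero M
  let _ : CommGroup M :=
    { (inferInstance : Group M) with
      mul_comm := fun a b => Subtype.ext (hM a a.2 b b.2) }
  have hFG' : Group.FG M := hFG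
  -- the commutator map
  let f : M → M := fun m => m * ⟨y * (m : L)⁻¹ * y⁻¹,
      ‹M.Normal›.conj_mem _ (M.inv_mem m.2) y⟩
  have hf : ∀ a b : M, f (a * b) = f a * f b := by
    intro a b
    have h0 : f a * f b = (a * b) * (⟨y * (a : L)⁻¹ * y⁻¹,
      ‹M.Normal›.conj_mem _ (M.inv_mem a.2) y⟩ * ⟨y * (b : L)⁻¹ * y⁻¹,
      ‹M.Normal›.conj_mem _ (M.inv_mem b.2) y⟩ : M) := mul_mul_mul_comm _ _ _ _
    rw [h0]
    have h1 : f (a * b) = (a * b) * (⟨y * ((a * b : M) : L)⁻¹ * y⁻¹,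
      ‹M.Normal›.conj_mem _ (M.inv_mem (a * b).2) y⟩ : M) := rfl
    rw [h1]
    refine congrArg _ (Subtype.ext ?_)
    have hc := hM _ (M.inv_mem a.2) _ (M.inv_mem b.2)
    show y * ((a : L) * (b : L))⁻¹ * y⁻¹ = y * (a : L)⁻¹ * y⁻¹ * (y * (b : L)⁻¹ * y⁻¹)
    rw [mul_inv_rev, ← hc]
    group
  let β : M →* M := MonoidHom.mk' f hf
  have hβ : ∀ m : M, ((β m : M) : L) = m * (y * (m : L)⁻¹ * y⁻¹) := fun m => rfl
  have hsep : ∀ c : L, ∃ k : ℕ, 0 < k ∧ ∀ (hd : c * x * c⁻¹ * y⁻¹ ∈ M), ∃ P : Subgroup M,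
      β.range ≤ P ∧ (⟨_, hd⟩ : M) ∉ P ∧ ∀ m : M, m ^ k ∈ P := by
    intro c
    by_cases hd : c * x * c⁻¹ * y⁻¹ ∈ M
    · have hnot : (⟨_, hd⟩ : M) ∉ β.range := by
        rintro ⟨m, hm⟩
        apply hxy
        have h1 : (m : L) * (y * (m : L)⁻¹ * y⁻¹) = c * x * c⁻¹ * y⁻¹ := by
          rw [← hβ m, hm]
        rw [isConj_iff]
        refine ⟨(m : L)⁻¹ * c, ?_⟩
        have h2 : c * x * c⁻¹ = (m : L) * y * (m : L)⁻¹ := by
          have := congrArg (· * y) h1
          simp only [mul_assoc] at this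
          simp only [inv_mul_cancel, mul_one] at this
          simp only [mul_assoc]
          exact this.symm
        calc (m : L)⁻¹ * c * x * ((m : L)⁻¹ * c)⁻¹ = (m : L)⁻¹ * (c * x * c⁻¹) * m := by group
          _ = y := by rw [h2]; group
      obtain ⟨P, k, hk, h1, h2, h3⟩ := exists_pow_sep β.range hnot
      exact ⟨k, hk, fun _ => ⟨P, h1, h2, h3⟩⟩
    · exact ⟨1, one_pos, fun h => absurd h hd⟩
  choose k hk hP using hsep
  have : Finite (L ⧸ M) := Subgroup.finite_quotient_of_finiteIndex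
  have : Fintype (L ⧸ M) := Fintype.ofFinite _
  set K : ℕ := ∏ q : L ⧸ M, k (q.out) with hK
  have hK0 : K ≠ 0 := Finset.prod_ne_zero_iff.2 fun q _ => (hk _).ne'
  have hfi := Subgroup.finiteIndex_range_powMonoidHom_of_fg M hK0
  set R : Subgroup M := (powMonoidHom (α := M) K).range with hR
  refine ⟨R.map M.subtype, ⟨?_⟩, ?_, ?_⟩
  · rintro _ ⟨_, ⟨m, rfl⟩, rfl⟩ g
    refine ⟨⟨g * m * g⁻¹, ‹M.Normal›.conj_mem _ m.2 g⟩ ^ K, ⟨_, rfl⟩, ?_⟩
    simp only [Subgroup.subtype_apply, SubgroupClass.coe_pow, powMonoidHom_apply, conj_pow]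
  · constructor
    have hle : R.map M.subtype ≤ M := by
      rintro _ ⟨m, -, rfl⟩
      exact m.2
    rw [← Subgroup.relIndex_mul_index hle]
    refine mul_ne_zero ?_ Subgroup.FiniteIndex.index_ne_zero
    rw [Subgroup.relIndex, Subgroup.subgroupOf,
      Subgroup.comap_map_eq_self_of_injective M.subtype_injective]
    exact hfi.index_ne_zero
  · rintro c ⟨w, hw, hwc⟩
    -- write c = m * c₀
    set c₀ : L := (QuotientGroup.mk c : L ⧸ M).out with hc₀
    have hm : c * c₀⁻¹ ∈ M := by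
      have h1 : (QuotientGroup.mk c : L ⧸ M) = QuotientGroup.mk c₀ := by
        rw [hc₀, QuotientGroup.out_eq']
      have h2 := QuotientGroup.eq.1 h1.symm
      have := ‹M.Normal›.conj_mem _ h2 c₀
      simpa [mul_assoc] using this
    obtain ⟨m, hmc⟩ : ∃ m : M, (m : L) * c₀ = c := ⟨⟨_, hm⟩, by simp⟩
    have e1 : c * x * c⁻¹ * y⁻¹ = (m : L) * (c₀ * x * c₀⁻¹ * y⁻¹) * (y * (m : L)⁻¹ * y⁻¹) := by
      rw [← hmc]; group
    have hyM : y * (m : L)⁻¹ * y⁻¹ ∈ M := ‹M.Normal›.conj_mem _ (M.inv_mem m.2) y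
    have hdM : c₀ * x * c₀⁻¹ * y⁻¹ ∈ M := by
      have h1 : c * x * c⁻¹ * y⁻¹ ∈ M := by rw [← hwc]; exact w.2
      rw [e1] at h1
      have h2 := M.mul_mem (M.mul_mem (M.inv_mem m.2) h1) (M.inv_mem hyM)
      simpa [mul_assoc] using h2
    obtain ⟨P, hP1, hP2, hP3⟩ := hP c₀ hdM
    apply hP2
    have hwP : w ∈ P := by
      obtain ⟨v, rfl⟩ := hw
      have hdvd : k c₀ ∣ K := by
        rw [hK]; exact Finset.dvd_prod_of_mem (fun q : L ⧸ M => k q.out) (Finset.mem_univ _)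
      obtain ⟨j, hj⟩ := hdvd
      rw [powMonoidHom_apply, hj, pow_mul]
      exact P.pow_mem (hP3 v) j
    have e2 : w = (⟨_, hdM⟩ : M) * β m := by
      apply Subtype.ext
      have h3 : (w : L) = c * x * c⁻¹ * y⁻¹ := hwc
      rw [h3, e1, Subgroup.coe_mul, hβ, hM _ m.2 _ hdM, mul_assoc]
    rw [e2] at hwP
    exact (P.mul_mem_cancel_right (hP1 ⟨m, rfl⟩)).1 hwP

/-- Torsion separability of finitely generated abelian-by-finite groups. -/
theorem torSep_va {L : Type u} [Group L] (hfg : Group.FG L) (M : Subgroup L) [M.Normal]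
    [M.FiniteIndex] (hM : ∀ a ∈ M, ∀ b ∈ M, a * b = b * a) : TorSep L :=
  fun x y _ _ h => conjSep_va hfg M hM x y h

end Vale.Agent.P184.H290
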