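import Vale.Agent.P184.H290.Spec

/-!
# P184: graph products
-/

namespace Vale.Agent.P184.H290

open Vale.Agent.P184

universe u v w

/-! ### graph products -/

section

variable {V : Type u} (Γ : SimpleGraph V) (G : V → Type v) [∀ v, Group (G v)]

/-- the relations of a graph product: adjacent vertex groups commute -/
def gpRel : Set (Monoid.CoprodI G) :=
  {x | ∃ v w, Γ.Adj v w ∧ ∃ (a : G v) (b : G w), x = Monoid.CoprodI.of a * Monoid.CoprodI.of b *
    (Monoid.CoprodI.of a)⁻¹ * (Monoid.CoprodI.of b)⁻¹}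

/-- The graph product of the groups `G v`. -/
def GP : Type _ := Monoid.CoprodI G ⧸ Subgroup.normalClosure (gpRel Γ G)

instance : Group (GP Γ G) := inferInstanceAs (Group (_ ⧸ Subgroup.normalClosure (gpRel Γ G)))

variable {G}

/-- the vertex groups of a graph product -/
def GP.of (v : V) : G v →* GP Γ G :=
  (QuotientGroup.mk' (Subgroup.normalClosure (gpRel Γ G))).comp Monoid.CoprodI.of

theorem GP.comm {v w : V} (h : Γ.Adj v w) (a : G v) (b : G w) :
    Commute (GP.of Γ v a) (GP.of Γ w b) := by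
  have h1 : (QuotientGroup.mk' (Subgroup.normalClosure (gpRel Γ G)))
      (Monoid.CoprodI.of a * Monoid.CoprodI.of b * (Monoid.CoprodI.of a)⁻¹ *
        (Monoid.CoprodI.of b)⁻¹) = 1 := by
    rw [QuotientGroup.mk'_apply, QuotientGroup.eq_one_iff]
    exact Subgroup.subset_normalClosure ⟨v, w, h, a, b, rfl⟩
  rw [map_mul, map_mul, map_mul, map_inv, map_inv, mul_inv_eq_one, mul_inv_eq_iff_eq_mul] at h1
  exact h1

variable {Γ} in
/-- homomorphisms from a graph product -/
def GP.lift {K : Type*} [Group K] (f : ∀ v, G v →* K)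
    (hf : ∀ v w, Γ.Adj v w → ∀ a b, Commute (f v a) (f w b)) : GP Γ G →* K :=
  QuotientGroup.lift (Subgroup.normalClosure (gpRel Γ G)) (Monoid.CoprodI.lift f) (by
    intro x hx
    have h1 : Subgroup.normalClosure (gpRel Γ G) ≤ (Monoid.CoprodI.lift f).ker := by
      refine Subgroup.normalClosure_le_normal ?_
      rintro _ ⟨v, w, h, a, b, rfl⟩
      change Monoid.CoprodI.lift f _ = 1
      rw [map_mul, map_mul, map_mul, map_inv, map_inv, mul_inv_eq_one, mul_inv_eq_iff_eq_mul,
        Monoid.CoprodI.lift_of, Monoid.CoprodI.lift_of]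
      exact hf v w h a b
    exact h1 hx)

theorem GP.lift_of {K : Type*} [Group K] (f : ∀ v, G v →* K)
    (hf : ∀ v w, Γ.Adj v w → ∀ a b, Commute (f v a) (f w b)) (v : V) (a : G v) :
    GP.lift f hf (GP.of Γ v a) = f v a := by
  change Monoid.CoprodI.lift f (Monoid.CoprodI.of a) = _
  rw [Monoid.CoprodI.lift_of]

theorem GP.induction_on {P : GP Γ G → Prop} (x : GP Γ G) (h1 : P 1)
    (h2 : ∀ v (a : G v), P (GP.of Γ v a)) (h3 : ∀ x y, P x → P y → P (x * y)) : P x := by
  obtain ⟨y, rfl⟩ := QuotientGroup.mk'_surjective (Subgroup.normalClosure (gpRel Γ G)) x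
  induction y using Monoid.CoprodI.induction_on with
  | one => exact h1
  | of i m => exact h2 i m
  | mul a b ha hb =>
    rw [map_mul]
    exact h3 _ _ ha hb

theorem GP.hom_eq {K : Type*} [Group K] {f g : GP Γ G →* K}
    (h : ∀ v (a : G v), f (GP.of Γ v a) = g (GP.of Γ v a)) (x : GP Γ G) : f x = g x := by
  induction x using GP.induction_on with
  | h1 => rw [map_one, map_one]
  | h2 v a => exact h v a
  | h3 x y hx hy => rw [map_mul, map_mul, hx, hy]

/-- induced subgraphs -/
abbrev Ind (p : V → Prop) : SimpleGraph {v // p v} := Γ.comap Subtype.val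

variable (G) in
/-- sub graph products -/
abbrev GS (p : V → Prop) : Type _ := GP (Ind Γ p) (fun v : {v // p v} => G v)

/-- the vertex groups of a sub graph product -/
def ofI (p : V → Prop) {v : V} (h : p v) : G v →* GS Γ G p :=
  GP.of (G := fun v : {v // p v} => G v) (Ind Γ p) ⟨v, h⟩

theorem ofI_comm (p : V → Prop) {v w : V} (hv : p v) (hw : p w) (h : Γ.Adj v w) (a : G v)
    (b : G w) : Commute (ofI Γ p hv a) (ofI Γ p hw b) :=
  GP.comm (G := fun v : {v // p v} => G v) (Ind Γ p) (v := ⟨v, hv⟩) (w := ⟨w, hw⟩) h a b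

theorem homI_eq (p : V → Prop) {K : Type*} [Group K] {f g : GS Γ G p →* K}
    (h : ∀ v (hv : p v) (a : G v), f (ofI Γ p hv a) = g (ofI Γ p hv a)) (x : GS Γ G p) :
    f x = g x := GP.hom_eq _ (fun v a => h v.1 v.2 a) x

theorem inductionI (p : V → Prop) {P : GS Γ G p → Prop} (x : GS Γ G p) (h1 : P 1)
    (h2 : ∀ v (hv : p v) (a : G v), P (ofI Γ p hv a)) (h3 : ∀ x y, P x → P y → P (x * y)) :
    P x := GP.induction_on _ x h1 (fun v a => h2 v.1 v.2 a) h3

/-- the inclusion of a sub graph product -/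
def GP.inc (p : V → Prop) : GS Γ G p →* GP Γ G :=
  GP.lift (fun v => GP.of Γ v.1) fun v w h a b => GP.comm Γ (v := v.1) (w := w.1) h a b

theorem GP.inc_of (p : V → Prop) {v : V} (h : p v) (a : G v) :
    GP.inc Γ p (ofI Γ p h a) = GP.of Γ v a :=
  GP.lift_of _ _ _ _ _

open Classical in
/-- the retraction to a sub graph product -/
noncomputable def GP.sub (p : V → Prop) : GP Γ G →* GS Γ G p :=
  GP.lift (fun v => if h : p v then ofI Γ p h else 1)
    fun v w h a b => by
      by_cases hv : p v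
      · by_cases hw : p w
        · rw [dif_pos hv, dif_pos hw]
          exact ofI_comm Γ p hv hw h a b
        · rw [dif_neg hw]
          exact Commute.one_right _
      · rw [dif_neg hv]
        exact Commute.one_left _

theorem GP.sub_of (p : V → Prop) {v : V} (h : p v) (a : G v) :
    GP.sub Γ p (GP.of Γ v a) = ofI Γ p h a := by
  classical
  unfold GP.sub
  rw [GP.lift_of, dif_pos h]

theorem GP.sub_inc (p : V → Prop) (x : GS Γ G p) :
    GP.sub Γ p (GP.inc Γ p x) = x := by
  refine homI_eq Γ p (f := (GP.sub Γ p).comp (GP.inc Γ p)) (g := MonoidHom.id _)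
    (fun v h a => ?_) x
  change GP.sub Γ p (GP.inc Γ p (ofI Γ p h a)) = ofI Γ p h a
  rw [GP.inc_of, GP.sub_of Γ p h]

/-- the inclusion of the product over a clique -/
noncomputable def GP.cl (C : Finset V) (hC : Γ.IsClique C) : (∀ v : C, G v) →* GP Γ G :=
  MonoidHom.noncommPiCoprod (fun v : C => GP.of Γ v.1) fun v w h a b =>
    GP.comm Γ (hC v.2 w.2 fun h' => h (Subtype.ext h')) a b

open Classical in
/-- the retraction to the product over a finite set -/
noncomputable def GP.rc (C : Finset V) : GP Γ G →* ∀ v : C, G v :=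
  GP.lift (fun v => if h : v ∈ C then MonoidHom.mulSingle (fun v : C => G v) ⟨v, h⟩ else 1)
    fun v w h a b => by
      by_cases hv : v ∈ C
      · by_cases hw : w ∈ C
        · rw [dif_pos hv, dif_pos hw]
          exact Pi.mulSingle_commute (f := fun v : C => G v) (i := ⟨v, hv⟩) (j := ⟨w, hw⟩)
            (fun h' => h.ne (congrArg Subtype.val h')) a b
        · rw [dif_neg hw]
          exact Commute.one_right _
      · rw [dif_neg hv]
        exact Commute.one_left _

theorem GP.cl_mulSingle [DecidableEq V] (C : Finset V) (hC : Γ.IsClique C) (v : C) (a : G v) :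
    GP.cl Γ C hC (Pi.mulSingle v a) = GP.of Γ v.1 a :=
  MonoidHom.noncommPiCoprod_mulSingle (N := fun v : C => G v) _ _ _

theorem GP.rc_cl (C : Finset V) (hC : Γ.IsClique C) (f : ∀ v : C, G v) :
    GP.rc Γ C (GP.cl Γ C hC f) = f := by
  classical
  have h1 : (GP.rc Γ C).comp (GP.cl Γ C hC) = MonoidHom.id (∀ v : C, G v) := by
    refine MonoidHom.pi_ext fun v a => ?_
    change GP.rc Γ C (GP.cl Γ C hC (Pi.mulSingle v a)) = Pi.mulSingle v a
    rw [GP.cl_mulSingle]
    unfold GP.rc
    rw [GP.lift_of, dif_pos v.2, MonoidHom.mulSingle_apply]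
  exact DFunLike.congr_fun h1 f

theorem GP.exists_support (x : GP Γ G) :
    ∃ J : Finset V, ∀ J' : Finset V, J ⊆ J' →
      GP.inc Γ (· ∈ J') (GP.sub Γ (· ∈ J') x) = x := by
  classical
  induction x using GP.induction_on with
  | h1 => exact ⟨∅, fun J' _ => by rw [map_one, map_one]⟩
  | h2 v a =>
    refine ⟨{v}, fun J' h => ?_⟩
    rw [GP.sub_of Γ (· ∈ J') (h (Finset.mem_singleton_self v)), GP.inc_of]
  | h3 x y hx hy =>
    obtain ⟨J, hJ⟩ := hx
    obtain ⟨K, hK⟩ := hy
    refine ⟨J ∪ K, fun J' h => ?_⟩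
    rw [map_mul, map_mul, hJ J' (Finset.subset_union_left.trans h),
      hK J' (Finset.subset_union_right.trans h)]

/-! ### one vertex -/

section vertex

variable (v : V)

variable (G) in
/-- the two factors at a vertex -/
abbrev Fac (b : Bool) : Type _ :=
  match b with
  | true => GS Γ G (· ≠ v)
  | false => G v × GS Γ G (Γ.Adj v)

instance (b : Bool) : Group (Fac Γ G v b) :=
  match b with
  | true => inferInstanceAs (Group (GS Γ G (· ≠ v)))
  | false => inferInstanceAs (Group (G v × GS Γ G (Γ.Adj v)))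

/-- the structure maps at a vertex -/
noncomputable def phi (b : Bool) : GS Γ G (Γ.Adj v) →* Fac Γ G v b :=
  match b with
  | true => (GP.sub Γ (· ≠ v)).comp (GP.inc Γ (Γ.Adj v))
  | false => MonoidHom.inr _ _

/-- the retractions at a vertex -/
noncomputable def rho (b : Bool) : Fac Γ G v b →* GS Γ G (Γ.Adj v) :=
  match b with
  | true => (GP.sub Γ (Γ.Adj v)).comp (GP.inc Γ (· ≠ v))
  | false => MonoidHom.snd _ _

theorem phi_true_of {w : V} (h : Γ.Adj v w) (a : G w) :
    phi Γ v true (ofI Γ (Γ.Adj v) h a) = ofI Γ (· ≠ v) h.ne' a := by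
  change GP.sub Γ (· ≠ v) (GP.inc Γ (Γ.Adj v) (ofI Γ (Γ.Adj v) h a)) = _
  rw [GP.inc_of, GP.sub_of Γ (· ≠ v) h.ne']

theorem rho_phi (b : Bool) (x : GS Γ G (Γ.Adj v)) : rho Γ v b (phi Γ v b x) = x := by
  match b with
  | true =>
    refine homI_eq Γ (Γ.Adj v) (f := (rho Γ v true).comp (phi Γ v true))
      (g := MonoidHom.id _) (fun w h a => ?_) x
    change rho Γ v true (phi Γ v true (ofI Γ (Γ.Adj v) h a)) = ofI Γ (Γ.Adj v) h a
    rw [phi_true_of]
    change GP.sub Γ (Γ.Adj v) (GP.inc Γ (· ≠ v) (ofI Γ (· ≠ v) _ a)) = _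
    rw [GP.inc_of, GP.sub_of Γ (Γ.Adj v) h]
  | false => rfl

open Monoid Monoid.PushoutI

theorem of_true_comm (a : G v) {w : V} (h : Γ.Adj v w) (b : G w) :
    Commute (PushoutI.of (φ := phi (G := G) Γ v) false ((a, 1) : G v × _))
      (PushoutI.of (φ := phi (G := G) Γ v) true (ofI Γ (· ≠ v) h.ne' b)) := by
  have h1 := phi_true_of Γ v h b
  rw [← h1, of_apply_eq_base, ← of_apply_eq_base (phi (G := G) Γ v) false]
  have h2 : Commute ((a, 1) : G v × GS Γ G (Γ.Adj v))
      (MonoidHom.inr (G v) (GS Γ G (Γ.Adj v)) (ofI Γ (Γ.Adj v) h b)) :=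
    Prod.ext ((mul_one a).trans (one_mul a).symm) ((one_mul _).trans (mul_one _).symm)
  exact h2.map (PushoutI.of (φ := phi (G := G) Γ v) false)

open Classical in
/-- the map to the amalgam -/
noncomputable def toAm : GP Γ G →* PushoutI (phi (G := G) Γ v) :=
  GP.lift (Function.update (fun w => if h : w ≠ v then
      (PushoutI.of (φ := phi (G := G) Γ v) true).comp (ofI Γ (· ≠ v) h) else 1) v
      ((PushoutI.of (φ := phi (G := G) Γ v) false).comp
        (MonoidHom.inl (G v) (GS Γ G (Γ.Adj v)))))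
    fun w w' h a b => by
      by_cases hw : w = v
      · subst hw
        rw [Function.update_self, Function.update_of_ne h.ne', dif_pos h.ne']
        exact of_true_comm Γ w a h b
      · by_cases hw' : w' = v
        · subst hw'
          rw [Function.update_self, Function.update_of_ne h.ne, dif_pos h.ne]
          exact (of_true_comm Γ w' b h.symm a).symm
        · rw [Function.update_of_ne hw, Function.update_of_ne hw', dif_pos hw, dif_pos hw']
          exact (ofI_comm Γ (· ≠ v) hw hw' h a b).map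
            (PushoutI.of (φ := phi (G := G) Γ v) true)

theorem commute_inc (a : G v) (x : GS Γ G (Γ.Adj v)) :
    Commute (GP.of Γ v a) (GP.inc Γ (Γ.Adj v) x) := by
  induction x using inductionI with
  | h1 => rw [map_one]; exact Commute.one_right _
  | h2 w h b => rw [GP.inc_of]; exact GP.comm Γ h a b
  | h3 x y hx hy => rw [map_mul]; exact hx.mul_right hy

/-- the parts of the map from the amalgam -/
noncomputable def frA (b : Bool) : Fac Γ G v b →* GP Γ G :=
  match b with
  | true => GP.inc Γ (· ≠ v)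
  | false => (GP.of Γ v).noncommCoprod (GP.inc Γ (Γ.Adj v)) (commute_inc Γ v)

theorem frA_true (x : GS Γ G (· ≠ v)) : frA Γ v true x = GP.inc Γ (· ≠ v) x := rfl

theorem frA_false (x : G v × GS Γ G (Γ.Adj v)) :
    frA Γ v false x = GP.of Γ v x.1 * GP.inc Γ (Γ.Adj v) x.2 := rfl

theorem frA_phi (b : Bool) (x : GS Γ G (Γ.Adj v)) :
    frA Γ v b (phi Γ v b x) = GP.inc Γ (Γ.Adj v) x := by
  match b with
  | true =>
    refine homI_eq Γ (Γ.Adj v) (f := (frA Γ v true).comp (phi Γ v true))
      (g := GP.inc Γ (Γ.Adj v)) (fun w h a => ?_) x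
    rw [MonoidHom.comp_apply, phi_true_of, frA_true, GP.inc_of, GP.inc_of]
  | false =>
    refine (frA_false Γ v (1, x)).trans ?_
    rw [map_one, one_mul]

/-- the map from the amalgam -/
noncomputable def frAm : PushoutI (phi (G := G) Γ v) →* GP Γ G :=
  PushoutI.lift (frA Γ v) (GP.inc Γ (Γ.Adj v)) fun b => MonoidHom.ext (frA_phi Γ v b)

theorem frAm_of (b : Bool) (x : Fac Γ G v b) :
    frAm Γ v (PushoutI.of b x) = frA Γ v b x := by
  unfold frAm
  rw [PushoutI.lift_of]

theorem fr_to (x : GP Γ G) : frAm Γ v (toAm Γ v x) = x := by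
  classical
  refine GP.hom_eq (f := (frAm Γ v).comp (toAm Γ v)) (g := MonoidHom.id _) _
    (fun w a => ?_) x
  change frAm Γ v (toAm Γ v (GP.of Γ w a)) = GP.of Γ w a
  unfold toAm
  rw [GP.lift_of]
  by_cases hw : w = v
  · subst hw
    rw [Function.update_self]
    refine (frAm_of Γ w false (a, 1)).trans ?_
    rw [frA_false, map_one, mul_one]
  · rw [Function.update_of_ne hw, dif_pos hw]
    refine (frAm_of Γ v true (ofI Γ (· ≠ v) hw a)).trans ?_
    rw [frA_true, GP.inc_of]

end vertex

/-! ### cliques -/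

section cliques

variable {S : Type w} [Group S]

/-- the product over a set of vertices of an induced subgraph -/
theorem l1Bass_map (p : V → Prop) (C : Finset {v // p v})
    (h : L1Bass (S × ∀ v : (C.map (Function.Embedding.subtype p)), G v)) :
    L1Bass (S × ∀ v : C, G v.1.1) := by
  have h1 : ∀ v : (C.map (Function.Embedding.subtype p)), ∃ h : p v.1, ⟨v.1, h⟩ ∈ C := by
    rintro ⟨v, hv⟩
    obtain ⟨w, hw, rfl⟩ := Finset.mem_map.1 hv
    exact ⟨w.2, hw⟩
  choose h2 h3 using h1
  exact l1Bass_retract (P := S × ∀ v : (C.map (Function.Embedding.subtype p)), G v)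
    (Q := S × ∀ v : C, G v.1.1)
    { toFun := fun x => (x.1, fun v => x.2 ⟨⟨v.1, h2 v⟩, h3 v⟩)
      map_one' := rfl
      map_mul' := fun _ _ => rfl }
    { toFun := fun x => (x.1, fun v => x.2 ⟨v.1.1, Finset.mem_map_of_mem _ v.2⟩)
      map_one' := rfl
      map_mul' := fun _ _ => rfl } (fun x => rfl) h

open Classical in
/-- the product over a vertex and a set of neighbours -/
theorem l1Bass_insert (v : V) (C : Finset {w // Γ.Adj v w})
    (h : L1Bass (S × ∀ w : (insert v (C.map (Function.Embedding.subtype (Γ.Adj v))) :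
      Finset V), G w)) : L1Bass ((S × G v) × ∀ w : C, G w.1.1) := by
  set D : Finset V := insert v (C.map (Function.Embedding.subtype (Γ.Adj v))) with hD
  have h1 : ∀ w : D, w.1 ≠ v → ∃ h : Γ.Adj v w.1, ⟨w.1, h⟩ ∈ C := by
    rintro ⟨w, hw⟩ hwv
    rcases Finset.mem_insert.1 hw with hw | hw
    · exact absurd hw hwv
    · obtain ⟨u, hu, rfl⟩ := Finset.mem_map.1 hw
      exact ⟨u.2, hu⟩
  choose h2 h3 using h1
  have hv : v ∈ D := Finset.mem_insert_self _ _
  have hm : ∀ w : C, w.1.1 ∈ D := fun w =>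
    Finset.mem_insert_of_mem (Finset.mem_map_of_mem (Function.Embedding.subtype _) w.2)
  let F : (∀ w : C, G w.1.1) → ∀ w : D, G w := fun y w =>
    if h : w.1 = v then 1 else y ⟨⟨w.1, h2 w h⟩, h3 w h⟩
  have F1 : F 1 = 1 := by
    funext w
    by_cases h : w.1 = v
    · exact dif_pos h
    · exact (dif_neg h).trans rfl
  have F2 : ∀ y z, F (y * z) = F y * F z := by
    intro y z
    funext w
    rw [Pi.mul_apply]
    by_cases h : w.1 = v
    · simp only [F, dif_pos h, one_mul]
    · simp only [F, dif_neg h, Pi.mul_apply]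
  refine l1Bass_retract (P := S × ∀ w : D, G w) (Q := (S × G v) × ∀ w : C, G w.1.1)
    { toFun := fun x => (x.1.1, Function.update (F x.2) ⟨v, hv⟩ x.1.2)
      map_one' := ?_
      map_mul' := ?_ }
    { toFun := fun x => ((x.1, x.2 ⟨v, hv⟩), fun w => x.2 ⟨w.1.1, hm w⟩)
      map_one' := rfl
      map_mul' := fun _ _ => rfl } (fun x => ?_) h
  · refine Prod.ext rfl ?_
    change Function.update (F 1) ⟨v, hv⟩ 1 = 1
    rw [F1, Function.update_one]
  · intro x y
    refine Prod.ext rfl ?_
    change Function.update (F (x.2 * y.2)) ⟨v, hv⟩ (x.1.2 * y.1.2) = _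
    rw [F2, Function.update_mul]
    rfl
  · refine Prod.ext (Prod.ext rfl ?_) (funext fun w => ?_)
    · change Function.update (F x.2) ⟨v, hv⟩ x.1.2 ⟨v, hv⟩ = x.1.2
      rw [Function.update_self]
    · have hw : w.1.1 ≠ v := w.1.2.ne'
      change Function.update (F x.2) ⟨v, hv⟩ x.1.2 ⟨w.1.1, hm w⟩ = x.2 w
      rw [Function.update_of_ne fun h' => hw (congrArg Subtype.val h')]
      exact dif_neg hw

end cliques

end

/-- the case of finitely many vertices -/
theorem gp_finite (n : ℕ) : ∀ (V : Type u) [Finite V] (Γ : SimpleGraph V) (G : V → Type v)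
    [∀ v, Group (G v)] (S : Type (max v w)) [Group S], Nat.card V = n →
    (∀ C : Finset V, Γ.IsClique C → L1Bass (S × ∀ v : C, G v)) → L1Bass (S × GP Γ G) := by
  classical
  induction n using Nat.strong_induction_on with
  | _ n ih =>
  intro V _ Γ G _ S _ hn h
  subst hn
  rcases isEmpty_or_nonempty V with hV | ⟨⟨v⟩⟩
  · have h1 : ∀ x : GP Γ G, x = 1 := fun x =>
      GP.induction_on Γ (P := fun x => x = 1) x rfl (fun v => isEmptyElim v)
        fun x y hx hy => by rw [hx, hy, mul_one]
    refine l1Bass_retract (P := S × ∀ v : (∅ : Finset V), G v) (Q := S × GP Γ G)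
      ((MonoidHom.id S).prodMap 1) ((MonoidHom.id S).prodMap 1)
      (fun x => Prod.ext rfl (h1 x.2).symm) (h ∅ ?_)
    rw [Finset.coe_empty]
    exact Γ.isClique_empty
  · refine l1Bass_retract (P := S × Monoid.PushoutI (phi (G := G) Γ v)) (Q := S × GP Γ G)
      ((MonoidHom.id S).prodMap (toAm Γ v)) ((MonoidHom.id S).prodMap (frAm Γ v))
      (fun x => Prod.ext rfl (fr_to Γ v x.2)) ?_
    rw [amalgam_spec (phi (G := G) Γ v) (rho Γ v) (rho_phi Γ v)]
    rintro (_ | _)
    · refine l1Bass_retract (P := (S × G v) × GS Γ G (Γ.Adj v)) (Q := S × (G v × GS Γ G (Γ.Adj v)))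
        { toFun := fun x => ((x.1, x.2.1), x.2.2)
          map_one' := rfl
          map_mul' := fun _ _ => rfl }
        { toFun := fun x => (x.1.1, (x.1.2, x.2))
          map_one' := rfl
          map_mul' := fun _ _ => rfl } (fun x => rfl) ?_
      refine ih _ (Finite.card_subtype_lt (x := v) (Γ.loopless.irrefl v)) _ _ _ _ rfl
        fun C hC => l1Bass_insert Γ v C (h _ ?_)
      intro a ha b hb hab
      rw [Finset.mem_coe, Finset.mem_insert] at ha hb
      rcases ha with rfl | ha
      · rcases hb with rfl | hb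
        · exact absurd rfl hab
        · obtain ⟨b, hb, rfl⟩ := Finset.mem_map.1 hb
          exact b.2
      · obtain ⟨a, ha', rfl⟩ := Finset.mem_map.1 ha
        rcases hb with rfl | hb
        · exact a.2.symm
        · obtain ⟨b, hb', rfl⟩ := Finset.mem_map.1 hb
          exact hC ha' hb' fun h' => hab (by rw [h'])
    · refine ih _ (Finite.card_subtype_lt (x := v) fun h' => h' rfl) _ _ _ _ rfl
        fun C hC => l1Bass_map (· ≠ v) C (h _ ?_)
      intro a ha b hb hab
      obtain ⟨a, ha', rfl⟩ := Finset.mem_map.1 ha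
      obtain ⟨b, hb', rfl⟩ := Finset.mem_map.1 hb
      exact hC ha' hb' fun h' => hab (by rw [h'])

/-- **Graph products, with a spectator.** -/
theorem graphProduct_spec {V : Type u} (Γ : SimpleGraph V) (G : V → Type v) [∀ v, Group (G v)]
    (S : Type w) [Group S] :
    L1Bass (S × GP Γ G) ↔ ∀ C : Finset V, Γ.IsClique C → L1Bass (S × ∀ v : C, G v) := by
  classical
  refine ⟨fun h C hC => l1Bass_retract (P := S × GP Γ G) (Q := S × ∀ v : C, G v)
    ((MonoidHom.id S).prodMap (GP.cl Γ C hC)) ((MonoidHom.id S).prodMap (GP.rc Γ C))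
    (fun x => Prod.ext rfl (GP.rc_cl Γ C hC x.2)) h, fun h => ?_⟩
  refine l1Bass_of_local.{max u v w, max u v w} fun T => ?_
  choose J hJ using GP.exists_support Γ (G := G)
  let K : Finset V := T.biUnion fun x => J x.2
  refine ⟨ULift.{v} S × GS Γ G (· ∈ K), inferInstance,
    (MulEquiv.ulift.toMonoidHom).prodMap (GP.inc Γ (· ∈ K)),
    fun x => (ULift.up x.1, GP.sub Γ (· ∈ K) x.2), ⟨?_, ?_⟩, ?_⟩
  · intro x hx
    exact Prod.ext rfl (hJ x.2 K (Finset.subset_biUnion_of_mem (fun x => J x.2) hx))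
  · intro x _ y _ _
    exact Prod.ext rfl (map_mul (GP.sub Γ (· ∈ K)) x.2 y.2).symm
  · refine gp_finite _ _ _ _ _ rfl fun C hC => l1Bass_map (· ∈ K) C ?_
    refine l1Bass_retract (P := S × ∀ v : (C.map (Function.Embedding.subtype (· ∈ K))), G v)
      (Q := ULift.{v} S × ∀ v : (C.map (Function.Embedding.subtype (· ∈ K))), G v)
      ((MulEquiv.ulift.toMonoidHom).prodMap (MonoidHom.id _))
      ((MulEquiv.ulift.symm.toMonoidHom).prodMap (MonoidHom.id _)) (fun x => rfl) (h _ ?_)
    intro a ha b hb hab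
    obtain ⟨a, ha', rfl⟩ := Finset.mem_map.1 ha
    obtain ⟨b, hb', rfl⟩ := Finset.mem_map.1 hb
    exact hC ha' hb' fun h' => hab (by rw [h'])

/-- **Graph products.** The `ℓ¹`-Bass conjecture holds for a graph product of groups, over an
arbitrary graph, if and only if it holds for the direct products of the vertex groups over the
finite cliques. For the graph without edges this is the case of free products, and right angled
Artin groups and right angled Coxeter groups are graph products of cyclic groups. -/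
theorem graphProduct {V : Type u} (Γ : SimpleGraph V) (G : V → Type v) [∀ v, Group (G v)] :
    L1Bass (GP Γ G) ↔ ∀ C : Finset V, Γ.IsClique C → L1Bass (∀ v : C, G v) := by
  have h1 : ∀ {Q : Type (max u v)} [Group Q], L1Bass (PUnit.{1} × Q) ↔ L1Bass Q := by
    intro Q _
    exact ⟨l1Bass_retract (MonoidHom.inr _ _) (MonoidHom.snd _ _) fun x => rfl,
      l1Bass_retract (MonoidHom.snd _ _) (MonoidHom.inr _ _) fun x => rfl⟩
  rw [← h1, graphProduct_spec]
  exact forall₂_congr fun C hC => h1

end Vale.Agent.P184.H290
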