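import Vale.Agent.P184.H290.Am2
import Vale.Agent.P184.Bdl.B3

/-!
# P184: amalgams over a common retract
-/

namespace Vale.Agent.P184.H290

open Monoid Monoid.PushoutI Vale.Agent.P184

universe u v w

/-- retracts -/
theorem l1Bass_retract {P Q : Type*} [Group P] [Group Q] (ι : Q →* P) (π : P →* Q)
    (hπ : ∀ x, π (ι x) = x) (h : L1Bass P) : L1Bass Q := by
  classical
  have hm : ∀ C : ConjClasses Q, ConjClasses.map π (ConjClasses.map ι C) = C := by
    intro C
    obtain ⟨x, rfl⟩ := ConjClasses.mk_surjective C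
    change ConjClasses.mk (π (ι x)) = _
    rw [hπ]
  intro q e he
  obtain ⟨b, hb, htau⟩ := pushforward ι e he
  obtain ⟨F, hF1, hF2⟩ := h q b hb
  refine ⟨F.image (ConjClasses.map π), ?_, ?_⟩
  · intro C hC
    obtain ⟨D, hD, rfl⟩ := Finset.mem_image.mp hC
    obtain ⟨y, rfl⟩ := ConjClasses.mk_surjective D
    exact isTorsionClass_mk.mpr (π.isOfFinOrder (isTorsionClass_mk.mp (hF1 _ hD)))
  · intro C hC
    have h1 : tau (ConjClasses.map ι C) b = 0 :=
      hF2 _ fun h2 => hC (Finset.mem_image.mpr ⟨_, h2, hm C⟩)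
    rw [← h1, htau]
    refine (tsum_classes_single he ι _ C rfl fun D hD hne => (hne ?_).elim).symm
    rw [← hm D, hD, hm]

open Classical in
/-- The trace of the image at a class is the sum of the traces at the classes above it. -/
theorem hasSum_push {P Q : Type*} [Group P] [Group Q] (π : P →* Q) {q : ℕ}
    {e : Matrix (Fin q) (Fin q) (P → ℂ)} (he : IsIdem e) (C : ConjClasses Q) :
    HasSum (fun D : ConjClasses P => if ConjClasses.map π D = C then tau D e else 0)
      (∑' g : {g : P // ConjClasses.mk (π g) = C}, ∑ i, e i i g) := by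
  set F : P → ℂ := fun h => ∑ i, e i i h with hF
  have hs : Summable F := summable_sum fun i _ => (he.1 i i).of_norm
  have hs1 : Summable fun h : {h : P // ConjClasses.mk (π h) = C} => F h := hs.subtype _
  have hs2 := (classEquiv π C).summable_iff.mpr hs1
  have h1 : ∑' h : {h : P // ConjClasses.mk (π h) = C}, F h =
      ∑' p, F (classEquiv π C p) := ((classEquiv π C).tsum_eq _).symm
  have h4 : HasSum (fun D : {D : ConjClasses P // ConjClasses.map π D = C} => tau D.1 e)
      (∑' h : {h : P // ConjClasses.mk (π h) = C}, F h) := by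
    rw [h1]
    refine HasSum.sigma (f := fun p => F (classEquiv π C p)) hs2.hasSum fun D => ?_
    have h5 := (hs2.sigma_factor D).hasSum
    rw [tau_eq]
    exact h5
  have h6 := (hasSum_subtype_iff_indicator (f := fun D : ConjClasses P => tau D e)
    (s := {D | ConjClasses.map π D = C})).1 h4
  have h7 : (fun D : ConjClasses P => if ConjClasses.map π D = C then tau D e else 0) =
      Set.indicator {D | ConjClasses.map π D = C} fun D => tau D e := by
    funext D
    by_cases hD : ConjClasses.map π D = C
    · rw [if_pos hD, Set.indicator_of_mem (by exact hD)]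
    · rw [if_neg hD, Set.indicator_of_notMem (by exact hD)]
  rw [h7]
  exact h6

section

variable {I : Type u} {G : I → Type v} {H : Type w} [∀ i, Group (G i)] [Group H]
  {φ : ∀ i, H →* G i} (ρ : ∀ i, G i →* H) (hρ : ∀ i x, ρ i (φ i x) = x)

open Classical in
include hρ in
theorem ret_aux (k i : I) :
    ((Function.update (fun i => (φ k).comp (ρ i)) k (MonoidHom.id (G k)) :
      ∀ i, G i →* G k) i).comp (φ i) = φ k := by
  by_cases hi : i = k
  · subst hi
    rw [Function.update_self, MonoidHom.id_comp]
  · rw [Function.update_of_ne hi]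
    ext x
    simp only [MonoidHom.comp_apply, hρ]

open Classical in
/-- the retraction to a factor -/
noncomputable def ret (k : I) : PushoutI φ →* G k :=
  lift (Function.update (fun i => (φ k).comp (ρ i)) k (MonoidHom.id (G k))) (φ k)
    (ret_aux ρ hρ k)

theorem ret_of (k : I) (a : G k) : ret ρ hρ k (of k a) = a := by
  classical
  unfold ret
  rw [lift_of, Function.update_self]
  rfl

theorem ret_of_ne {k i : I} (hik : i ≠ k) (a : G i) : ret ρ hρ k (of i a) = φ k (ρ i a) := by
  classical
  unfold ret
  rw [lift_of, Function.update_of_ne hik]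
  rfl

/-- the retraction to the base -/
noncomputable def retH : PushoutI φ →* H :=
  lift ρ (MonoidHom.id H) fun i => MonoidHom.ext (hρ i)

theorem retH_of (i : I) (a : G i) : retH ρ hρ (of i a) = ρ i a := by
  unfold retH
  rw [lift_of]

theorem retH_base (x : H) : retH ρ hρ (base φ x) = x := by
  unfold retH
  rw [lift_base]
  rfl

include hρ in
theorem inj (i : I) : Function.Injective (φ i) := fun x y h => by rw [← hρ i x, h, hρ]

include hρ in
/-- A class with a nonzero trace meets a factor. -/
theorem elliptic [Nonempty I] {q : ℕ} {e : Matrix (Fin q) (Fin q) (PushoutI φ → ℂ)}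
    (he : IsIdem e) (D : ConjClasses (PushoutI φ)) (hD : tau D e ≠ 0) :
    ∃ (i : I) (a : G i), D = ConjClasses.mk (of i a) := by
  obtain ⟨t, rfl⟩ := ConjClasses.mk_surjective D
  rcases cases_conj t with ⟨x, hx⟩ | ⟨i, a, ha⟩ | ⟨l, h1, h2, h3, h4⟩
  · refine ⟨Classical.arbitrary I, φ _ x, ?_⟩
    rw [ConjClasses.mk_eq_mk_iff_isConj, of_apply_eq_base]
    exact hx
  · exact ⟨i, a, ConjClasses.mk_eq_mk_iff_isConj.2 ha⟩
  · refine absurd ?_ hD
    rw [ConjClasses.mk_eq_mk_iff_isConj.2 h4]
    exact vanishesAt_of_charged (charged_cyc (inj ρ hρ) h1 h2 h3) q e he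

include hρ in
theorem isConj_phi_iff (i : I) (x y : H) : IsConj (φ i x) (φ i y) ↔ IsConj x y := by
  refine ⟨fun h => ?_, fun h => (φ i).map_isConj h⟩
  have h1 := (ρ i).map_isConj h
  rwa [hρ, hρ] at h1

/-- the trace at a class of a factor, away from the base -/
theorem tau_of [Nonempty I] {q : ℕ} {e : Matrix (Fin q) (Fin q) (PushoutI φ → ℂ)}
    (he : IsIdem e) (k : I) (c : G k) (hc : ∀ x, ¬ IsConj (φ k x) c) :
    tau (ConjClasses.mk (of k c)) e =
      ∑' g : {g : PushoutI φ // ConjClasses.mk (ret ρ hρ k g) = ConjClasses.mk c},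
        ∑ i, e i i g := by
  classical
  have h1 := (hasSum_push (ret ρ hρ k) he (ConjClasses.mk c)).tsum_eq
  rw [← h1, tsum_eq_single (ConjClasses.mk (of k c))]
  · rw [if_pos]
    change ConjClasses.mk (ret ρ hρ k (of k c)) = _
    rw [ret_of]
  · intro D hD
    by_cases h0 : tau D e = 0
    · rw [h0, ite_self]
    · obtain ⟨i, a, rfl⟩ := elliptic ρ hρ he D h0
      rw [if_neg]
      intro h2
      have h3 : ConjClasses.mk (ret ρ hρ k (of i a)) = ConjClasses.mk c := h2
      by_cases hi : i = k
      · subst hi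
        rw [ret_of] at h3
        refine hD ?_
        rw [ConjClasses.mk_eq_mk_iff_isConj] at h3 ⊢
        exact (of (φ := φ) i).map_isConj h3
      · rw [ret_of_ne ρ hρ hi, ConjClasses.mk_eq_mk_iff_isConj] at h3
        exact hc _ h3

/-- the trace at a class of the base -/
theorem tau_base [Nonempty I] [Fintype I] {q : ℕ}
    {e : Matrix (Fin q) (Fin q) (PushoutI φ → ℂ)} (he : IsIdem e) (x : H) :
    tau (ConjClasses.mk (base φ x)) e =
      (∑ k, ∑' g : {g : PushoutI φ // ConjClasses.mk (ret ρ hρ k g) = ConjClasses.mk (φ k x)},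
        ∑ i, e i i g) -
      ((Fintype.card I : ℂ) - 1) *
        ∑' g : {g : PushoutI φ // ConjClasses.mk (retH ρ hρ g) = ConjClasses.mk x},
          ∑ i, e i i g := by
  classical
  have h1 := fun k => hasSum_push (ret ρ hρ k) he (ConjClasses.mk (φ k x))
  have h2 := hasSum_push (retH ρ hρ) he (ConjClasses.mk x)
  have h3 := (hasSum_sum fun k (_ : k ∈ Finset.univ) => h1 k).sub
    (h2.mul_left ((Fintype.card I : ℂ) - 1))
  rw [← h3.tsum_eq, tsum_eq_single (ConjClasses.mk (base φ x))]
  · have e1 : ∀ k, ConjClasses.map (ret ρ hρ k) (ConjClasses.mk (base φ x)) =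
        ConjClasses.mk (φ k x) := by
      intro k
      change ConjClasses.mk (ret ρ hρ k (base φ x)) = _
      rw [← of_apply_eq_base φ k, ret_of]
    have e2 : ConjClasses.map (retH ρ hρ) (ConjClasses.mk (base φ x)) = ConjClasses.mk x := by
      change ConjClasses.mk (retH ρ hρ (base φ x)) = _
      rw [retH_base]
    rw [if_pos e2, Finset.sum_congr rfl fun k _ => if_pos (e1 k), Finset.sum_const,
      Finset.card_univ, nsmul_eq_mul]
    ring
  · intro D hD
    by_cases h0 : tau D e = 0
    · simp only [h0, ite_self, Finset.sum_const_zero, mul_zero, sub_zero]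
    · obtain ⟨i, a, rfl⟩ := elliptic ρ hρ he D h0
      have e1 : ∀ k, ConjClasses.map (ret ρ hρ k) (ConjClasses.mk (of i a)) =
          ConjClasses.mk (φ k x) ↔ k ≠ i ∧ IsConj (ρ i a) x := by
        intro k
        change ConjClasses.mk (ret ρ hρ k (of i a)) = _ ↔ _
        by_cases hi : i = k
        · subst hi
          refine ⟨fun h => ?_, fun h => absurd rfl h.1⟩
          rw [ret_of] at h
          refine absurd ?_ hD
          rw [ConjClasses.mk_eq_mk_iff_isConj] at h ⊢
          rw [← of_apply_eq_base φ i]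
          exact (of (φ := φ) i).map_isConj h
        · rw [ret_of_ne ρ hρ hi, ConjClasses.mk_eq_mk_iff_isConj, isConj_phi_iff ρ hρ]
          exact ⟨fun h => ⟨fun h' => hi h'.symm, h⟩, fun h => h.2⟩
      have e2 : ConjClasses.map (retH ρ hρ) (ConjClasses.mk (of i a)) = ConjClasses.mk x ↔
          IsConj (ρ i a) x := by
        change ConjClasses.mk (retH ρ hρ (of i a)) = _ ↔ _
        rw [retH_of, ConjClasses.mk_eq_mk_iff_isConj]
      by_cases hc : IsConj (ρ i a) x
      · rw [if_pos (e2.2 hc), Finset.sum_congr rfl fun k _ => if_congr (e1 k) rfl rfl]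
        simp only [hc, and_true]
        rw [Finset.sum_ite, Finset.sum_const_zero, add_zero, Finset.sum_const, Finset.filter_ne',
          Finset.card_erase_of_mem (Finset.mem_univ i), Finset.card_univ, nsmul_eq_mul,
          Nat.cast_sub (Fintype.card_pos (α := I)), Nat.cast_one, sub_self]
      · rw [if_neg (fun h => hc (e2.1 h)),
          Finset.sum_congr rfl fun k _ => if_neg (fun h => hc ((e1 k).1 h).2),
          Finset.sum_const_zero, mul_zero, sub_zero]

include hρ in
theorem l1Bass_finite [Nonempty I] [Finite I] (h : ∀ i, L1Bass (G i)) :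
    L1Bass (PushoutI φ) := by
  classical
  have hI := Fintype.ofFinite I
  let i₀ : I := Classical.arbitrary I
  have hH : L1Bass H := l1Bass_retract (φ i₀) (ρ i₀) (hρ i₀) (h i₀)
  intro q e he
  choose b hb htau using fun i => pushforward (ret ρ hρ i) e he
  obtain ⟨b', hb', htau'⟩ := pushforward (retH ρ hρ) e he
  choose F hF1 hF2 using fun i => h i q (b i) (hb i)
  obtain ⟨F', hF1', hF2'⟩ := hH q b' hb'
  refine ⟨F'.image (ConjClasses.map (base φ)) ∪ Finset.univ.biUnion fun i =>
    (F i).image (ConjClasses.map (of (φ := φ) i)), ?_, ?_⟩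
  · intro C hC
    rcases Finset.mem_union.1 hC with hC | hC
    · obtain ⟨D, hD, rfl⟩ := Finset.mem_image.mp hC
      obtain ⟨y, rfl⟩ := ConjClasses.mk_surjective D
      exact isTorsionClass_mk.mpr ((base φ).isOfFinOrder (isTorsionClass_mk.mp (hF1' _ hD)))
    · obtain ⟨i, _, hC⟩ := Finset.mem_biUnion.1 hC
      obtain ⟨D, hD, rfl⟩ := Finset.mem_image.mp hC
      obtain ⟨y, rfl⟩ := ConjClasses.mk_surjective D
      exact isTorsionClass_mk.mpr
        ((of (φ := φ) i).isOfFinOrder (isTorsionClass_mk.mp (hF1 i _ hD)))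
  · intro C hC
    rw [Finset.mem_union, not_or] at hC
    by_contra h0
    obtain ⟨k, a, rfl⟩ := elliptic ρ hρ he C h0
    refine h0 ?_
    have hof : ∀ i (c : G i), ConjClasses.mk (of (φ := φ) i c) = ConjClasses.mk (of k a) →
        tau (ConjClasses.mk c) (b i) = 0 := by
      intro i c hc
      refine hF2 i _ fun h2 => hC.2 (Finset.mem_biUnion.2
        ⟨i, Finset.mem_univ i, Finset.mem_image.2 ⟨_, h2, hc⟩⟩)
    by_cases hx : ∃ x, IsConj (φ k x) a
    · obtain ⟨x, hx⟩ := hx
      have h1 : ConjClasses.mk (base φ x) = ConjClasses.mk (of k a) := by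
        rw [ConjClasses.mk_eq_mk_iff_isConj, ← of_apply_eq_base φ k]
        exact (of (φ := φ) k).map_isConj hx
      rw [← h1, tau_base ρ hρ he x, ← htau', Finset.sum_congr rfl fun i _ => (htau i _).symm,
        Finset.sum_congr rfl fun i _ => hof i (φ i x) (by rw [of_apply_eq_base, h1]),
        Finset.sum_const_zero, hF2' (ConjClasses.mk x) fun h2 => hC.1
          (Finset.mem_image.2 ⟨_, h2, h1⟩), mul_zero, sub_zero]
    · rw [tau_of ρ hρ he k a fun x hx' => hx ⟨x, hx'⟩, ← htau]
      exact hof k a rfl

open Classical in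
/-- the projection to the amalgam of some of the factors -/
noncomputable def sub (J : Finset I) : PushoutI φ →* PushoutI (fun i : J => φ i) :=
  lift (fun i => if h : i ∈ J then of (φ := fun i : J => φ i) ⟨i, h⟩ else
    (base fun i : J => φ i).comp (ρ i)) (base fun i : J => φ i) (by
      intro i
      by_cases hi : i ∈ J
      · rw [dif_pos hi]
        exact MonoidHom.ext fun x => of_apply_eq_base (fun i : J => φ i) ⟨i, hi⟩ x
      · rw [dif_neg hi]
        ext x
        simp only [MonoidHom.comp_apply, hρ])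

/-- the inclusion of the amalgam of some of the factors -/
noncomputable def inc (φ : ∀ i, H →* G i) (J : Finset I) :
    PushoutI (fun i : J => φ i) →* PushoutI φ :=
  lift (fun i : J => of (φ := φ) i) (base φ) fun i => MonoidHom.ext fun x =>
    of_apply_eq_base φ i x

theorem inc_sub_base (J : Finset I) (x : H) : inc φ J (sub ρ hρ J (base φ x)) = base φ x := by
  unfold sub inc
  rw [lift_base, lift_base]

theorem inc_sub_of (J : Finset I) {i : I} (h : i ∈ J) (a : G i) :
    inc φ J (sub ρ hρ J (of i a)) = of i a := by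
  unfold sub inc
  rw [lift_of, dif_pos h, lift_of]

theorem exists_support (x : PushoutI φ) :
    ∃ J : Finset I, ∀ J' : Finset I, J ⊆ J' → inc φ J' (sub ρ hρ J' x) = x := by
  classical
  induction x using PushoutI.induction_on with
  | base x => exact ⟨∅, fun J' _ => inc_sub_base ρ hρ J' x⟩
  | of i m => exact ⟨{i}, fun J' h => inc_sub_of ρ hρ J' (h (Finset.mem_singleton_self i)) m⟩
  | mul x y hx hy =>
    obtain ⟨J, hJ⟩ := hx
    obtain ⟨K, hK⟩ := hy
    refine ⟨J ∪ K, fun J' h => ?_⟩
    rw [map_mul, map_mul, hJ J' (Finset.subset_union_left.trans h),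
      hK J' (Finset.subset_union_right.trans h)]

include hρ in
theorem l1Bass_amalgam [Nonempty I] (h : ∀ i, L1Bass (G i)) : L1Bass (PushoutI φ) := by
  classical
  refine l1Bass_of_local.{max u v w, max u v w} fun S => ?_
  choose J hJ using exists_support ρ hρ
  let K : Finset I := insert (Classical.arbitrary I) (S.biUnion J)
  have hK : Nonempty K := ⟨⟨_, Finset.mem_insert_self _ _⟩⟩
  refine ⟨PushoutI (fun i : K => φ i), inferInstance, inc φ K, sub ρ hρ K, ⟨?_, ?_⟩,
    l1Bass_finite (fun i : K => ρ i) (fun i => hρ i) fun i => h i⟩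
  · intro x hx
    exact hJ x K ((Finset.subset_biUnion_of_mem J hx).trans (Finset.subset_insert _ _))
  · intro x _ y _ _
    exact (map_mul (sub ρ hρ K) x y).symm

end

/-- **Amalgams over a common retract.** If `H` is a retract of every factor `G i`, then the
`ℓ¹`-Bass conjecture holds for the amalgamated product of the `G i` over `H` if and only if it
holds for every `G i`. For trivial `H` this is the case of free products. -/
theorem amalgam {I : Type u} [Nonempty I] {G : I → Type v} {H : Type w} [∀ i, Group (G i)]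
    [Group H] (φ : ∀ i, H →* G i) (ρ : ∀ i, G i →* H) (hρ : ∀ i x, ρ i (φ i x) = x) :
    L1Bass (PushoutI φ) ↔ ∀ i, L1Bass (G i) :=
  ⟨fun h i => l1Bass_retract (of (φ := φ) i) (ret ρ hρ i) (ret_of ρ hρ i) h,
    l1Bass_amalgam ρ hρ⟩

end Vale.Agent.P184.H290
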