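import Mathlib

/-!
# Words in amalgamated products (Mathlib's `Monoid.PushoutI`)
-/

namespace Vale.Agent.P184.H290

open Monoid Monoid.PushoutI

section

variable {I : Type*} {G : I → Type*} {H : Type*} [∀ i, Group (G i)] [Group H]
  {φ : ∀ i, H →* G i}

/-- reduced words -/
def Red (φ : ∀ i, H →* G i) (l : List (Σ i, G i)) : Prop :=
  (∀ x ∈ l, x.2 ∉ (φ x.1).range) ∧ (l.map Sigma.fst).IsChain fun x y => x ≠ y

variable (φ) in
/-- the value of a word -/
def val (l : List (Σ i, G i)) : PushoutI φ := (l.map fun x => of (φ := φ) x.1 x.2).prod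

theorem val_nil : val φ ([] : List (Σ i, G i)) = 1 := rfl

theorem val_cons (x : Σ i, G i) (l : List (Σ i, G i)) : val φ (x :: l) = of x.1 x.2 * val φ l := by
  rw [val, List.map_cons, List.prod_cons]; rfl

theorem val_append (l l' : List (Σ i, G i)) : val φ (l ++ l') = val φ l * val φ l' := by
  rw [val, List.map_append, List.prod_append]; rfl

theorem red_nil : Red φ [] := ⟨by simp, .nil⟩

theorem red_cons {x : Σ i, G i} {l : List (Σ i, G i)} :
    Red φ (x :: l) ↔ x.2 ∉ (φ x.1).range ∧ (∀ y ∈ (l.map Sigma.fst).head?, x.1 ≠ y) ∧ Red φ l := by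
  unfold Red
  rw [List.map_cons, List.isChain_cons, List.forall_mem_cons]
  tauto

theorem red_append {l l' : List (Σ i, G i)} :
    Red φ (l ++ l') ↔ Red φ l ∧ Red φ l' ∧
      ∀ x ∈ (l.map Sigma.fst).getLast?, ∀ y ∈ (l'.map Sigma.fst).head?, x ≠ y := by
  unfold Red
  rw [List.map_append, List.isChain_append]
  constructor
  · rintro ⟨h1, h2, h3, h4⟩
    exact ⟨⟨fun x hx => h1 x (List.mem_append_left _ hx), h2⟩,
      ⟨fun x hx => h1 x (List.mem_append_right _ hx), h3⟩, h4⟩
  · rintro ⟨⟨h1, h2⟩, ⟨h3, h4⟩, h5⟩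
    exact ⟨fun x hx => (List.mem_append.1 hx).elim (h1 x) (h3 x), h2, h4, h5⟩

theorem notMem_mul {i : I} {s : G i} (hs : s ∉ (φ i).range) (y : H) :
    s * φ i y ∉ (φ i).range := fun h => hs (by
  have := mul_mem h (inv_mem (⟨y, rfl⟩ : φ i y ∈ (φ i).range))
  rwa [mul_inv_cancel_right] at this)

/-- The index list of a reduced word is determined by its value. -/
theorem idx_unique (hφ : ∀ i, Function.Injective (φ i)) {l l' : List (Σ i, G i)} (hl : Red φ l)
    (hl' : Red φ l') {x x' : H} (h : base φ x * val φ l = base φ x' * val φ l') :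
    l.map Sigma.fst = l'.map Sigma.fst := by
  obtain ⟨d⟩ := NormalWord.transversal_nonempty φ hφ
  have key : ∀ (l : List (Σ i, G i)) (_ : Red φ l) (x : H), ∃ w : NormalWord d,
      w.prod = base φ x * val φ l ∧ w.toList.map Sigma.fst = l.map Sigma.fst := by
    intro l hl x
    let w : CoprodI.Word G := ⟨l, fun y hy h1 => hl.1 y hy (h1 ▸ one_mem _),
      (List.isChain_map _).1 hl.2⟩
    obtain ⟨w', h1, h2⟩ := Reduced.exists_normalWord_prod_eq d (w := w) (fun g hg => hl.1 g hg)
    refine ⟨x • w', ?_, h2⟩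
    rw [NormalWord.prod_base_smul, h1]
    refine congrArg (base φ x * ·) ?_
    change ofCoprodI (List.prod (l.map fun y => CoprodI.of y.2)) = _
    rw [map_list_prod, List.map_map, val]
    refine congrArg List.prod (List.map_congr_left fun y _ => ?_)
    exact ofCoprodI_of _ _
  obtain ⟨w, h1, h2⟩ := key l hl x
  obtain ⟨w', h1', h2'⟩ := key l' hl' x'
  have h3 : w = w' := NormalWord.prod_injective (by rw [h1, h1', h])
  rw [← h2, ← h2', h3]

theorem val_mul_base (l : List (Σ i, G i)) (hl : Red φ l) (b : H) :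
    ∃ (y : H) (l' : List (Σ i, G i)), Red φ l' ∧ val φ l * base φ b = base φ y * val φ l' ∧
      l'.map Sigma.fst = l.map Sigma.fst := by
  induction l with
  | nil => exact ⟨b, [], red_nil, by rw [val_nil, one_mul, mul_one], rfl⟩
  | cons x l ih =>
    obtain ⟨h1, h2, h3⟩ := red_cons.1 hl
    obtain ⟨y, l', h4, h5, h6⟩ := ih h3
    refine ⟨1, ⟨x.1, x.2 * φ x.1 y⟩ :: l', red_cons.2 ⟨notMem_mul h1 y, ?_, h4⟩, ?_, ?_⟩
    · rw [h6]; exact h2
    · rw [val_cons, mul_assoc, h5, val_cons, map_one, one_mul, map_mul, of_apply_eq_base, mul_assoc]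
    · rw [List.map_cons, List.map_cons, h6]

theorem val_mul_of (l : List (Σ i, G i)) (hl : Red φ l) (i : I) (a : G i) :
    ∃ (y : H) (l' : List (Σ i, G i)), Red φ l' ∧ val φ l * of i a = base φ y * val φ l' ∧
      (l = [] ∨ l' = [] ∨ (l'.map Sigma.fst).head? = (l.map Sigma.fst).head?) := by
  classical
  induction l with
  | nil =>
    by_cases ha : a ∈ (φ i).range
    · obtain ⟨b, rfl⟩ := ha
      exact ⟨b, [], red_nil, by rw [val_nil, one_mul, mul_one, of_apply_eq_base], Or.inl rfl⟩
    · refine ⟨1, [⟨i, a⟩], red_cons.2 ⟨ha, by simp, red_nil⟩, ?_, Or.inl rfl⟩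
      rw [val_nil, val_cons, val_nil, map_one, mul_one]
  | cons x l ih =>
    obtain ⟨h1, h2, h3⟩ := red_cons.1 hl
    obtain ⟨y, l', h4, h5, h6⟩ := ih h3
    obtain ⟨k, s⟩ := x
    rcases List.eq_nil_or_concat l with hnil | ⟨l0, z0, hl0⟩
    · -- the word has one letter
      subst hnil
      by_cases hki : k = i
      · subst hki
        by_cases hsa : s * a ∈ (φ k).range
        · obtain ⟨b, hb⟩ := hsa
          refine ⟨b, [], red_nil, ?_, Or.inr (Or.inl rfl)⟩
          rw [val_cons, val_nil, mul_one, mul_one, ← map_mul, ← hb, of_apply_eq_base]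
        · refine ⟨1, [⟨k, s * a⟩], red_cons.2 ⟨hsa, by simp, red_nil⟩, ?_,
            Or.inr (Or.inr rfl)⟩
          rw [val_cons, val_nil, val_cons, val_nil, mul_one, mul_one, map_one, one_mul, map_mul]
      · by_cases ha : a ∈ (φ i).range
        · obtain ⟨b, rfl⟩ := ha
          refine ⟨1, [⟨k, s * φ k b⟩], red_cons.2 ⟨notMem_mul h1 b, by simp, red_nil⟩, ?_,
            Or.inr (Or.inr rfl)⟩
          rw [val_cons, val_nil, val_cons, val_nil, mul_one, mul_one, map_one, one_mul, map_mul,
            of_apply_eq_base, of_apply_eq_base]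
        · refine ⟨1, [⟨k, s⟩, ⟨i, a⟩], red_cons.2 ⟨h1, ?_, red_cons.2 ⟨ha, by simp, red_nil⟩⟩, ?_,
            Or.inr (Or.inr rfl)⟩
          · intro y hy
            simp only [List.map_cons, List.map_nil, List.head?_cons, Option.mem_def,
              Option.some.injEq] at hy
            exact hy ▸ hki
          · simp only [val_cons, val_nil, mul_one, map_one, one_mul]
    · have hl' : l ≠ [] := by rw [hl0]; simp
      have hval : val φ (⟨k, s⟩ :: l) * of i a = of k (s * φ k y) * val φ l' := by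
        rw [val_cons, mul_assoc, h5, ← mul_assoc, map_mul, of_apply_eq_base]
      rcases h6 with h6 | h6 | h6
      · exact absurd h6 hl'
      · subst h6
        refine ⟨1, [⟨k, s * φ k y⟩], red_cons.2 ⟨notMem_mul h1 y, by simp, red_nil⟩, ?_,
          Or.inr (Or.inr rfl)⟩
        rw [hval, val_cons, val_nil, map_one, one_mul]
      · refine ⟨1, ⟨k, s * φ k y⟩ :: l', red_cons.2 ⟨notMem_mul h1 y, ?_, h4⟩, ?_,
          Or.inr (Or.inr rfl)⟩
        · rw [h6]; exact h2
        · rw [hval, val_cons, map_one, one_mul]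

theorem mul_ex (g : PushoutI φ) : ∀ l : List (Σ i, G i), Red φ l →
    ∃ (y : H) (l' : List (Σ i, G i)), Red φ l' ∧ val φ l * g = base φ y * val φ l' := by
  induction g using PushoutI.induction_on with
  | of i a =>
    intro l hl
    obtain ⟨y, l', h1, h2, _⟩ := val_mul_of l hl i a
    exact ⟨y, l', h1, h2⟩
  | base b =>
    intro l hl
    obtain ⟨y, l', h1, h2, _⟩ := val_mul_base l hl b
    exact ⟨y, l', h1, h2⟩
  | mul g g' ih ih' =>
    intro l hl
    obtain ⟨y, l1, h1, h2⟩ := ih l hl
    obtain ⟨y', l2, h3, h4⟩ := ih' l1 h1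
    exact ⟨y * y', l2, h3, by rw [← mul_assoc, h2, mul_assoc, h4, map_mul, mul_assoc]⟩

theorem exists_red (g : PushoutI φ) :
    ∃ (y : H) (l : List (Σ i, G i)), Red φ l ∧ g = base φ y * val φ l := by
  obtain ⟨y, l, h1, h2⟩ := mul_ex g [] red_nil
  exact ⟨y, l, h1, by rw [← h2, val_nil, one_mul]⟩

/-- the reduced form of `g` begins with a letter of the factor `j` -/
def Hd (j : I) (g : PushoutI φ) : Prop :=
  ∃ (y : H) (l : List (Σ i, G i)), Red φ l ∧ g = base φ y * val φ l ∧
    (l.map Sigma.fst).head? = some j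

variable {j : I}

theorem hd_base_mul (b : H) (g : PushoutI φ) : Hd j (base φ b * g) ↔ Hd j g := by
  constructor
  · rintro ⟨y, l, h1, h2, h3⟩
    refine ⟨b⁻¹ * y, l, h1, ?_, h3⟩
    rw [map_mul, map_inv, mul_assoc, ← h2, inv_mul_cancel_left]
  · rintro ⟨y, l, h1, h2, h3⟩
    exact ⟨b * y, l, h1, by rw [map_mul, mul_assoc, h2], h3⟩

theorem hd_iff (hφ : ∀ i, Function.Injective (φ i)) {l : List (Σ i, G i)} (hl : Red φ l) (y : H) :
    Hd j (base φ y * val φ l) ↔ (l.map Sigma.fst).head? = some j := by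
  constructor
  · rintro ⟨y', l', h1, h2, h3⟩
    rw [idx_unique hφ hl h1 h2, h3]
  · intro h
    exact ⟨y, l, hl, rfl, h⟩

theorem hd_val (hφ : ∀ i, Function.Injective (φ i)) {l : List (Σ i, G i)} (hl : Red φ l) :
    Hd j (val φ l) ↔ (l.map Sigma.fst).head? = some j := by
  rw [← hd_iff hφ hl 1, map_one, one_mul]

theorem not_hd_base (hφ : ∀ i, Function.Injective (φ i)) (y : H) : ¬ Hd j (base φ y) := by
  have := hd_iff (j := j) hφ (red_nil (φ := φ)) y
  rw [val_nil, mul_one] at this
  rw [this]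
  simp

theorem hd_mul_base (hφ : ∀ i, Function.Injective (φ i)) (b : H) (g : PushoutI φ) :
    Hd j (g * base φ b) ↔ Hd j g := by
  obtain ⟨y, l, h1, rfl⟩ := exists_red g
  obtain ⟨y', l', h2, h3, h4⟩ := val_mul_base l h1 b
  rw [mul_assoc, h3, hd_base_mul, hd_base_mul, hd_base_mul, hd_val hφ h1, hd_val hφ h2, h4]

theorem hd_mul_of (hφ : ∀ i, Function.Injective (φ i)) {i : I} (a : G i) {g : PushoutI φ}
    (h1 : g ∉ (base φ).range) (h2 : g * of i a ∉ (base φ).range) :
    Hd j (g * of i a) ↔ Hd j g := by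
  obtain ⟨y, l, h3, rfl⟩ := exists_red g
  obtain ⟨y', l', h4, h5, h6⟩ := val_mul_of l h3 i a
  rw [mul_assoc, h5] at h2
  rw [mul_assoc, h5, hd_base_mul, hd_iff hφ h4, hd_iff hφ h3]
  rcases h6 with rfl | rfl | h6
  · exact absurd ⟨y, by rw [val_nil, mul_one]⟩ h1
  · exact absurd ⟨y * y', by rw [val_nil, mul_one, map_mul]⟩ h2
  · rw [h6]

/-! ### powers and inverses -/

theorem pow_ex {l : List (Σ i, G i)} (hl : Red φ l) (hne : l ≠ [])
    (hc : ∀ x ∈ (l.map Sigma.fst).getLast?, ∀ y ∈ (l.map Sigma.fst).head?, x ≠ y) (m : ℕ) :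
    ∃ l' : List (Σ i, G i), Red φ l' ∧ val φ l' = val φ l ^ (m + 1) ∧
      (l'.map Sigma.fst).head? = (l.map Sigma.fst).head? := by
  induction m with
  | zero => exact ⟨l, hl, by rw [zero_add, pow_one], rfl⟩
  | succ m ih =>
    obtain ⟨l', h1, h2, h3⟩ := ih
    refine ⟨l ++ l', red_append.2 ⟨hl, h1, by rw [h3]; exact hc⟩, ?_, ?_⟩
    · rw [val_append, h2, ← pow_succ']
    · rw [List.map_append, List.head?_append_of_ne_nil]
      simpa using hne

/-- the inverse word -/
def invL (l : List (Σ i, G i)) : List (Σ i, G i) := (l.map fun x => (⟨x.1, x.2⁻¹⟩ : Σ i, G i)).reverse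

theorem invL_fst (l : List (Σ i, G i)) : (invL l).map Sigma.fst = (l.map Sigma.fst).reverse := by
  unfold invL
  rw [List.map_reverse, List.map_map]
  rfl

theorem red_invL {l : List (Σ i, G i)} (hl : Red φ l) : Red φ (invL l) := by
  constructor
  · intro x hx
    unfold invL at hx
    rw [List.mem_reverse, List.mem_map] at hx
    obtain ⟨y, hy, rfl⟩ := hx
    exact fun h => hl.1 y hy (by simpa using inv_mem h)
  · rw [invL_fst, List.isChain_reverse]
    exact hl.2.imp fun a b h => h.symm

theorem val_invL (l : List (Σ i, G i)) : val φ (invL l) = (val φ l)⁻¹ := by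
  induction l with
  | nil => rw [val_nil, inv_one]; rfl
  | cons x l ih =>
    have : invL (x :: l) = invL l ++ [⟨x.1, x.2⁻¹⟩] := by
      unfold invL
      rw [List.map_cons, List.reverse_cons]
    rw [this, val_append, ih, val_cons, val_cons, val_nil, mul_one, mul_inv_rev, map_inv]

/-! ### conjugacy -/

theorem conj_shift (x y : PushoutI φ) : IsConj (x * y) (y * x) :=
  isConj_iff.2 ⟨x⁻¹, by group⟩

/-- every element is conjugate to an element of the base group, of a factor, or to a cyclically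
reduced word -/
theorem cases_conj_val (n : ℕ) : ∀ l : List (Σ i, G i), l.length = n → Red φ l →
    (∃ h, IsConj (val φ l) (base φ h)) ∨ (∃ i a, IsConj (val φ l) (of i a)) ∨
      ∃ l' : List (Σ i, G i), Red φ l' ∧ l' ≠ [] ∧
        (∀ x ∈ (l'.map Sigma.fst).getLast?, ∀ y ∈ (l'.map Sigma.fst).head?, x ≠ y) ∧
        IsConj (val φ l) (val φ l') := by
  classical
  induction n using Nat.strong_induction_on with
  | _ n ih =>
    intro l hn hl
    rcases l with _ | ⟨⟨i, a⟩, l⟩
    · exact Or.inl ⟨1, by rw [val_nil, map_one]⟩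
    rcases List.eq_nil_or_concat' l with rfl | ⟨m, ⟨k, b⟩, rfl⟩
    · exact Or.inr (Or.inl ⟨i, a, by rw [val_cons, val_nil, mul_one]⟩)
    by_cases hki : k = i
    · subst hki
      obtain ⟨h1, h2, h3⟩ := red_cons.1 hl
      obtain ⟨h4, h5, h6⟩ := red_append.1 h3
      have hm : m ≠ [] := by
        rintro rfl
        exact h2 k (by simp) rfl
      obtain ⟨z, m', rfl⟩ := List.exists_cons_of_ne_nil hm
      have hlast : ∀ x ∈ ((z :: m').map Sigma.fst).getLast?, x ≠ k := fun x hx =>
        h6 x hx k (by simp)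
      have hconj : IsConj (val φ (⟨k, a⟩ :: (z :: m' ++ [⟨k, b⟩])))
          (val φ (z :: m') * of k (b * a)) := by
        have h20 : val φ ([⟨k, b⟩] : List (Σ i, G i)) = of k b := by
          rw [val_cons, val_nil, mul_one]
        have := conj_shift (of (φ := φ) k a) (val φ (z :: m') * of k b)
        rw [mul_assoc (val φ (z :: m')), ← map_mul] at this
        rwa [val_cons, val_append, h20]
      have hlen : (z :: m').length + 2 = n := by
        rw [← hn]; simp
      by_cases hba : b * a ∈ (φ k).range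
      · obtain ⟨y, hy⟩ := hba
        -- absorb the base element
        obtain ⟨h7, h8, h9⟩ := red_cons.1 h4
        let z' : Σ i, G i := ⟨z.1, φ z.1 y * z.2⟩
        have hz' : z'.2 ∉ (φ z'.1).range := fun h => h7 (by
          have := mul_mem (inv_mem (⟨y, rfl⟩ : φ z.1 y ∈ (φ z.1).range)) h
          rwa [inv_mul_cancel_left] at this)
        have hred : Red φ (z' :: m') := red_cons.2 ⟨hz', h8, h9⟩
        have h10 : IsConj (val φ (z :: m') * of k (b * a)) (val φ (z' :: m')) := by
          rw [← hy, of_apply_eq_base]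
          have := conj_shift (val φ (z :: m')) (base φ y)
          rwa [val_cons z, ← mul_assoc, ← of_apply_eq_base φ z.1 y, ← map_mul,
            of_apply_eq_base, ← val_cons z, ← val_cons z' m'] at this
        have h11 := hconj.trans h10
        rcases ih (z' :: m').length (by
          have : (z' :: m').length = (z :: m').length := by simp
          omega) _ rfl hred with ⟨h, hh⟩ | ⟨i', a', h⟩ | ⟨l', h12, h13, h14, h15⟩
        · exact Or.inl ⟨h, h11.trans hh⟩
        · exact Or.inr (Or.inl ⟨i', a', h11.trans h⟩)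
        · exact Or.inr (Or.inr ⟨l', h12, h13, h14, h11.trans h15⟩)
      · have hred : Red φ (z :: m' ++ [⟨k, b * a⟩]) := by
          refine red_append.2 ⟨h4, red_cons.2 ⟨hba, by simp, red_nil⟩, fun x hx y hy => ?_⟩
          simp only [List.map_cons, List.map_nil, List.head?_cons, Option.mem_def,
            Option.some.injEq] at hy
          rw [← hy]
          exact hlast x hx
        have h10 : val φ (z :: m') * of k (b * a) = val φ (z :: m' ++ [⟨k, b * a⟩]) := by
          have h20 : val φ ([⟨k, b * a⟩] : List (Σ i, G i)) = of k (b * a) := by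
            rw [val_cons, val_nil, mul_one]
          rw [val_append, h20]
        rw [h10] at hconj
        rcases ih (z :: m' ++ [(⟨k, b * a⟩ : Σ i, G i)]).length (by
          rw [List.length_append]
          simp only [List.length_singleton]
          omega) _ rfl hred with ⟨h, hh⟩ | ⟨i', a', h⟩ | ⟨l', h12, h13, h14, h15⟩
        · exact Or.inl ⟨h, hconj.trans hh⟩
        · exact Or.inr (Or.inl ⟨i', a', hconj.trans h⟩)
        · exact Or.inr (Or.inr ⟨l', h12, h13, h14, hconj.trans h15⟩)
    · refine Or.inr (Or.inr ⟨_, hl, List.cons_ne_nil _ _, ?_, IsConj.refl _⟩)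
      intro x hx y hy
      rw [← List.cons_append, List.map_append] at hx
      simp only [List.map_cons, List.map_nil, List.getLast?_append, List.getLast?_singleton,
        Option.some_or, Option.mem_def, Option.some.injEq, List.head?_cons] at hx hy
      rw [← hx, ← hy]
      exact hki

theorem cases_conj (g : PushoutI φ) :
    (∃ h, IsConj g (base φ h)) ∨ (∃ i a, IsConj g (of i a)) ∨
      ∃ l : List (Σ i, G i), Red φ l ∧ l ≠ [] ∧
        (∀ x ∈ (l.map Sigma.fst).getLast?, ∀ y ∈ (l.map Sigma.fst).head?, x ≠ y) ∧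
        IsConj g (val φ l) := by
  obtain ⟨y, l, h1, rfl⟩ := exists_red g
  rcases l with _ | ⟨z, m⟩
  · exact Or.inl ⟨y, by rw [val_nil, mul_one]⟩
  obtain ⟨h7, h8, h9⟩ := red_cons.1 h1
  let z' : Σ i, G i := ⟨z.1, φ z.1 y * z.2⟩
  have hz' : z'.2 ∉ (φ z'.1).range := fun h => h7 (by
    have := mul_mem (inv_mem (⟨y, rfl⟩ : φ z.1 y ∈ (φ z.1).range)) h
    rwa [inv_mul_cancel_left] at this)
  have hred : Red φ (z' :: m) := red_cons.2 ⟨hz', h8, h9⟩
  have h10 : base φ y * val φ (z :: m) = val φ (z' :: m) := by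
    rw [val_cons, ← mul_assoc, ← of_apply_eq_base φ z.1 y, ← map_mul, ← val_cons z' m]
  rw [h10]
  exact cases_conj_val _ _ rfl hred

end

end Vale.Agent.P184.H290
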