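import Vale.Agent.P184.H290.Ch
import Vale.Agent.P184.H290.Am1

/-!
# P184: elements of an amalgamated product not conjugate into a factor are charged
-/

namespace Vale.Agent.P184.H290

open Monoid Monoid.PushoutI Vale.Agent.P184

section

variable {I : Type*} {G : I → Type*} {H : Type*} [∀ i, Group (G i)] [Group H]
  {φ : ∀ i, H →* G i}

open Classical in
/-- does the last letter belong to the factor `j` -/
noncomputable def beta (φ : ∀ i, H →* G i) (j : I) (x : PushoutI φ ⧸ (base φ).range) : ℝ :=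
  if ∃ p : PushoutI φ, (p : PushoutI φ ⧸ (base φ).range) = x ∧ Hd j p⁻¹ then 1 else 0

open Classical in
theorem beta_mk (j : I) (p : PushoutI φ) :
    beta φ j (p : PushoutI φ ⧸ (base φ).range) = if Hd j p⁻¹ then 1 else 0 := by
  unfold beta
  refine if_congr ⟨?_, fun h => ⟨p, rfl, h⟩⟩ rfl rfl
  rintro ⟨p', h1, h2⟩
  obtain ⟨b, hb⟩ := QuotientGroup.eq.1 h1
  have h3 : p⁻¹ = base φ b⁻¹ * p'⁻¹ := by
    rw [map_inv, hb]; group
  rw [h3, hd_base_mul]
  exact h2

theorem beta_fin (hφ : ∀ i, Function.Injective (φ i)) (j : I) (g : PushoutI φ) :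
    {x | beta φ j (g • x) ≠ beta φ j x}.Finite := by
  classical
  induction g using PushoutI.induction_on with
  | of i a =>
    refine (Set.toFinite {((1 : PushoutI φ) : PushoutI φ ⧸ (base φ).range),
      (((of i a)⁻¹ : PushoutI φ) : PushoutI φ ⧸ (base φ).range)}).subset ?_
    intro x hx
    obtain ⟨p, rfl⟩ := QuotientGroup.mk_surjective x
    by_contra h
    rw [Set.mem_insert_iff, Set.mem_singleton_iff, not_or] at h
    refine hx ?_
    have h1 : p⁻¹ ∉ (base φ).range := fun h1 => h.1 (QuotientGroup.eq.2 (by rwa [mul_one]))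
    have h2 : p⁻¹ * of i a⁻¹ ∉ (base φ).range := fun h2 => h.2 (QuotientGroup.eq.2 (by
      rwa [← map_inv]))
    change beta φ j ((of i a * p : PushoutI φ) : PushoutI φ ⧸ (base φ).range) =
      beta φ j (p : PushoutI φ ⧸ (base φ).range)
    rw [beta_mk, beta_mk, mul_inv_rev, ← map_inv]
    exact if_congr (hd_mul_of hφ a⁻¹ h1 h2) rfl rfl
  | base b =>
    refine Set.Finite.subset Set.finite_empty ?_
    intro x hx
    obtain ⟨p, rfl⟩ := QuotientGroup.mk_surjective x
    refine hx ?_
    change beta φ j ((base φ b * p : PushoutI φ) : PushoutI φ ⧸ (base φ).range) =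
      beta φ j (p : PushoutI φ ⧸ (base φ).range)
    rw [beta_mk, beta_mk, mul_inv_rev, ← map_inv]
    exact if_congr (hd_mul_base hφ b⁻¹ p⁻¹) rfl rfl
  | mul g g' ih ih' =>
    refine ((ih.preimage (f := fun x => g' • x)
      (MulAction.injective g').injOn).union ih').subset ?_
    intro x hx
    by_contra h
    rw [Set.mem_union, not_or] at h
    refine hx ?_
    have h1 : beta φ j (g • (g' • x)) = beta φ j (g' • x) := by
      by_contra h1
      exact h.1 h1
    have h2 : beta φ j (g' • x) = beta φ j x := by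
      by_contra h2
      exact h.2 h2
    rw [mul_smul, h1, h2]

/-- **Cyclically reduced words are charged.** -/
theorem charged_cyc (hφ : ∀ i, Function.Injective (φ i)) {l : List (Σ i, G i)} (hl : Red φ l)
    (hne : l ≠ [])
    (hc : ∀ x ∈ (l.map Sigma.fst).getLast?, ∀ y ∈ (l.map Sigma.fst).head?, x ≠ y) :
    Charged (val φ l) := by
  classical
  have hne' : l.map Sigma.fst ≠ [] := by simpa using hne
  obtain ⟨j, hj⟩ : ∃ j, (l.map Sigma.fst).getLast? = some j :=
    ⟨_, List.getLast?_eq_some_getLast hne'⟩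
  obtain ⟨i, hi⟩ : ∃ i, (l.map Sigma.fst).head? = some i := ⟨_, List.head?_eq_some_head hne'⟩
  have hij : j ≠ i := hc j hj i hi
  -- the inverse word
  have hinv : Red φ (invL l) := red_invL hl
  have hinvne : invL l ≠ [] := by
    intro h
    have h1 := invL_fst l
    rw [h] at h1
    exact hne' (by simpa using h1.symm)
  have hinvc : ∀ x ∈ ((invL l).map Sigma.fst).getLast?,
      ∀ y ∈ ((invL l).map Sigma.fst).head?, x ≠ y := by
    rw [invL_fst, List.getLast?_reverse, List.head?_reverse]
    intro x hx y hy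
    exact (hc y hy x hx).symm
  set t := val φ l with ht
  have hB : ∀ m : ℤ, beta φ j ((t ^ m : PushoutI φ) : PushoutI φ ⧸ (base φ).range) =
      if 0 < m then 1 else 0 := by
    intro m
    rw [beta_mk]
    refine if_congr ?_ rfl rfl
    rcases lt_trichotomy 0 m with hm | hm | hm
    · refine ⟨fun _ => hm, fun _ => ?_⟩
      obtain ⟨n, hn⟩ : ∃ n : ℕ, m = n + 1 := ⟨(m - 1).toNat, by omega⟩
      obtain ⟨l', h1, h2, h3⟩ := pow_ex hinv hinvne hinvc n
      have h4 : (t ^ m)⁻¹ = val φ l' := by
        rw [h2, val_invL, ← ht, hn, inv_pow]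
        norm_cast
      rw [h4, hd_val hφ h1, h3, invL_fst, List.head?_reverse, hj]
    · subst hm
      rw [zpow_zero, inv_one, ← map_one (base φ)]
      exact ⟨fun h => (not_hd_base hφ _ h).elim, fun h => (lt_irrefl _ h).elim⟩
    · refine ⟨fun h => ?_, fun h => absurd h (not_lt.2 hm.le)⟩
      obtain ⟨n, hn⟩ : ∃ n : ℕ, m = -(n + 1) := ⟨(-m - 1).toNat, by omega⟩
      obtain ⟨l', h1, h2, h3⟩ := pow_ex hl hne hc n
      have h4 : (t ^ m)⁻¹ = val φ l' := by
        rw [h2, ← ht, hn, zpow_neg, inv_inv]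
        norm_cast
      rw [h4, hd_val hφ h1, h3, hi, Option.some.injEq] at h
      exact absurd h.symm hij
  refine charged_of_variation (beta φ j) (beta_fin hφ j) t
    ((1 : PushoutI φ) : PushoutI φ ⧸ (base φ).range) ?_
  have hsm : ∀ m : ℤ, beta φ j (t • ((t ^ m : PushoutI φ) : PushoutI φ ⧸ (base φ).range)) =
      if 0 < m + 1 then 1 else 0 := by
    intro m
    change beta φ j ((t * t ^ m : PushoutI φ) : PushoutI φ ⧸ (base φ).range) = _
    rw [← zpow_one_add, add_comm 1 m]
    exact hB (m + 1)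
  rw [tsum_eq_single ((1 : PushoutI φ) : PushoutI φ ⧸ (base φ).range)]
  · rw [if_pos ⟨0, by rw [zpow_zero, one_smul]⟩]
    have h1 := hsm 0
    have h2 := hB 0
    rw [zpow_zero] at h1 h2
    rw [h1, h2, if_pos (by norm_num), if_neg (by norm_num), sub_zero]
    exact one_ne_zero
  · intro x hx
    by_cases h : ∃ m : ℤ, t ^ m • ((1 : PushoutI φ) : PushoutI φ ⧸ (base φ).range) = x
    · rw [if_pos h]
      obtain ⟨m, hs⟩ := h
      have hs' : ((t ^ m * 1 : PushoutI φ) : PushoutI φ ⧸ (base φ).range) = x := hs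
      rw [mul_one] at hs'
      have hm0 : m ≠ 0 := by
        rintro rfl
        exact hx (by rw [← hs', zpow_zero])
      rw [← hs', hsm, hB, sub_eq_zero]
      refine if_congr ?_ rfl rfl
      omega
    · rw [if_neg h]

end

end Vale.Agent.P184.H290
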