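import Vale.Agent.P184.Defs

/-!
# P184: a function of finite variation with a drift along an orbit makes an element charged
-/

namespace Vale.Agent.P184.H290

open Vale.Agent.P184

/-- **Criterion.** `G` acts on `X`, `β : X → ℝ` has finite variation under every `g : G`, and the
total variation of `β` under `t` along some `t`-orbit is not zero. Then `t` is charged. -/
theorem charged_of_variation {G X : Type*} [Group G] [MulAction G X] (β : X → ℝ)
    (hfin : ∀ g : G, {x | β (g • x) ≠ β x}.Finite) (t : G) (x₀ : X)
    (hD : ∑' x, (open Classical in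
      if ∃ m : ℤ, t ^ m • x₀ = x then β (t • x) - β x else 0) ≠ 0) :
    Charged t := by
  classical
  set c : G → X → ℝ := fun g x => β (g • x) - β x with hc
  have hc' : ∀ g x, c g x = β (g • x) - β x := fun _ _ => rfl
  have hs : ∀ g, (Function.support (c g)).Finite := fun g =>
    (hfin g).subset (by
      intro x hx
      exact fun h => hx (by rw [hc', h, sub_self]))
  have hsum : ∀ (g : G) (f : X → ℝ), (∀ x, c g x = 0 → f x = 0) → Summable f := by
    intro g f hf
    exact summable_of_hasFiniteSupport ((hs g).subset (fun x hx h => hx (hf x h)))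
  have hcc : ∀ g h x, c (g * h) x = c g (h • x) + c h x := by
    intro g h x
    rw [hc', hc', hc', mul_smul]; ring
  -- orbits
  set R : X → X → Prop := fun x y => ∃ m : ℤ, t ^ m • x = y with hR
  have hRdef : ∀ x y, R x y ↔ ∃ m : ℤ, t ^ m • x = y := fun _ _ => Iff.rfl
  have hRt : ∀ x y, R x (t • y) ↔ R x y := by
    intro x y
    rw [hRdef, hRdef]
    constructor
    · rintro ⟨m, hm⟩
      refine ⟨-1 + m, ?_⟩
      rw [zpow_add, mul_smul, hm, zpow_neg_one, inv_smul_smul]
    · rintro ⟨m, hm⟩
      refine ⟨1 + m, ?_⟩
      rw [zpow_add, mul_smul, hm, zpow_one]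
  have hRg : ∀ g, Commute g t → ∀ x y, R (g • x) (g • y) ↔ R x y := by
    intro g hg x y
    rw [hRdef, hRdef]
    refine exists_congr fun m => ?_
    rw [← mul_smul, ← (hg.zpow_right m).eq, mul_smul]
    exact smul_left_cancel_iff g
  have hRsymm : ∀ x y, R x y → ∀ z, (R x z ↔ R y z) := by
    intro x y hxy z
    rw [hRdef] at hxy
    obtain ⟨m, rfl⟩ := hxy
    rw [hRdef, hRdef]
    constructor
    · rintro ⟨k, rfl⟩
      refine ⟨k - m, ?_⟩
      rw [← mul_smul, ← zpow_add, sub_add_cancel]
    · rintro ⟨k, rfl⟩
      refine ⟨k + m, ?_⟩
      rw [← mul_smul, ← zpow_add]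
  set D : X → ℝ := fun x => ∑' y, if R x y then c t y else 0 with hDd
  have hDdef : ∀ x, D x = ∑' y, if R x y then c t y else 0 := fun _ => rfl
  have hsR : ∀ g x, Summable fun y => if R x y then c g y else 0 := fun g x =>
    hsum g _ (fun y hy => by simp only [hy, ite_self])
  -- invariance of `D`
  have hDg : ∀ g, Commute g t → ∀ x, D (g • x) = D x := by
    intro g hg x
    have h1 : D (g • x) = ∑' y, if R x y then c t (g • y) else 0 := by
      rw [hDdef, ← (MulAction.toPerm g).tsum_eq]
      refine tsum_congr fun y => ?_
      rw [MulAction.toPerm_apply]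
      exact if_congr (hRg g hg x y) rfl rfl
    have h2 : ∀ y, c t (g • y) = c g (t • y) + c t y - c g y := by
      intro y
      rw [hc', hc', hc', hc', ← mul_smul, ← hg.eq, mul_smul]; ring
    have h3 : ∑' y, (if R x y then c g (t • y) else 0) = ∑' y, if R x y then c g y else 0 := by
      rw [← (MulAction.toPerm t).tsum_eq (fun y => if R x y then c g y else 0)]
      refine tsum_congr fun y => ?_
      rw [MulAction.toPerm_apply]
      exact (if_congr (hRt x y) rfl rfl).symm
    have hs3 : Summable fun y => if R x y then c g (t • y) else 0 := by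
      have := (MulAction.toPerm t).summable_iff.2 (hsR g x)
      refine this.congr fun y => ?_
      simp only [Function.comp_apply, MulAction.toPerm_apply]
      exact if_congr (hRt x y) rfl rfl
    have h4 : (fun y => if R x y then c t (g • y) else 0) = fun y =>
        (if R x y then c g (t • y) else 0) + (if R x y then c t y else 0) -
          (if R x y then c g y else 0) := by
      funext y
      by_cases h : R x y
      · simp only [h, if_true]; exact h2 y
      · simp only [h, if_false]; ring
    rw [h1, h4, (hs3.add (hsR t x)).tsum_sub (hsR g x), hs3.tsum_add (hsR t x), h3, hDdef]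
    ring
  set v := D x₀ with hv
  have hv0 : v ≠ 0 := hD
  refine ⟨fun g => ∑' x, |c g x|, fun g => ∑' x, if D x = v then c g x else 0,
    fun g h => ?_, fun g h hg hh => ?_, fun g _ => ?_, ?_⟩
  · have e1 : ∑' x, |c g (h • x)| = ∑' x, |c g x| := by
      rw [← (MulAction.toPerm h).tsum_eq (fun x => |c g x|)]
      rfl
    have s1 : Summable fun x => |c g (h • x)| := by
      have := (MulAction.toPerm h).summable_iff.2
        (hsum g (fun x => |c g x|) (fun x hx => by simp only [hx, abs_zero]))
      exact this
    have s2 : Summable fun x => |c h x| :=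
      hsum h _ (fun x hx => by simp only [hx, abs_zero])
    have s3 : Summable fun x => |c (g * h) x| :=
      hsum (g * h) _ (fun x hx => by simp only [hx, abs_zero])
    change ∑' x, |c (g * h) x| ≤ ∑' x, |c g x| + ∑' x, |c h x|
    rw [← e1, ← s1.tsum_add s2]
    refine s3.tsum_le_tsum (fun x => ?_) (s1.add s2)
    rw [hcc]
    exact abs_add_le _ _
  · have s1 : Summable fun x => if D x = v then c g x else 0 :=
      hsum g _ (fun x hx => by simp only [hx, ite_self])
    have s1' : Summable fun x => if D x = v then c g (h • x) else 0 := by
      have := (MulAction.toPerm h).summable_iff.2 s1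
      refine this.congr fun x => ?_
      simp only [Function.comp_apply, MulAction.toPerm_apply, hDg h hh]
    have s2 : Summable fun x => if D x = v then c h x else 0 :=
      hsum h _ (fun x hx => by simp only [hx, ite_self])
    have e1 : ∑' x, (if D x = v then c g (h • x) else 0) = ∑' x, if D x = v then c g x else 0 := by
      rw [← (MulAction.toPerm h).tsum_eq (fun x => if D x = v then c g x else 0)]
      refine tsum_congr fun x => ?_
      simp only [MulAction.toPerm_apply, hDg h hh]
    change ∑' x, (if D x = v then c (g * h) x else 0) =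
      ∑' x, (if D x = v then c g x else 0) + ∑' x, if D x = v then c h x else 0
    rw [← e1, ← s1'.tsum_add s2]
    refine tsum_congr fun x => ?_
    by_cases hx : D x = v
    · simp only [hx, if_true, hcc]
    · simp only [hx, if_false, add_zero]
  · change ∑' x, (if D x = v then c g x else 0) ≤ ∑' x, |c g x|
    refine Summable.tsum_le_tsum (fun x => ?_)
      (hsum g _ (fun x hx => by simp only [hx, ite_self]))
      (hsum g _ (fun x hx => by simp only [hx, abs_zero]))
    by_cases hx : D x = v
    · simp only [hx, if_true]; exact le_abs_self _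
    · simp only [hx, if_false]; exact abs_nonneg _
  · -- the value at `t`
    change ∑' x, (if D x = v then c t x else 0) ≠ 0
    set S : Finset X := (hs t).toFinset with hS
    have hSm : ∀ x, x ∉ S → c t x = 0 := by
      intro x hx
      rw [hS, Set.Finite.mem_toFinset, Function.mem_support, not_not] at hx
      exact hx
    let q : X → Set X := fun x => {y | R x y}
    have hqR : ∀ x y, q y = q x ↔ R x y := by
      intro x y
      constructor
      · intro h
        have h1 : y ∈ q y := by
          change R y y
          rw [hRdef]
          exact ⟨0, by rw [zpow_zero, one_smul]⟩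
        rw [h] at h1
        exact h1
      · intro h
        ext z
        exact (hRsymm x y h z).symm
    have e1 : ∑' x, (if D x = v then c t x else 0) = ∑ x ∈ S.filter (fun x => D x = v), c t x := by
      rw [tsum_eq_sum (s := S.filter (fun x => D x = v)), Finset.sum_congr rfl]
      · intro x hx
        rw [if_pos (Finset.mem_filter.1 hx).2]
      · intro x hx
        by_cases h : D x = v
        · rw [if_pos h]
          exact hSm x fun h1 => hx (Finset.mem_filter.2 ⟨h1, h⟩)
        · rw [if_neg h]
    set T := S.filter (fun x => D x = v) with hT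
    have e2 : ∀ x ∈ T, ∑ y ∈ T with q y = q x, c t y = v := by
      intro x hx
      have hx2 : D x = v := (Finset.mem_filter.1 hx).2
      rw [← hx2, hDdef, tsum_eq_sum (s := T.filter (fun y => q y = q x))]
      · refine Finset.sum_congr rfl fun y hy => ?_
        rw [if_pos ((hqR x y).1 (Finset.mem_filter.1 hy).2)]
      · intro y hy
        by_cases h : R x y
        · rw [if_pos h]
          refine hSm y fun h1 => hy (Finset.mem_filter.2 ⟨Finset.mem_filter.2 ⟨h1, ?_⟩, (hqR x y).2 h⟩)
          rw [← hx2, hDdef, hDdef]
          exact tsum_congr fun z => if_congr (hRsymm x y h z).symm rfl rfl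
        · rw [if_neg h]
    have e3 : ∑ x ∈ T, c t x = (T.image q).card • v := by
      rw [← Finset.sum_fiberwise_of_maps_to (s := T) (t := T.image q) (g := q)
        (fun x hx => Finset.mem_image_of_mem q hx), ← Finset.sum_const]
      refine Finset.sum_congr rfl fun ω hω => ?_
      obtain ⟨x, hx, rfl⟩ := Finset.mem_image.1 hω
      exact e2 x hx
    have e4 : T.Nonempty := by
      by_contra h
      rw [Finset.not_nonempty_iff_eq_empty] at h
      refine hv0 ?_
      rw [hv, hDdef]
      have h0 : ∀ y, (if R x₀ y then c t y else 0) = 0 := by
        intro y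
        by_cases h1 : R x₀ y
        · rw [if_pos h1]
          refine hSm y fun h2 => ?_
          have h3 : y ∈ T := Finset.mem_filter.2 ⟨h2, by
            rw [hv, hDdef, hDdef]
            exact tsum_congr fun z => if_congr (hRsymm x₀ y h1 z).symm rfl rfl⟩
          rw [h] at h3
          exact absurd h3 (Finset.notMem_empty y)
        · rw [if_neg h1]
      rw [tsum_congr h0, tsum_zero]
    rw [e1, e3, nsmul_eq_mul]
    refine mul_ne_zero ?_ hv0
    have : 0 < (T.image q).card := Finset.card_pos.2 (e4.image q)
    exact_mod_cast this.ne'

end Vale.Agent.P184.H290
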