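import Vale.Agent.P184.H290.Am1

/-!
# Sections along the tree of an amalgamated product
-/

namespace Vale.Agent.P184.H290

open Monoid Monoid.PushoutI

section

variable {I : Type*} {G : I → Type*} {H : Type*} [∀ i, Group (G i)] [Group H]
  {φ : ∀ i, H →* G i}

theorem exists_not_hd (hφ : ∀ i, Function.Injective (φ i)) (k : I) (g : PushoutI φ) :
    ∃ a : G k, ¬ Hd k (of k a * g) := by
  classical
  obtain ⟨y, l, h1, rfl⟩ := exists_red g
  rcases l with _ | ⟨⟨i, b⟩, m⟩
  · refine ⟨1, ?_⟩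
    rw [map_one, one_mul, val_nil, mul_one]
    exact not_hd_base hφ y
  · obtain ⟨h2, h3, h4⟩ := red_cons.1 h1
    by_cases hik : i = k
    · subst hik
      refine ⟨(φ i y * b)⁻¹, ?_⟩
      have h5 : of (φ := φ) i (φ i y * b)⁻¹ * (base φ y * val φ (⟨i, b⟩ :: m)) = val φ m := by
        rw [val_cons, ← of_apply_eq_base φ i, map_inv, map_mul]
        group
      rw [h5, hd_val hφ h4]
      intro h
      exact h3 i h rfl
    · refine ⟨1, ?_⟩
      rw [map_one, one_mul, hd_iff hφ h1, List.map_cons, List.head?_cons, Option.some.injEq]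
      exact hik

theorem hd_of_mul (hφ : ∀ i, Function.Injective (φ i)) {k : I} {g : PushoutI φ} (hg : ¬ Hd k g)
    {a : G k} (ha : a ∉ (φ k).range) : Hd k (of k a * g) := by
  obtain ⟨y, l, h1, rfl⟩ := exists_red g
  rw [hd_iff hφ h1] at hg
  have h2 : Red φ (⟨k, a * φ k y⟩ :: l) := red_cons.2 ⟨notMem_mul ha y, fun z hz h => hg (by
    have h' : k = z := h
    rw [h']; exact hz), h1⟩
  have h3 : of (φ := φ) k a * (base φ y * val φ l) = val φ (⟨k, a * φ k y⟩ :: l) := by
    rw [val_cons, map_mul, of_apply_eq_base, mul_assoc]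
  rw [h3, hd_val hφ h2, List.map_cons, List.head?_cons]

theorem mem_base_mk {k : I} {p : PushoutI φ} (hp : p⁻¹ ∈ (base φ).range) :
    (p : PushoutI φ ⧸ (of (φ := φ) k).range) = ((1 : PushoutI φ) : PushoutI φ ⧸ _) := by
  rw [QuotientGroup.eq, mul_one]
  obtain ⟨b, hb⟩ := hp
  exact ⟨φ k b, by rw [of_apply_eq_base, hb]⟩

theorem var_fin (hφ : ∀ i, Function.Injective (φ i)) (k : I) (g : PushoutI φ) :
    {x : PushoutI φ ⧸ (of (φ := φ) k).range | ∃ p : PushoutI φ, (p : PushoutI φ ⧸ _) = x ∧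
      ¬ Hd k p⁻¹ ∧ Hd k (g * p)⁻¹}.Finite := by
  induction g using PushoutI.induction_on with
  | of i a =>
    refine (Set.toFinite {((1 : PushoutI φ) : PushoutI φ ⧸ (of (φ := φ) k).range),
      (((of i a)⁻¹ : PushoutI φ) : PushoutI φ ⧸ (of (φ := φ) k).range)}).subset ?_
    rintro x ⟨p, rfl, h1, h2⟩
    rw [Set.mem_insert_iff, Set.mem_singleton_iff]
    by_contra h
    rw [not_or] at h
    have h3 : p⁻¹ ∉ (base φ).range := fun h3 => h.1 (mem_base_mk h3)
    rw [mul_inv_rev, ← map_inv] at h2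
    have h4 : p⁻¹ * of i a⁻¹ ∉ (base φ).range := by
      rintro ⟨b, hb⟩
      refine h.2 ?_
      rw [QuotientGroup.eq]
      refine ⟨φ k b, ?_⟩
      rw [of_apply_eq_base, hb, map_inv]
    exact h1 ((hd_mul_of hφ a⁻¹ h3 h4).1 h2)
  | base b =>
    refine Set.Finite.subset Set.finite_empty ?_
    rintro x ⟨p, rfl, h1, h2⟩
    rw [mul_inv_rev, ← map_inv] at h2
    exact h1 ((hd_mul_base hφ b⁻¹ p⁻¹).1 h2)
  | mul g g' ih ih' =>
    refine ((ih.preimage (f := fun x => g' • x)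
      (MulAction.injective g').injOn).union ih').subset ?_
    rintro x ⟨p, rfl, h1, h2⟩
    by_cases h3 : Hd k (g' * p)⁻¹
    · exact Or.inr ⟨p, rfl, h1, h3⟩
    · refine Or.inl ⟨g' * p, rfl, h3, ?_⟩
      rwa [mul_assoc] at h2

/-- An element commuting elements of a factor not conjugate into the base lies in the factor. -/
theorem mem_of_swap (hφ : ∀ i, Function.Injective (φ i)) {k : I} {a a' : G k}
    (ha : ∀ y, ¬ IsConj (φ k y) a) {r : PushoutI φ} (hr : of k a * r = r * of k a') :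
    r ∈ (of (φ := φ) k).range := by
  obtain ⟨b, hb⟩ := exists_not_hd hφ k r
  set p : PushoutI φ := of k b * r with hp
  have hrp : r = of k b⁻¹ * p := by rw [hp, map_inv, inv_mul_cancel_left]
  have h1 : of (φ := φ) k (b * a * b⁻¹) * p = p * of k a' := by
    rw [hp, mul_assoc (of k b), ← hr, map_mul, map_mul, map_inv]
    group
  have h2 : b * a * b⁻¹ ∉ (φ k).range := by
    rintro ⟨y, hy⟩
    exact ha y (isConj_iff.2 ⟨b⁻¹, by rw [hy]; group⟩)
  have h3 := hd_of_mul hφ hb h2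
  rw [h1] at h3
  by_contra hcon
  have h4 : p ∉ (base φ).range := by
    rintro ⟨y, hy⟩
    exact hcon ⟨b⁻¹ * φ k y, by rw [map_mul, of_apply_eq_base, hy, ← hrp]⟩
  have h5 : p * of k a' ∉ (base φ).range := by
    rintro ⟨y, hy⟩
    refine hcon ⟨b⁻¹ * (φ k y * a'⁻¹), ?_⟩
    rw [map_mul, map_mul, of_apply_eq_base, hy, map_inv _ a', mul_inv_cancel_right, ← hrp]
  exact hb ((hd_mul_of hφ a' h4 h5).1 h3)

/-- Conjugacy in the amalgam of elements of a factor. -/
theorem isConj_of (hφ : ∀ i, Function.Injective (φ i)) {k : I} {a a' : G k}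
    (ha : ∀ y, ¬ IsConj (φ k y) a) (h : IsConj (of (φ := φ) k a) (of k a')) : IsConj a a' := by
  obtain ⟨c, hc⟩ := isConj_iff.1 h
  have h1 : of (φ := φ) k a * c⁻¹ = c⁻¹ * of k a' := by
    rw [← hc]; group
  obtain ⟨b, hb⟩ := mem_of_swap hφ ha h1
  refine isConj_iff.2 ⟨b⁻¹, ?_⟩
  refine of_injective hφ k ?_
  rw [← hc, map_mul, map_mul, inv_inv, map_inv, hb, inv_inv]

/-- **Sections along the tree.** -/
theorem exists_cocycle (hφ : ∀ i, Function.Injective (φ i)) (k : I) :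
    ∃ (s : PushoutI φ ⧸ (of (φ := φ) k).range → PushoutI φ)
      (α : PushoutI φ → PushoutI φ ⧸ (of (φ := φ) k).range → G k),
      (∀ x, (s x : PushoutI φ ⧸ (of (φ := φ) k).range) = x) ∧
      (∀ g x, g * s x = s (g • x) * of k (α g x)) ∧
      (∀ g h x, α (g * h) x = α g (h • x) * α h x) ∧
      ∀ g, {x | α g x ∉ (φ k).range}.Finite := by
  have hex : ∀ x : PushoutI φ ⧸ (of (φ := φ) k).range,
      ∃ p : PushoutI φ, (p : PushoutI φ ⧸ (of (φ := φ) k).range) = x ∧ ¬ Hd k p⁻¹ := by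
    intro x
    obtain ⟨p, rfl⟩ := QuotientGroup.mk_surjective x
    obtain ⟨a, ha⟩ := exists_not_hd hφ k p⁻¹
    refine ⟨p * of k a⁻¹, ?_, ?_⟩
    · rw [QuotientGroup.eq]
      exact ⟨a, by rw [map_inv]; group⟩
    · rwa [mul_inv_rev, map_inv, inv_inv]
  choose s hs hsP using hex
  have hα : ∀ g x, ∃ a : G k, g * s x = s (g • x) * of k a := by
    intro g x
    have h1 : ((g * s x : PushoutI φ) : PushoutI φ ⧸ (of (φ := φ) k).range) = g • x := by
      rw [← smul_eq_mul, ← MulAction.Quotient.smul_mk]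
      exact congrArg (g • ·) (hs x)
    obtain ⟨a, ha⟩ := QuotientGroup.eq.1 ((hs (g • x)).trans h1.symm)
    exact ⟨a, by rw [ha, mul_inv_cancel_left]⟩
  choose α hα using hα
  refine ⟨s, α, hs, hα, fun g h x => ?_, fun g => ?_⟩
  · refine of_injective hφ k ?_
    refine mul_left_cancel (a := s ((g * h) • x)) ?_
    rw [← hα, map_mul, ← mul_assoc, mul_smul, ← hα, mul_assoc, mul_assoc, hα h x]
  · refine (var_fin hφ k g).subset ?_
    intro x hx
    refine ⟨s x, hs x, hsP x, ?_⟩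
    rw [hα, mul_inv_rev, ← map_inv]
    exact hd_of_mul hφ (hsP _) fun h => hx (by simpa using inv_mem h)

section

variable {k : I} {s : PushoutI φ ⧸ (of (φ := φ) k).range → PushoutI φ}
  {α : PushoutI φ → PushoutI φ ⧸ (of (φ := φ) k).range → G k}

/-- fixed points with a given value of the cocycle -/
theorem fix_iff (hφ : ∀ i, Function.Injective (φ i))
    (hs : ∀ x, (s x : PushoutI φ ⧸ (of (φ := φ) k).range) = x)
    (hα : ∀ g x, g * s x = s (g • x) * of k (α g x)) (a : G k) (g : PushoutI φ) :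
    (∃ x, g • x = x ∧ ConjClasses.mk (α g x) = ConjClasses.mk a) ↔
      ConjClasses.mk g = ConjClasses.mk (of k a) := by
  constructor
  · rintro ⟨x, h1, h2⟩
    have h3 := hα g x
    rw [h1] at h3
    rw [ConjClasses.mk_eq_mk_iff_isConj] at h2 ⊢
    refine IsConj.trans ?_ ((of (φ := φ) k).map_isConj h2)
    exact isConj_iff.2 ⟨(s x)⁻¹, by rw [inv_inv, mul_assoc, h3, inv_mul_cancel_left]⟩
  · intro h
    obtain ⟨c, hc⟩ := isConj_iff.1 (ConjClasses.mk_eq_mk_iff_isConj.1 h.symm)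
    obtain ⟨b, hb⟩ := QuotientGroup.eq.1 (hs (c : PushoutI φ ⧸ (of (φ := φ) k).range)).symm
    have hb' : s (c : PushoutI φ ⧸ (of (φ := φ) k).range) = c * of k b := by
      rw [hb, mul_inv_cancel_left]
    have h1 : g • (c : PushoutI φ ⧸ (of (φ := φ) k).range) = c := by
      change ((g * c : PushoutI φ) : PushoutI φ ⧸ (of (φ := φ) k).range) = c
      rw [← hc, QuotientGroup.eq]
      exact ⟨a⁻¹, by rw [map_inv]; group⟩
    refine ⟨c, h1, ?_⟩
    have h2 := hα g c
    rw [h1, hb', ← hc] at h2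
    have h3 : of (φ := φ) k (α (c * of k a * c⁻¹) c) = of k (b⁻¹ * a * b) := by
      rw [map_mul, map_mul, map_inv]
      refine mul_left_cancel (a := c * of k b) ?_
      rw [← h2]
      group
    rw [← hc, of_injective hφ k h3, ConjClasses.mk_eq_mk_iff_isConj]
    exact isConj_iff.2 ⟨b, by group⟩

theorem fix_unique (hφ : ∀ i, Function.Injective (φ i))
    (hs : ∀ x, (s x : PushoutI φ ⧸ (of (φ := φ) k).range) = x)
    (hα : ∀ g x, g * s x = s (g • x) * of k (α g x)) {a : G k}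
    (ha : ∀ y, ¬ IsConj (φ k y) a) {g : PushoutI φ}
    {x x' : PushoutI φ ⧸ (of (φ := φ) k).range} (hx : g • x = x)
    (hxa : ConjClasses.mk (α g x) = ConjClasses.mk a) (hx' : g • x' = x') : x = x' := by
  have h1 := hα g x
  have h2 := hα g x'
  rw [hx] at h1
  rw [hx'] at h2
  have h3 : of (φ := φ) k (α g x) * ((s x)⁻¹ * s x') = (s x)⁻¹ * s x' * of k (α g x') := by
    rw [mul_assoc _ (s x'), ← h2, ← mul_assoc, ← mul_assoc]
    refine congrArg (· * s x') ?_
    refine mul_left_cancel (a := s x) ?_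
    rw [← mul_assoc, ← h1, mul_assoc, mul_inv_cancel, mul_one, mul_inv_cancel_left]
  have h4 := mem_of_swap hφ (fun y hy => ha y
    (hy.trans (ConjClasses.mk_eq_mk_iff_isConj.1 hxa))) h3
  rw [← hs x, ← hs x']
  exact QuotientGroup.eq.2 h4

end

end

end Vale.Agent.P184.H290
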