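import Vale.Agent.P184.H290.Am
import Vale.Agent.P184.H290.Sec

/-!
# P184: amalgams over finite subgroups, assembly
-/

namespace Vale.Agent.P184.H290

open Monoid Monoid.PushoutI Vale.Agent.P184

universe u v w

/-- The traces of idempotents of `G` seen through the cocycle `α`, at the classes in `R`, are
traces of idempotents of `L`. -/
def Spec {G X L : Type*} [Group G] [MulAction G X] [Group L] (α : G → X → L)
    (R : ConjClasses L → Prop) : Prop :=
  ∀ (q : ℕ) (e : Matrix (Fin q) (Fin q) (G → ℂ)), IsIdem e →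
    ∃ e₁ : Matrix (Fin q) (Fin q) (G → ℂ), IsIdem e₁ ∧ (∀ C, tau C e₁ = tau C e) ∧
      ∃ (m : ℕ) (f f' : Matrix (Fin m) (Fin m) (L → ℂ)), IsIdem f ∧ IsIdem f' ∧
        ∀ D : ConjClasses L, R D → tau D f' - tau D f =
          ∑' p : {p : G × X // p.1 • p.2 = p.2 ∧ ConjClasses.mk (α p.1 p.2) = D},
            ∑ i, e₁ i i p.1.1

/-- Row Q: almost all values in a finite subgroup. -/
def RowQ.{u', v', w'} : Prop :=
  ∀ {G : Type u'} {X : Type v'} {L : Type w'} [Group G] [MulAction G X] [Group L]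
    (α : G → X → L), (∀ g h x, α (g * h) x = α g (h • x) * α h x) →
    ∀ (A : Subgroup L) [Finite A], (∀ g, {x | α g x ∉ A}.Finite) →
      Spec α fun D => ∀ a ∈ A, ConjClasses.mk a ≠ D

/-- Row P: two cocycles, almost equal. -/
def RowP.{u', v', w'} : Prop :=
  ∀ {G : Type u'} {X : Type v'} {L : Type w'} [Group G] [MulAction G X] [Group L]
    (α α' : G → X → L), (∀ g h x, α (g * h) x = α g (h • x) * α h x) →
    (∀ g h x, α' (g * h) x = α' g (h • x) * α' h x) →
    (∀ g, {x | α g x ≠ α' g x}.Finite) →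
      Spec α fun D => ∀ g x, ConjClasses.mk (α' g x) ≠ D

/-- Passing to a subgroup in which almost all classes are detected. -/
theorem l1Bass_of_inj {P Q : Type*} [Group P] [Group Q] (ι : Q →* P)
    (hι : Function.Injective ι) (B : Set (ConjClasses Q)) (hB : B.Finite)
    (hBt : ∀ C ∈ B, IsTorsionClass C)
    (hinj : ∀ x y, ConjClasses.mk x ∉ B → IsConj (ι x) (ι y) → IsConj x y) (h : L1Bass P) :
    L1Bass Q := by
  classical
  intro q e he
  obtain ⟨b, hb, htau⟩ := pushforward ι e he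
  obtain ⟨F, hF1, hF2⟩ := h q b hb
  have hfin : {D : ConjClasses Q | D ∉ B ∧ ConjClasses.map ι D ∈ F}.Finite := by
    refine Set.Finite.of_injOn (f := ConjClasses.map ι) (t := (F : Set (ConjClasses P)))
      (fun D hD => hD.2) ?_ F.finite_toSet
    intro D hD D' _ hDD
    obtain ⟨x, rfl⟩ := ConjClasses.mk_surjective D
    obtain ⟨y, rfl⟩ := ConjClasses.mk_surjective D'
    have h1 : ConjClasses.mk (ι x) = ConjClasses.mk (ι y) := hDD
    rw [ConjClasses.mk_eq_mk_iff_isConj] at h1 ⊢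
    exact hinj x y hD.1 h1
  refine ⟨(hB.union hfin).toFinset, ?_, ?_⟩
  · intro C hC
    rw [Set.Finite.mem_toFinset] at hC
    rcases hC with hC | hC
    · exact hBt C hC
    · obtain ⟨x, rfl⟩ := ConjClasses.mk_surjective C
      have h1 : IsOfFinOrder (ι x) := isTorsionClass_mk.1 (hF1 _ hC.2)
      exact isTorsionClass_mk.2 ((hι.isOfFinOrder_iff).1 h1)
  · intro C hC
    rw [Set.Finite.mem_toFinset, Set.mem_union, not_or] at hC
    have h1 : tau (ConjClasses.map ι C) b = 0 := hF2 _ fun h2 => hC.2 ⟨hC.1, h2⟩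
    rw [← h1, htau]
    refine (tsum_classes_single he ι _ C rfl fun D hD hne => (hne ?_).elim).symm
    obtain ⟨x, rfl⟩ := ConjClasses.mk_surjective C
    obtain ⟨y, rfl⟩ := ConjClasses.mk_surjective D
    have h3 : ConjClasses.mk (ι y) = ConjClasses.mk (ι x) := hD
    rw [ConjClasses.mk_eq_mk_iff_isConj] at h3 ⊢
    exact (hinj x y hC.1 h3.symm).symm

section

variable {I : Type u} {G : I → Type v} {H : Type w} [∀ i, Group (G i)] [Group H]
  {φ : ∀ i, H →* G i}

/-- the traces at the classes of a factor not meeting the base -/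
theorem elliptic_fin (hφ : ∀ i, Function.Injective (φ i)) (k : I)
    {α : PushoutI φ → PushoutI φ ⧸ (of (φ := φ) k).range → G k}
    {s : PushoutI φ ⧸ (of (φ := φ) k).range → PushoutI φ}
    (hs : ∀ x, (s x : PushoutI φ ⧸ (of (φ := φ) k).range) = x)
    (hα : ∀ g x, g * s x = s (g • x) * of k (α g x)) {R : ConjClasses (G k) → Prop}
    (hR : Spec α R) (h : L1Bass (G k)) {q : ℕ}
    {e : Matrix (Fin q) (Fin q) (PushoutI φ → ℂ)} (he : IsIdem e) :
    ∃ F : Finset (ConjClasses (G k)), (∀ C ∈ F, IsTorsionClass C) ∧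
      ∀ a : G k, R (ConjClasses.mk a) → (∀ y, ¬ IsConj (φ k y) a) → ConjClasses.mk a ∉ F →
        tau (ConjClasses.mk (of k a)) e = 0 := by
  classical
  obtain ⟨e₁, he₁, htau, m, f, f', hf, hf', hff⟩ := hR q e he
  obtain ⟨F, hF1, hF2⟩ := h m f hf
  obtain ⟨F', hF1', hF2'⟩ := h m f' hf'
  refine ⟨F ∪ F', fun C hC => (Finset.mem_union.1 hC).elim (hF1 C) (hF1' C), ?_⟩
  intro a hRa ha haF
  rw [Finset.mem_union, not_or] at haF
  have h1 := hff _ hRa
  rw [hF2 _ haF.1, hF2' _ haF.2, sub_zero] at h1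
  rw [← htau, h1, tau_eq]
  let E : {p : PushoutI φ × (PushoutI φ ⧸ (of (φ := φ) k).range) //
      p.1 • p.2 = p.2 ∧ ConjClasses.mk (α p.1 p.2) = ConjClasses.mk a} →
      {y : PushoutI φ // ConjClasses.mk y = ConjClasses.mk (of k a)} := fun p =>
    ⟨p.1.1, (fix_iff hφ hs hα a p.1.1).1 ⟨p.1.2, p.2.1, p.2.2⟩⟩
  have hE : Function.Bijective E := by
    constructor
    · rintro ⟨⟨g, x⟩, h2, h3⟩ ⟨⟨g', x'⟩, h4, h5⟩ h6
      obtain rfl : g = g' := congrArg Subtype.val h6
      obtain rfl : x = x' := fix_unique hφ hs hα ha h2 h3 h4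
      rfl
    · rintro ⟨g, hg⟩
      obtain ⟨x, h2, h3⟩ := (fix_iff hφ hs hα a g).2 hg
      exact ⟨⟨⟨g, x⟩, h2, h3⟩, rfl⟩
  exact ((Equiv.ofBijective E hE).tsum_eq fun y => ∑ i, e₁ i i y.1).symm

/-- A class with a nonzero trace meets a factor or the base. -/
theorem elliptic' (hφ : ∀ i, Function.Injective (φ i)) {q : ℕ}
    {e : Matrix (Fin q) (Fin q) (PushoutI φ → ℂ)} (he : IsIdem e)
    (D : ConjClasses (PushoutI φ)) (hD : tau D e ≠ 0) :
    (∃ y, D = ConjClasses.mk (base φ y)) ∨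
      ∃ (i : I) (a : G i), D = ConjClasses.mk (of i a) ∧ ∀ y, ¬ IsConj (φ i y) a := by
  obtain ⟨t, rfl⟩ := ConjClasses.mk_surjective D
  rcases cases_conj t with ⟨x, hx⟩ | ⟨i, a, ha⟩ | ⟨l, h1, h2, h3, h4⟩
  · exact Or.inl ⟨x, ConjClasses.mk_eq_mk_iff_isConj.2 hx⟩
  · by_cases hy : ∃ y, IsConj (φ i y) a
    · obtain ⟨y, hy⟩ := hy
      refine Or.inl ⟨y, ConjClasses.mk_eq_mk_iff_isConj.2 (ha.trans ?_)⟩
      rw [← of_apply_eq_base φ i]
      exact (of (φ := φ) i).map_isConj hy.symm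
    · exact Or.inr ⟨i, a, ConjClasses.mk_eq_mk_iff_isConj.2 ha, fun y h => hy ⟨y, h⟩⟩
  · refine absurd ?_ hD
    rw [ConjClasses.mk_eq_mk_iff_isConj.2 h4]
    exact vanishesAt_of_charged (charged_cyc hφ h1 h2 h3) q e he

theorem l1Bass_fin [Finite I] [Finite H] (hφ : ∀ i, Function.Injective (φ i))
    (hQ : RowQ.{max u v w, max u v w, v}) (h : ∀ i, L1Bass (G i)) : L1Bass (PushoutI φ) := by
  classical
  have hI := Fintype.ofFinite I
  intro q e he
  have hF : ∀ k, ∃ F : Finset (ConjClasses (G k)), (∀ C ∈ F, IsTorsionClass C) ∧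
      ∀ a : G k, (∀ y, ¬ IsConj (φ k y) a) → ConjClasses.mk a ∉ F →
        tau (ConjClasses.mk (of k a)) e = 0 := by
    intro k
    obtain ⟨s, α, hs, hα, hc, hfin⟩ := exists_cocycle hφ k
    have : Finite (φ k).range :=
      Finite.of_surjective (φ k).rangeRestrict (φ k).rangeRestrict_surjective
    obtain ⟨F, hF1, hF2⟩ := elliptic_fin hφ k hs hα (hQ α hc (φ k).range hfin) (h k) he
    refine ⟨F, hF1, fun a ha => hF2 a ?_ ha⟩
    rintro _ ⟨y, rfl⟩ h1
    exact ha y (ConjClasses.mk_eq_mk_iff_isConj.1 h1)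
  choose F hF1 hF2 using hF
  have hB : (Set.range fun y : H => ConjClasses.mk (base φ y)).Finite := Set.finite_range _
  refine ⟨hB.toFinset ∪ Finset.univ.biUnion fun i =>
    (F i).image (ConjClasses.map (of (φ := φ) i)), ?_, ?_⟩
  · intro C hC
    rcases Finset.mem_union.1 hC with hC | hC
    · rw [Set.Finite.mem_toFinset] at hC
      obtain ⟨y, rfl⟩ := hC
      exact isTorsionClass_mk.mpr ((base φ).isOfFinOrder (isOfFinOrder_of_finite y))
    · obtain ⟨i, _, hC⟩ := Finset.mem_biUnion.1 hC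
      obtain ⟨D, hD, rfl⟩ := Finset.mem_image.mp hC
      obtain ⟨y, rfl⟩ := ConjClasses.mk_surjective D
      exact isTorsionClass_mk.mpr
        ((of (φ := φ) i).isOfFinOrder (isTorsionClass_mk.mp (hF1 i _ hD)))
  · intro C hC
    rw [Finset.mem_union, not_or] at hC
    by_contra h0
    rcases elliptic' hφ he C h0 with ⟨y, rfl⟩ | ⟨k, a, rfl, ha⟩
    · exact hC.1 (by rw [Set.Finite.mem_toFinset]; exact ⟨y, rfl⟩)
    · refine h0 (hF2 k a ha fun h2 => hC.2 (Finset.mem_biUnion.2
        ⟨k, Finset.mem_univ k, Finset.mem_image.2 ⟨_, h2, rfl⟩⟩))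

theorem l1Bass_factor [Finite H] (hφ : ∀ i, Function.Injective (φ i)) (k : I)
    (h : L1Bass (PushoutI φ)) : L1Bass (G k) := by
  refine l1Bass_of_inj (of (φ := φ) k) (of_injective hφ k)
    (Set.range fun y : H => ConjClasses.mk (φ k y)) (Set.finite_range _) ?_ ?_ h
  · rintro _ ⟨y, rfl⟩
    exact isTorsionClass_mk.mpr ((φ k).isOfFinOrder (isOfFinOrder_of_finite y))
  · intro a a' ha haa
    exact isConj_of hφ (fun y hy => ha ⟨y, ConjClasses.mk_eq_mk_iff_isConj.2 hy⟩) haa

theorem inc_val (J : Finset I) (l : List (Σ i : J, G i)) :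
    inc φ J (val (fun i : J => φ i) l) =
      val φ (l.map fun x => (⟨x.1, x.2⟩ : Σ i, G i)) := by
  induction l with
  | nil => rw [val_nil, map_one]; rfl
  | cons x l ih =>
    rw [val_cons, map_mul, ih, List.map_cons, val_cons]
    refine congrArg (· * _) ?_
    unfold inc
    rw [lift_of]

theorem inc_injective (hφ : ∀ i, Function.Injective (φ i)) (J : Finset I) :
    Function.Injective (inc φ J) := by
  refine (injective_iff_map_eq_one _).2 fun g hg => ?_
  obtain ⟨y, l, h1, rfl⟩ := exists_red g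
  have hb : inc φ J (base (fun i : J => φ i) y) = base φ y := by
    unfold inc
    rw [lift_base]
  rw [map_mul, inc_val, hb] at hg
  have h2 : Red φ (l.map fun x => (⟨x.1, x.2⟩ : Σ i, G i)) := by
    constructor
    · intro x hx
      obtain ⟨z, hz, rfl⟩ := List.mem_map.1 hx
      exact h1.1 z hz
    · rw [List.map_map]
      have h3 : (Sigma.fst ∘ fun x : (Σ i : J, G i) => (⟨x.1, x.2⟩ : Σ i, G i)) =
          (fun i : J => (i : I)) ∘ Sigma.fst := rfl
      rw [h3, ← List.map_map, List.isChain_map]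
      exact h1.2.imp fun a b hab h4 => hab (Subtype.ext h4)
  have h5 := idx_unique hφ h2 red_nil (x := y) (x' := 1) (by
    rw [hg, val_nil, map_one, mul_one])
  have h6 : l = [] := by simpa using h5
  subst h6
  rw [List.map_nil, val_nil, mul_one, ← map_one (base φ)] at hg
  rw [base_injective hφ hg, map_one, val_nil, mul_one]

theorem exists_range (x : PushoutI φ) :
    ∃ J : Finset I, ∀ J' : Finset I, J ⊆ J' → x ∈ (inc φ J').range := by
  classical
  induction x using PushoutI.induction_on with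
  | base x => exact ⟨∅, fun J' _ => ⟨base _ x, by unfold inc; rw [lift_base]⟩⟩
  | of i m =>
    refine ⟨{i}, fun J' h => ⟨of (φ := fun i : J' => φ i)
      ⟨i, h (Finset.mem_singleton_self i)⟩ m, ?_⟩⟩
    unfold inc
    rw [lift_of]
  | mul x y hx hy =>
    obtain ⟨J, hJ⟩ := hx
    obtain ⟨K, hK⟩ := hy
    exact ⟨J ∪ K, fun J' h => mul_mem (hJ J' (Finset.subset_union_left.trans h))
      (hK J' (Finset.subset_union_right.trans h))⟩

/-- Passing to a finite set of factors. -/
theorem l1Bass_of_finite_sub (hφ : ∀ i, Function.Injective (φ i)) (J₀ : Finset I)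
    (h : ∀ J : Finset I, J₀ ⊆ J → L1Bass (PushoutI fun i : J => φ i)) :
    L1Bass (PushoutI φ) := by
  classical
  refine l1Bass_of_local.{max u v w, max u v w} fun S => ?_
  choose J hJ using exists_range (φ := φ)
  let K : Finset I := J₀ ∪ S.biUnion J
  have hS : ∀ x ∈ S, x ∈ (inc φ K).range := fun x hx =>
    hJ x K ((Finset.subset_biUnion_of_mem J hx).trans Finset.subset_union_right)
  have hex : ∀ x : PushoutI φ, ∃ z : PushoutI (fun i : K => φ i),
      x ∈ (inc φ K).range → inc φ K z = x := by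
    intro x
    by_cases hx : x ∈ (inc φ K).range
    · obtain ⟨z, hz⟩ := hx
      exact ⟨z, fun _ => hz⟩
    · exact ⟨1, fun h => absurd h hx⟩
  choose z hz using hex
  refine ⟨PushoutI (fun i : K => φ i), inferInstance, inc φ K, z,
    ⟨fun x hx => hz x (hS x hx), fun x hx y hy hxy => inc_injective hφ K ?_⟩,
    h K Finset.subset_union_left⟩
  rw [map_mul, hz x (hS x hx), hz y (hS y hy), hz _ (hS _ hxy)]

end

/-- **Amalgams over a finite group.** -/
theorem amalgam_finite {I : Type u} {G : I → Type v} {H : Type w} [∀ i, Group (G i)] [Group H]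
    [Finite H] (φ : ∀ i, H →* G i) (hφ : ∀ i, Function.Injective (φ i))
    (hQ : RowQ.{max u v w, max u v w, v}) : L1Bass (PushoutI φ) ↔ ∀ i, L1Bass (G i) :=
  ⟨fun h i => l1Bass_factor hφ i h, fun h => l1Bass_of_finite_sub hφ ∅ fun _ _ =>
    l1Bass_fin (fun i => hφ i) hQ fun i => h i⟩

end Vale.Agent.P184.H290
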