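import Vale.Agent.P184.H290.Fin

/-!
# P184: amalgams over a retract of all factors but one, assembly
-/

namespace Vale.Agent.P184.H290

open Monoid Monoid.PushoutI Vale.Agent.P184

universe u v w

section

variable {I : Type u} {G : I → Type v} {H : Type w} [∀ i, Group (G i)] [Group H]
  {φ : ∀ i, H →* G i}

/-- the retraction to the distinguished factor -/
theorem exists_ret (i₀ : I) (ρ : ∀ i, i ≠ i₀ → (G i →* H))
    (hρ : ∀ i hi x, ρ i hi (φ i x) = x) :
    ∃ π : PushoutI φ →* G i₀, (∀ b, π (of i₀ b) = b) ∧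
      ∀ i (hi : i ≠ i₀) (a : G i), π (of i a) = φ i₀ (ρ i hi a) := by
  classical
  let σ : ∀ i, G i →* G i₀ := Function.update
    (fun i => if hi : i ≠ i₀ then (φ i₀).comp (ρ i hi) else 1) i₀ (MonoidHom.id (G i₀))
  have hσ0 : σ i₀ = MonoidHom.id (G i₀) := Function.update_self _ _ _
  have hσ1 : ∀ i (hi : i ≠ i₀), σ i = (φ i₀).comp (ρ i hi) := by
    intro i hi
    change Function.update _ _ _ i = _
    rw [Function.update_of_ne hi, dif_pos hi]
  have hc : ∀ i, (σ i).comp (φ i) = φ i₀ := by
    intro i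
    by_cases hi : i = i₀
    · subst hi
      rw [hσ0, MonoidHom.id_comp]
    · rw [hσ1 i hi]
      ext x
      simp only [MonoidHom.comp_apply, hρ]
  refine ⟨lift σ (φ i₀) hc, fun b => ?_, fun i hi a => ?_⟩
  · rw [lift_of, hσ0]
    rfl
  · rw [lift_of, hσ1 i hi]
    rfl

theorem l1Bass_one_fin [Finite I] (hφ : ∀ i, Function.Injective (φ i)) (i₀ : I)
    (ρ : ∀ i, i ≠ i₀ → (G i →* H)) (hρ : ∀ i hi x, ρ i hi (φ i x) = x)
    (hP : RowP.{max u v w, max u v w, v}) (h : ∀ i, L1Bass (G i)) : L1Bass (PushoutI φ) := by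
  classical
  have hI := Fintype.ofFinite I
  intro q e he
  have hF : ∀ k, ∃ F : Finset (ConjClasses (G k)), (∀ C ∈ F, IsTorsionClass C) ∧ (k ≠ i₀ →
      ∀ a : G k, (∀ y, ¬ IsConj (φ k y) a) → ConjClasses.mk a ∉ F →
        tau (ConjClasses.mk (of k a)) e = 0) := by
    intro k
    by_cases hk : k = i₀
    · exact ⟨∅, fun C hC => absurd hC (Finset.notMem_empty C), fun h => absurd hk h⟩
    obtain ⟨s, α, hs, hα, hc, hfin⟩ := exists_cocycle hφ k
    have hR := hP α (fun g x => φ k (ρ k hk (α g x))) hc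
      (fun g h x => by rw [hc, map_mul, map_mul]) (fun g => (hfin g).subset fun x hx => by
        rintro ⟨y, hy⟩
        refine hx ?_
        rw [← hy, hρ])
    obtain ⟨F, hF1, hF2⟩ := elliptic_fin hφ k hs hα hR (h k) he
    refine ⟨F, hF1, fun _ a ha => hF2 a ?_ ha⟩
    intro g x h1
    exact ha _ (ConjClasses.mk_eq_mk_iff_isConj.1 h1)
  choose F hF1 hF2 using hF
  obtain ⟨π, hπ0, hπ1⟩ := exists_ret (φ := φ) i₀ ρ hρ
  have hπb : ∀ y, π (base φ y) = φ i₀ y := fun y => by rw [← of_apply_eq_base φ i₀, hπ0]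
  obtain ⟨b, hb, htau⟩ := pushforward π e he
  obtain ⟨F₀, hF0, hF0'⟩ := h i₀ q b hb
  let T : Finset (ConjClasses (G i₀)) := F₀ ∪ Finset.univ.biUnion fun i : I =>
    if hi : i ≠ i₀ then (F i).image (ConjClasses.map ((φ i₀).comp (ρ i hi))) else ∅
  refine ⟨T.image (ConjClasses.map (of (φ := φ) i₀)) ∪ Finset.univ.biUnion fun i =>
    (F i).image (ConjClasses.map (of (φ := φ) i)), ?_, ?_⟩
  · intro C hC
    rcases Finset.mem_union.1 hC with hC | hC
    · obtain ⟨D, hD, rfl⟩ := Finset.mem_image.mp hC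
      have hDt : IsTorsionClass D := by
        rcases Finset.mem_union.1 hD with hD | hD
        · exact hF0 _ hD
        · obtain ⟨i, _, hD⟩ := Finset.mem_biUnion.1 hD
          by_cases hi : i ≠ i₀
          · rw [dif_pos hi] at hD
            obtain ⟨D', hD', rfl⟩ := Finset.mem_image.mp hD
            obtain ⟨y, rfl⟩ := ConjClasses.mk_surjective D'
            exact isTorsionClass_mk.mpr
              (((φ i₀).comp (ρ i hi)).isOfFinOrder (isTorsionClass_mk.mp (hF1 i _ hD')))
          · rw [dif_neg hi] at hD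
            exact absurd hD (Finset.notMem_empty _)
      obtain ⟨y, rfl⟩ := ConjClasses.mk_surjective D
      exact isTorsionClass_mk.mpr ((of (φ := φ) i₀).isOfFinOrder (isTorsionClass_mk.mp hDt))
    · obtain ⟨i, _, hC⟩ := Finset.mem_biUnion.1 hC
      obtain ⟨D, hD, rfl⟩ := Finset.mem_image.mp hC
      obtain ⟨y, rfl⟩ := ConjClasses.mk_surjective D
      exact isTorsionClass_mk.mpr
        ((of (φ := φ) i).isOfFinOrder (isTorsionClass_mk.mp (hF1 i _ hD)))
  · intro C hC
    rw [Finset.mem_union, not_or] at hC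
    by_contra h0
    rcases elliptic' hφ he C h0 with ⟨y, rfl⟩ | ⟨k, a, rfl, ha⟩
    · -- the base
      have h1 : ConjClasses.mk (φ i₀ y) ∉ T := fun h2 => hC.1 (Finset.mem_image.2
        ⟨_, h2, by change ConjClasses.mk (of i₀ (φ i₀ y)) = _; rw [of_apply_eq_base]⟩)
      have h2 : tau (ConjClasses.mk (φ i₀ y)) b = 0 :=
        hF0' _ fun h2 => h1 (Finset.mem_union_left _ h2)
      refine h0 ?_
      rw [← h2, htau]
      refine (tsum_classes_single he π _ (ConjClasses.mk (base φ y)) ?_ fun D hD hne => ?_).symm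
      · change ConjClasses.mk (π (base φ y)) = _
        rw [hπb]
      · by_contra h3
        rcases elliptic' hφ he D h3 with ⟨y', rfl⟩ | ⟨j, c, rfl, hc⟩
        · have h4 : ConjClasses.mk (π (base φ y')) = ConjClasses.mk (φ i₀ y) := hD
          rw [hπb, ConjClasses.mk_eq_mk_iff_isConj] at h4
          refine hne (ConjClasses.mk_eq_mk_iff_isConj.2 ?_)
          rw [← of_apply_eq_base φ i₀, ← of_apply_eq_base φ i₀]
          exact (of (φ := φ) i₀).map_isConj h4
        · have h4 : ConjClasses.mk (π (of j c)) = ConjClasses.mk (φ i₀ y) := hD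
          by_cases hj : j = i₀
          · subst hj
            rw [hπ0, ConjClasses.mk_eq_mk_iff_isConj] at h4
            exact hc y h4.symm
          · rw [hπ1 j hj] at h4
            have h5 : ConjClasses.mk c ∈ F j := by
              by_contra h5
              exact h3 (hF2 j hj c hc h5)
            refine h1 (Finset.mem_union_right _ (Finset.mem_biUnion.2 ⟨j, Finset.mem_univ j, ?_⟩))
            rw [dif_pos hj]
            exact Finset.mem_image.2 ⟨_, h5, h4⟩
    · by_cases hk : k = i₀
      · subst hk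
        have h2 : tau (ConjClasses.mk a) b = 0 := hF0' _ fun h2 => hC.1
          (Finset.mem_image.2 ⟨_, Finset.mem_union_left _ h2, rfl⟩)
        refine h0 ?_
        rw [← h2, htau]
        refine (tsum_classes_single he π _ (ConjClasses.mk (of k a)) ?_ fun D hD hne => ?_).symm
        · change ConjClasses.mk (π (of k a)) = _
          rw [hπ0]
        · by_contra h3
          rcases elliptic' hφ he D h3 with ⟨y', rfl⟩ | ⟨j, c, rfl, hc⟩
          · have h4 : ConjClasses.mk (π (base φ y')) = ConjClasses.mk a := hD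
            rw [hπb, ConjClasses.mk_eq_mk_iff_isConj] at h4
            exact ha y' h4
          · have h4 : ConjClasses.mk (π (of j c)) = ConjClasses.mk a := hD
            by_cases hj : j = k
            · subst hj
              rw [hπ0, ConjClasses.mk_eq_mk_iff_isConj] at h4
              exact hne (ConjClasses.mk_eq_mk_iff_isConj.2 ((of (φ := φ) j).map_isConj h4))
            · rw [hπ1 j hj, ConjClasses.mk_eq_mk_iff_isConj] at h4
              exact ha _ h4
      · exact h0 (hF2 k hk a ha fun h2 => hC.2 (Finset.mem_biUnion.2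
          ⟨k, Finset.mem_univ k, Finset.mem_image.2 ⟨_, h2, rfl⟩⟩))

end

/-- **Amalgams over a subgroup which is a retract of every factor but one.** -/
theorem amalgam_one {I : Type u} {G : I → Type v} {H : Type w} [∀ i, Group (G i)] [Group H]
    (φ : ∀ i, H →* G i) (hφ : ∀ i, Function.Injective (φ i)) (i₀ : I)
    (ρ : ∀ i, i ≠ i₀ → (G i →* H)) (hρ : ∀ i hi x, ρ i hi (φ i x) = x)
    (hP : RowP.{max u v w, max u v w, v}) (h : ∀ i, L1Bass (G i)) : L1Bass (PushoutI φ) := by
  refine l1Bass_of_finite_sub hφ {i₀} fun J hJ => ?_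
  have h0 : i₀ ∈ J := hJ (Finset.mem_singleton_self i₀)
  exact l1Bass_one_fin (fun i : J => hφ i) ⟨i₀, h0⟩
    (fun i hi => ρ i fun h => hi (Subtype.ext h)) (fun i hi x => hρ _ _ x) hP fun i => h i

end Vale.Agent.P184.H290
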