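import Vale.Agent.P184.H290.Am

/-!
# P184: amalgams over a common retract, with a spectator
-/

namespace Vale.Agent.P184.H290

open Monoid Monoid.PushoutI Vale.Agent.P184

universe u v w x

section

variable {I : Type u} {G : I → Type v} {H : Type w} {S : Type x} [∀ i, Group (G i)] [Group H]
  [Group S] {φ : ∀ i, H →* G i}

variable (S φ) in
/-- the structure maps with a spectator -/
def psi (i : I) : S × H →* S × G i := (MonoidHom.id S).prodMap (φ i)

variable (S φ) in
/-- the map to the product -/
noncomputable def toProd : PushoutI (psi S φ) →* S × PushoutI φ :=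
  lift (fun i => (MonoidHom.id S).prodMap (of (φ := φ) i)) ((MonoidHom.id S).prodMap (base φ))
    fun i => MonoidHom.ext fun x => Prod.ext rfl (of_apply_eq_base φ i x.2)

variable (S φ) in
/-- the part of the map from the product -/
noncomputable def fromR : PushoutI φ →* PushoutI (psi S φ) :=
  lift (fun i => (of (φ := psi S φ) i).comp (MonoidHom.inr S (G i)))
    ((base (psi S φ)).comp (MonoidHom.inr S H)) fun i => MonoidHom.ext fun x => by
      have h := of_apply_eq_base (psi S φ) i (1, x)
      exact h

variable (S φ) in
/-- the part of the map from the product -/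
noncomputable def fromL : S →* PushoutI (psi S φ) := (base (psi S φ)).comp (MonoidHom.inl S H)

theorem fromL_eq (i : I) (s : S) : fromL S φ s = of (φ := psi S φ) i (s, 1) := by
  change base (psi S φ) (s, 1) = _
  rw [← of_apply_eq_base (psi S φ) i]
  refine congrArg (of (φ := psi S φ) i) ?_
  change (s, φ i 1) = (s, 1)
  rw [map_one]

theorem fromR_of (i : I) (a : G i) : fromR S φ (of i a) = of (φ := psi S φ) i (1, a) := by
  unfold fromR
  rw [lift_of]
  rfl

theorem fromR_base (a : H) : fromR S φ (base φ a) = base (psi S φ) (1, a) := by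
  unfold fromR
  rw [lift_base]
  rfl

theorem comm (s : S) (p : PushoutI φ) : Commute (fromL S φ s) (fromR S φ p) := by
  induction p using PushoutI.induction_on with
  | of i a =>
    rw [fromL_eq i, fromR_of]
    refine Commute.map ?_ (of (φ := psi S φ) i)
    change (s, 1) * (1, a) = (1, a) * (s, 1)
    rw [Prod.mk_mul_mk, Prod.mk_mul_mk, one_mul, one_mul, mul_one, mul_one]
  | base a =>
    rw [fromR_base]
    refine Commute.map (x := ((s, 1) : S × H)) ?_ (base (psi S φ))
    change (s, 1) * (1, a) = (1, a) * (s, 1)
    rw [Prod.mk_mul_mk, Prod.mk_mul_mk, one_mul, one_mul, mul_one, mul_one]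
  | mul p p' h h' =>
    rw [map_mul]
    exact h.mul_right h'

variable (S φ) in
/-- the map from the product -/
noncomputable def fromProd : S × PushoutI φ →* PushoutI (psi S φ) :=
  (fromL S φ).noncommCoprod (fromR S φ) comm

theorem toProd_of (i : I) (y : S × G i) : toProd S φ (of i y) = (y.1, of i y.2) := by
  unfold toProd
  rw [lift_of]
  rfl

theorem toProd_base (y : S × H) : toProd S φ (base (psi S φ) y) = (y.1, base φ y.2) := by
  unfold toProd
  rw [lift_base]
  rfl

theorem toProd_fromL (s : S) : toProd S φ (fromL S φ s) = (s, 1) := by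
  change toProd S φ (base (psi S φ) (s, 1)) = _
  rw [toProd_base, map_one]

theorem toProd_fromR (p : PushoutI φ) : toProd S φ (fromR S φ p) = (1, p) := by
  induction p using PushoutI.induction_on with
  | of i a => rw [fromR_of, toProd_of]
  | base a => rw [fromR_base, toProd_base]
  | mul p p' h h' => rw [map_mul, map_mul, h, h', Prod.mk_mul_mk, one_mul]

theorem to_from (p : S × PushoutI φ) : toProd S φ (fromProd S φ p) = p := by
  change toProd S φ (fromL S φ p.1 * fromR S φ p.2) = p
  rw [map_mul, toProd_fromL, toProd_fromR, Prod.mk_mul_mk, mul_one, one_mul]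

theorem from_to (p : PushoutI (psi S φ)) : fromProd S φ (toProd S φ p) = p := by
  induction p using PushoutI.induction_on with
  | of i a =>
    rw [toProd_of]
    change fromL S φ a.1 * fromR S φ (of i a.2) = _
    rw [fromL_eq i, fromR_of, ← map_mul, Prod.mk_mul_mk, mul_one, one_mul]
  | base a =>
    rw [toProd_base]
    change base (psi S φ) (a.1, 1) * fromR S φ (base φ a.2) = _
    rw [fromR_base, ← map_mul, Prod.mk_mul_mk, mul_one, one_mul]
  | mul p p' h h' => rw [map_mul, map_mul, h, h']

end

/-- **Amalgams over a common retract, with a spectator.** -/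
theorem amalgam_spec {I : Type u} [Nonempty I] {G : I → Type v} {H : Type w} {S : Type x}
    [∀ i, Group (G i)] [Group H] [Group S] (φ : ∀ i, H →* G i) (ρ : ∀ i, G i →* H)
    (hρ : ∀ i x, ρ i (φ i x) = x) : L1Bass (S × PushoutI φ) ↔ ∀ i, L1Bass (S × G i) := by
  rw [← amalgam (psi S φ) (fun i => (MonoidHom.id S).prodMap (ρ i))
    fun i x => Prod.ext rfl (hρ i x.2)]
  exact ⟨l1Bass_retract (toProd S φ) (fromProd S φ) from_to,
    l1Bass_retract (fromProd S φ) (toProd S φ) to_from⟩

end Vale.Agent.P184.H290
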