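import Mathlib

/-!
# Trees: the neighbour towards a base vertex
-/

namespace Vale.Agent.P184.H290.Tree

open SimpleGraph

section

variable {V : Type*} {T : SimpleGraph V}

theorem exists_par (hT : T.IsTree) {u v : V} (h : u ≠ v) :
    ∃ w, T.Adj v w ∧ T.dist u v = T.dist u w + 1 := by
  obtain ⟨p, hp⟩ := hT.connected.exists_walk_length_eq_dist v u
  cases p with
  | nil => exact absurd rfl h
  | cons hadj q =>
    rename_i w
    refine ⟨w, hadj, ?_⟩
    rw [Walk.length_cons] at hp
    have h1 : T.dist w u ≤ q.length := dist_le q
    have h2 := hT.dist_eq_dist_add_one_of_adj u hadj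
    rw [dist_comm (u := u) (v := v), dist_comm (u := u) (v := w)] at *
    omega

theorem par_unique (hT : T.IsTree) {u v w w' : V} (h1 : T.Adj v w)
    (h2 : T.dist u v = T.dist u w + 1) (h3 : T.Adj v w') (h4 : T.dist u v = T.dist u w' + 1) :
    w = w' := by
  obtain ⟨p, hp, hp'⟩ := hT.connected.exists_path_of_dist u w
  obtain ⟨q, hq, hq'⟩ := hT.connected.exists_path_of_dist u w'
  have h5 : (p.concat h1.symm).IsPath := Walk.isPath_of_length_eq_dist _ (by
    rw [Walk.length_concat, hp', h2])
  have h6 : (q.concat h3.symm).IsPath := Walk.isPath_of_length_eq_dist _ (by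
    rw [Walk.length_concat, hq', h4])
  have h7 : p.concat h1.symm = q.concat h3.symm :=
    (hT.existsUnique_path u v).unique h5 h6
  have h8 := congrArg Walk.penultimate h7
  rwa [Walk.penultimate_concat, Walk.penultimate_concat] at h8

open Classical in
/-- the neighbour of `v` towards `u` -/
noncomputable def par (T : SimpleGraph V) (u v : V) : V :=
  if h : ∃ w, T.Adj v w ∧ T.dist u v = T.dist u w + 1 then h.choose else v

theorem par_self (u : V) : par T u u = u := by
  unfold par
  rw [dif_neg]
  rintro ⟨w, h1, h2⟩
  rw [dist_self] at h2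
  omega

theorem par_adj (hT : T.IsTree) {u v : V} (h : u ≠ v) : T.Adj v (par T u v) := by
  unfold par
  rw [dif_pos (exists_par hT h)]
  exact (exists_par hT h).choose_spec.1

theorem par_dist (hT : T.IsTree) {u v : V} (h : u ≠ v) :
    T.dist u v = T.dist u (par T u v) + 1 := by
  unfold par
  rw [dif_pos (exists_par hT h)]
  exact (exists_par hT h).choose_spec.2

theorem par_eq (hT : T.IsTree) {u v w : V} (h1 : T.Adj v w)
    (h2 : T.dist u v = T.dist u w + 1) : par T u v = w := by
  have h : u ≠ v := by
    rintro rfl
    rw [dist_self] at h2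
    omega
  exact par_unique hT (par_adj hT h) (par_dist hT h) h1 h2

theorem dist_of_ne_par (hT : T.IsTree) {u v w : V} (h1 : T.Adj v w) (h2 : w ≠ par T u v) :
    T.dist u w = T.dist u v + 1 := by
  rcases hT.dist_eq_dist_add_one_of_adj u h1 with h | h
  · exact absurd (par_eq hT h1 h).symm h2
  · exact h

/-- changing the base vertex to a neighbour -/
theorem par_adj_base (hT : T.IsTree) {w w' x : V} (h : T.Adj w w') (h1 : w ≠ x) (h2 : w' ≠ x) :
    par T w x = par T w' x := by
  have key : ∀ {w w' : V}, T.Adj w w' → w ≠ x → T.dist x w' = T.dist x w + 1 →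
      par T w' x = par T w x := by
    intro w w' hww h1 h3
    refine par_eq hT (par_adj hT h1) ?_
    have h4 := par_dist hT h1
    have h5 : T.dist w' (par T w x) ≤ T.dist w' w + T.dist w (par T w x) :=
      hT.connected.dist_triangle
    have h6 : T.dist w' x ≤ T.dist w' (par T w x) + T.dist (par T w x) x :=
      hT.connected.dist_triangle
    have h7 : T.dist w' w = 1 := dist_eq_one_iff_adj.2 hww.symm
    have h8 : T.dist (par T w x) x = 1 := dist_eq_one_iff_adj.2 (par_adj hT h1).symm
    rw [dist_comm (u := x) (v := w'), dist_comm (u := x) (v := w)] at h3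
    omega
  rcases hT.dist_eq_dist_add_one_of_adj x h with h3 | h3
  · exact key h.symm h2 h3
  · exact (key h h1 h3).symm

theorem par_finite (hT : T.IsTree) (w w' : V) : {x | par T w x ≠ par T w' x}.Finite := by
  obtain ⟨p⟩ := hT.connected w w'
  induction p with
  | nil => simp
  | cons h q ih =>
    rename_i a b c
    refine ((Set.toFinite {a, b}).union ih).subset ?_
    intro x hx
    by_contra hcon
    rw [Set.mem_union, not_or, Set.mem_insert_iff, Set.mem_singleton_iff, not_or] at hcon
    obtain ⟨⟨h1, h2⟩, h3⟩ := hcon
    have h4 : par T b x = par T c x := by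
      by_contra h4
      exact h3 h4
    exact hx (by rw [par_adj_base hT h (Ne.symm h1) (Ne.symm h2), h4])

/-- a point between -/
theorem par_of_add (hT : T.IsTree) {a b c : V} (h : T.dist a c = T.dist a b + T.dist b c)
    (hbc : b ≠ c) : par T a c = par T b c := by
  refine par_eq hT (par_adj hT hbc) ?_
  have h1 := par_dist hT hbc
  have h2 : T.dist a (par T b c) ≤ T.dist a b + T.dist b (par T b c) :=
    hT.connected.dist_triangle
  have h3 : T.dist a c ≤ T.dist a (par T b c) + T.dist (par T b c) c :=
    hT.connected.dist_triangle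
  have h4 : T.dist (par T b c) c = 1 := dist_eq_one_iff_adj.2 (par_adj hT hbc).symm
  omega

theorem par_of_adj (hT : T.IsTree) {b c : V} (h : T.Adj b c) : par T c b = c :=
  par_eq hT h (by rw [dist_self, dist_eq_one_iff_adj.2 h.symm])

/-- different directions: distances add up -/
theorem dist_add (hT : T.IsTree) {a b : V} (n : ℕ) : ∀ c, T.dist b c = n → b ≠ c →
    par T a b ≠ par T c b → T.dist a c = T.dist a b + T.dist b c := by
  induction n with
  | zero =>
    intro c hc hbc _
    exact absurd (hT.connected.dist_eq_zero_iff.1 hc) hbc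
  | succ n ih =>
    intro c hc hbc hp
    rcases Nat.eq_zero_or_pos n with rfl | hn
    · have h1 : T.Adj b c := dist_eq_one_iff_adj.1 hc
      rw [par_of_adj hT h1] at hp
      rw [dist_of_ne_par hT h1 (Ne.symm hp), hc]
    · have h1 := par_dist hT hbc
      have h2 := par_adj hT hbc
      have h3 : T.dist b (par T b c) = n := by omega
      have h4 : b ≠ par T b c := by
        intro h
        rw [← h, dist_self] at h3
        omega
      have h5 : par T (par T b c) b = par T c b :=
        (par_adj_base hT h2 (Ne.symm hbc) (Ne.symm h4)).symm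
      have h6 := ih (par T b c) h3 h4 (by rw [h5]; exact hp)
      rcases hT.dist_eq_dist_add_one_of_adj a h2 with h7 | h7
      · omega
      · have h8 : par T a (par T b c) = c := par_eq hT h2.symm h7
        rw [par_of_add hT h6 h4] at h8
        have h9 := par_dist hT h4
        rw [h8] at h9
        omega

end

section

variable {G V : Type*} [Group G] [MulAction G V] {T : SimpleGraph V}
  (hadj : ∀ (g : G) u v, T.Adj u v → T.Adj (g • u) (g • v))

include hadj in
theorem dist_smul_le (hT : T.IsTree) (g : G) (u v : V) :
    T.dist (g • u) (g • v) ≤ T.dist u v := by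
  obtain ⟨p, hp⟩ := hT.connected.exists_walk_length_eq_dist u v
  have h1 := dist_le (p.map (⟨fun x => g • x, fun {a b} h => hadj g a b h⟩ : T →g T))
  rwa [Walk.length_map, hp] at h1

include hadj in
theorem dist_smul (hT : T.IsTree) (g : G) (u v : V) :
    T.dist (g • u) (g • v) = T.dist u v := by
  refine le_antisymm (dist_smul_le hadj hT g u v) ?_
  have h := dist_smul_le hadj hT g⁻¹ (g • u) (g • v)
  rwa [inv_smul_smul, inv_smul_smul] at h

include hadj in
theorem par_smul (hT : T.IsTree) (g : G) (u v : V) :
    par T (g • u) (g • v) = g • par T u v := by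
  by_cases h : u = v
  · subst h
    rw [par_self, par_self]
  · refine par_eq hT (hadj g _ _ (par_adj hT h)) ?_
    rw [dist_smul hadj hT, dist_smul hadj hT]
    exact par_dist hT h

include hadj in
theorem par_smul_finite (hT : T.IsTree) (u : V) (g : G) :
    {x | par T u (g • x) ≠ g • par T u x}.Finite := by
  refine ((par_finite hT u (g • u)).preimage (f := fun x => g • x)
    (MulAction.injective g).injOn).subset ?_
  intro x hx
  change par T u (g • x) ≠ par T (g • u) (g • x)
  rwa [par_smul hadj hT]

end

end Vale.Agent.P184.H290.Tree
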