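import Vale.Agent.P184.H290.Tree1
import Vale.Agent.P184.H290.Ch

/-!
# P184: fixed point free elements of a group acting on a tree are charged
-/

namespace Vale.Agent.P184.H290.Tree

open SimpleGraph Vale.Agent.P184

section

variable {G V : Type*} [Group G] [MulAction G V] {T : SimpleGraph V}

open Classical in
/-- does the dart point to the base vertex -/
noncomputable def bt (T : SimpleGraph V) (x : V) (p : V × V) : ℝ :=
  if p.2 = par T x p.1 then 1 else 0

theorem bt_finite (hT : T.IsTree) (hadj : ∀ (g : G) u v, T.Adj u v → T.Adj (g • u) (g • v))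
    (x : V) (g : G) : {p : V × V | bt T x (g • p) ≠ bt T x p}.Finite := by
  classical
  have h1 := par_smul_finite hadj hT x g
  have h2 : (⋃ a ∈ {a | par T x (g • a) ≠ g • par T x a},
      ({(a, par T x a), (a, g⁻¹ • par T x (g • a))} : Set (V × V))).Finite :=
    h1.biUnion fun a _ => Set.toFinite _
  refine h2.subset ?_
  rintro ⟨a, b⟩ hp
  by_contra hcon
  rw [Set.mem_iUnion₂] at hcon
  refine hp ?_
  unfold bt
  by_cases ha : par T x (g • a) = g • par T x a
  · refine if_congr ?_ rfl rfl
    change g • b = par T x (g • a) ↔ b = par T x a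
    rw [ha]
    exact smul_left_cancel_iff g
  · have h3 : ¬ (b = par T x a) := fun h => hcon ⟨a, ha, Or.inl (by rw [h])⟩
    have h4 : ¬ (g • b = par T x (g • a)) := fun h => hcon ⟨a, ha, Or.inr (by
      rw [Set.mem_singleton_iff, ← h, inv_smul_smul])⟩
    rw [if_neg h3]
    exact if_neg h4

/-- **Fixed point free elements are charged.** -/
theorem charged_of_free (hT : T.IsTree)
    (hadj : ∀ (g : G) u v, T.Adj u v → T.Adj (g • u) (g • v)) (t : G) (ht : ∀ v : V, t • v ≠ v)
    (hinv : ∀ v : V, T.Adj v (t • v) → t • t • v ≠ v) : Charged t := by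
  classical
  -- a vertex moved as little as possible
  obtain ⟨x, hx⟩ : ∃ x, ∀ y, T.dist x (t • x) ≤ T.dist y (t • y) := by
    have hne : Nonempty V := hT.connected.nonempty
    let f : V → ℕ := fun y => T.dist y (t • y)
    exact ⟨Function.argmin f, fun y => Function.argmin_le f y⟩
  set ℓ := T.dist x (t • x) with hℓ
  have hℓ0 : 0 < ℓ := hT.connected.pos_dist_of_ne (Ne.symm (ht x))
  set q := par T (t • x) x with hq
  set z := par T x (t • x) with hz
  have hqa : T.Adj x q := par_adj hT (ht x)
  have hza : T.Adj (t • x) z := par_adj hT (Ne.symm (ht x))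
  have hzd : T.dist x (t • x) = T.dist x z + 1 := par_dist hT (Ne.symm (ht x))
  have hN : z ≠ t • q := by
    intro h
    by_cases hxz : z = x
    · -- an inversion
      have h1 : T.dist x (t • x) = 1 := by rw [hzd, hxz, SimpleGraph.dist_self]
      have h2 : T.Adj x (t • x) := dist_eq_one_iff_adj.1 h1
      refine hinv x h2 ?_
      have h3 : q = t • x := par_of_adj hT h2
      rw [← h3, ← h, hxz]
    · have h1 : par T (t • x) x = par T z x := par_adj_base hT hza (ht x) hxz
      have h2 := par_dist hT hxz
      rw [← h1, ← hq] at h2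
      have h3 := hx q
      rw [← h, dist_comm (u := q) (v := z)] at h3
      rw [dist_comm (u := x) (v := z)] at hzd
      omega
  -- the axis
  have hax : ∀ m : ℕ, T.dist x (t ^ (m + 1) • x) = (m + 1) * ℓ ∧
      par T x (t ^ (m + 1) • x) = t ^ m • z := by
    intro m
    induction m with
    | zero =>
      refine ⟨?_, ?_⟩
      · rw [zero_add, pow_one, one_mul]
      · rw [zero_add, pow_one, pow_zero, one_smul]
    | succ m ih =>
      obtain ⟨h1, h2⟩ := ih
      have hb : t ^ (m + 1) • x ≠ t ^ (m + 2) • x := by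
        intro h
        rw [pow_succ t (m + 1), mul_smul] at h
        exact ht x (smul_left_cancel _ h).symm
      have h3 : par T (t ^ (m + 2) • x) (t ^ (m + 1) • x) = t ^ (m + 1) • q := by
        rw [pow_succ t (m + 1), mul_smul, par_smul hadj hT]
      have h4 : par T x (t ^ (m + 1) • x) ≠ par T (t ^ (m + 2) • x) (t ^ (m + 1) • x) := by
        rw [h2, h3, pow_succ, mul_smul]
        exact fun h => hN (smul_left_cancel _ h)
      have h5 := dist_add hT _ _ rfl hb h4
      have h6 : T.dist (t ^ (m + 1) • x) (t ^ (m + 2) • x) = ℓ := by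
        rw [pow_succ t (m + 1), mul_smul, dist_smul hadj hT]
      refine ⟨?_, ?_⟩
      · rw [show m + 1 + 1 = m + 2 from rfl, h5, h1, h6]
        ring
      · rw [show m + 1 + 1 = m + 2 from rfl, par_of_add hT h5 hb, pow_succ t (m + 1), mul_smul,
          par_smul hadj hT]
  have hd : ∀ m : ℕ, T.dist x (t ^ m • x) = m * ℓ := by
    intro m
    rcases m with _ | m
    · rw [pow_zero, one_smul, SimpleGraph.dist_self, zero_mul]
    · rw [(hax m).1]
  have hne : ∀ m : ℕ, m ≠ 0 → t ^ m • x ≠ x := by
    intro m hm h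
    have h1 := hd m
    rw [h, SimpleGraph.dist_self] at h1
    rcases Nat.eq_zero_or_pos m with h2 | h2
    · exact hm h2
    · have := Nat.mul_pos h2 hℓ0
      omega
  -- the values of `bt`
  have hpos : ∀ m : ℕ, bt T x (t ^ m • (x, q)) = 0 := by
    intro m
    unfold bt
    refine if_neg ?_
    change ¬ t ^ m • q = par T x (t ^ m • x)
    rcases m with _ | m
    · rw [pow_zero, one_smul, one_smul, par_self]
      exact hqa.ne'
    · rw [(hax m).2, pow_succ, mul_smul]
      exact fun h => hN (smul_left_cancel _ h).symm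
  have hneg : ∀ m : ℕ, bt T x ((t ^ (m + 1))⁻¹ • (x, q)) = 1 := by
    intro m
    unfold bt
    refine if_pos ?_
    change (t ^ (m + 1))⁻¹ • q = par T x ((t ^ (m + 1))⁻¹ • x)
    have h1 : par T (t ^ (m + 1) • x) x = q := by
      rcases Nat.eq_zero_or_pos m with rfl | hm
      · rw [zero_add, pow_one]
      · rw [hq]
        refine par_of_add hT ?_ (ht x)
        have h2 := hd (m + 1)
        have h3 : T.dist (t • x) (t ^ (m + 1) • x) = m * ℓ := by
          rw [pow_succ', mul_smul, dist_smul hadj hT, hd]
        rw [dist_comm (u := t ^ (m + 1) • x) (v := x),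
          dist_comm (u := t ^ (m + 1) • x) (v := t • x), dist_comm (u := t • x) (v := x), h2, h3,
          ← hℓ]
        ring
    rw [← h1, ← par_smul hadj hT, inv_smul_smul]
  have hval : ∀ m : ℤ, bt T x (t ^ m • (x, q)) = if m < 0 then 1 else 0 := by
    intro m
    rcases lt_or_ge m 0 with hm | hm
    · rw [if_pos hm]
      obtain ⟨n, hn⟩ : ∃ n : ℕ, m = -(n + 1 : ℕ) := ⟨(-m - 1).toNat, by omega⟩
      rw [hn, zpow_neg, zpow_natCast]
      exact hneg n
    · rw [if_neg (not_lt.2 hm)]
      obtain ⟨n, rfl⟩ := Int.eq_ofNat_of_zero_le hm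
      rw [zpow_natCast]
      exact hpos n
  refine charged_of_variation (bt T x) (bt_finite hT hadj x) t (x, q) ?_
  rw [tsum_eq_single (t⁻¹ • (x, q))]
  · rw [if_pos ⟨-1, by rw [zpow_neg_one]⟩, smul_inv_smul]
    have h1 := hval 0
    have h2 := hval (-1)
    rw [zpow_zero, one_smul] at h1
    rw [zpow_neg_one] at h2
    rw [h1, h2, if_neg (lt_irrefl 0), if_pos (by norm_num)]
    norm_num
  · intro p hp
    by_cases h : ∃ m : ℤ, t ^ m • (x, q) = p
    · rw [if_pos h]
      obtain ⟨m, rfl⟩ := h
      have hm : m ≠ -1 := by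
        rintro rfl
        exact hp (by rw [zpow_neg_one])
      rw [← mul_smul, ← zpow_one_add, hval, hval, sub_eq_zero]
      refine if_congr ?_ rfl rfl
      omega
    · rw [if_neg h]

end

end Vale.Agent.P184.H290.Tree
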