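import Vale.Agent.P184.H290.Tree4

/-!
# P184: groups acting on trees with finite edge stabilizers, any number of orbits
-/

namespace Vale.Agent.P184.H290.Tree

open SimpleGraph Vale.Agent.P184

universe u v

section

variable {G : Type u} {V : Type v} [Group G] [MulAction G V] {T : SimpleGraph V}

/-- the part of the tree swept out by a finite set under a subgroup -/
def VF (F : Subgroup G) (K : Finset V) : SubMulAction F V where
  carrier := {w | ∃ g : F, g • w ∈ K}
  smul_mem' := by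
    rintro c w ⟨g, hg⟩
    exact ⟨g * c⁻¹, by rwa [mul_smul, inv_smul_smul]⟩

theorem mem_VF {F : Subgroup G} {K : Finset V} {w : V} : w ∈ VF F K ↔ ∃ g : F, g • w ∈ K :=
  Iff.rfl

theorem mem_VF_of_mem {F : Subgroup G} {K : Finset V} {w : V} (hw : w ∈ K) : w ∈ VF F K :=
  ⟨1, by rwa [one_smul]⟩

/-- the graph swept out -/
def TF (T : SimpleGraph V) (F : Subgroup G) (K : Finset V) : SimpleGraph (VF F K) where
  Adj a b := T.Adj a b ∧ ∃ g : F, g • (a : V) ∈ K ∧ g • (b : V) ∈ K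
  symm := ⟨fun _ _ h => ⟨h.1.symm, h.2.imp fun _ hg => ⟨hg.2, hg.1⟩⟩⟩
  loopless := ⟨fun _ h => T.loopless.irrefl _ h.1⟩

theorem TF_adj {F : Subgroup G} {K : Finset V} {a b : VF F K} :
    (TF T F K).Adj a b ↔ T.Adj a b ∧ ∃ g : F, g • (a : V) ∈ K ∧ g • (b : V) ∈ K := Iff.rfl

theorem TF_adj_smul (hadj : ∀ (g : G) u v, T.Adj u v → T.Adj (g • u) (g • v))
    {F : Subgroup G} {K : Finset V} (g : F) (a b : VF F K) (h : (TF T F K).Adj a b) :
    (TF T F K).Adj (g • a) (g • b) := by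
  obtain ⟨h1, c, h2, h3⟩ := h
  refine ⟨hadj (g : G) _ _ h1, c * g⁻¹, ?_, ?_⟩
  · change (c * g⁻¹) • g • (a : V) ∈ K
    rwa [mul_smul, inv_smul_smul]
  · change (c * g⁻¹) • g • (b : V) ∈ K
    rwa [mul_smul, inv_smul_smul]

theorem TF_reach_smul (hadj : ∀ (g : G) u v, T.Adj u v → T.Adj (g • u) (g • v))
    {F : Subgroup G} {K : Finset V} (g : F) {a b : VF F K} (h : (TF T F K).Reachable a b) :
    (TF T F K).Reachable (g • a) (g • b) :=
  h.map ⟨fun x => g • x, fun {a b} h => TF_adj_smul hadj g a b h⟩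

/-- points of a walk in `K` are connected in the swept out graph -/
theorem TF_reach_walk {F : Subgroup G} {K : Finset V} {a b : V} (p : T.Walk a b)
    (hp : ∀ x ∈ p.support, x ∈ K) (ha : a ∈ VF F K) (x : V) (hx : x ∈ p.support) :
    ∃ hx : x ∈ VF F K, (TF T F K).Reachable ⟨a, ha⟩ ⟨x, hx⟩ := by
  induction p with
  | nil =>
    rw [Walk.support_nil, List.mem_singleton] at hx
    subst hx
    exact ⟨ha, Reachable.refl _⟩
  | cons h q ih =>
    rename_i a c b
    rw [Walk.support_cons, List.mem_cons] at hx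
    have hac : a ∈ K := hp a (Walk.start_mem_support _)
    have hcc : c ∈ K := hp c (by
      rw [Walk.support_cons]; exact List.mem_cons_of_mem _ (Walk.start_mem_support _))
    have hc : c ∈ VF F K := mem_VF_of_mem hcc
    rcases hx with rfl | hx
    · exact ⟨ha, Reachable.refl _⟩
    · obtain ⟨hx', h1⟩ := ih (fun x hx => hp x (by
        rw [Walk.support_cons]; exact List.mem_cons_of_mem _ hx)) hc hx
      refine ⟨hx', Reachable.trans ?_ h1⟩
      refine Adj.reachable (TF_adj.2 ⟨h, 1, ?_, ?_⟩)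
      · rwa [one_smul]
      · rwa [one_smul]

/-- **Any number of orbits.** -/
theorem tree (hT : T.IsTree) (hadj : ∀ (g : G) u v, T.Adj u v → T.Adj (g • u) (g • v))
    (hinv : ∀ (g : G) v, T.Adj v (g • v) → g • g • v ≠ v)
    (hfin : ∀ u v, T.Adj u v →
      Finite (MulAction.stabilizer G u ⊓ MulAction.stabilizer G v : Subgroup G))
    (hQ : RowQ2.{u, u, u}) (h : ∀ v : V, L1Bass (MulAction.stabilizer G v)) : L1Bass G := by
  classical
  refine l1Bass_of_local.{u, u} fun S => ?_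
  obtain ⟨v₀⟩ := hT.connected.nonempty
  choose p hp using fun g : G => (⟨(hT.connected v₀ (g • v₀)).some, trivial⟩ :
    ∃ _ : T.Walk v₀ (g • v₀), True)
  let K : Finset V := insert v₀ (S.biUnion fun g => (p g).support.toFinset)
  have hK0 : v₀ ∈ K := Finset.mem_insert_self _ _
  have hKS : ∀ g ∈ S, ∀ x ∈ (p g).support, x ∈ K := fun g hg x hx =>
    Finset.mem_insert_of_mem (Finset.mem_biUnion.2 ⟨g, hg, List.mem_toFinset.2 hx⟩)
  let F : Subgroup G := Subgroup.closure ((S : Set G) ∪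
    ⋃ v ∈ K, (MulAction.stabilizer G v : Set G))
  have hFS : ∀ g ∈ S, g ∈ F := fun g hg => Subgroup.subset_closure (Or.inl hg)
  have hFK : ∀ v ∈ K, MulAction.stabilizer G v ≤ F := fun v hv g hg =>
    Subgroup.subset_closure (Or.inr (Set.mem_iUnion₂.2 ⟨v, hv, hg⟩))
  have hv₀ : v₀ ∈ VF F K := mem_VF_of_mem hK0
  -- `K` is connected
  have hconK : ∀ x ∈ K, ∃ hx : x ∈ VF F K, (TF T F K).Reachable ⟨v₀, hv₀⟩ ⟨x, hx⟩ := by
    intro x hx
    rcases Finset.mem_insert.1 hx with rfl | hx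
    · exact ⟨hv₀, Reachable.refl _⟩
    · obtain ⟨g, hg, hx⟩ := Finset.mem_biUnion.1 hx
      exact TF_reach_walk (p g) (hKS g hg) hv₀ x (List.mem_toFinset.1 hx)
  -- orbits of `v₀`
  have hconF : ∀ g : F, (TF T F K).Reachable ⟨v₀, hv₀⟩ (g • ⟨v₀, hv₀⟩) := by
    rintro ⟨g, hg⟩
    induction hg using Subgroup.closure_induction with
    | mem g hg =>
      rcases hg with hg | hg
      · obtain ⟨h1, h2⟩ := TF_reach_walk (p g) (hKS g hg) hv₀ (g • v₀) (Walk.end_mem_support _)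
        exact h2
      · obtain ⟨v, hv, hg'⟩ := Set.mem_iUnion₂.1 hg
        have hgF : g ∈ F := hFK v hv hg'
        obtain ⟨h1, h2⟩ := hconK v hv
        have h3 := TF_reach_smul hadj (⟨g, hgF⟩ : F) h2
        have h4 : (⟨g, hgF⟩ : F) • (⟨v, h1⟩ : VF F K) = ⟨v, h1⟩ := Subtype.ext hg'
        rw [h4] at h3
        exact h2.trans h3.symm
    | one =>
      have : (⟨1, one_mem F⟩ : F) • (⟨v₀, hv₀⟩ : VF F K) = ⟨v₀, hv₀⟩ := one_smul F _
      rw [this]
    | mul a b ha hb iha ihb =>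
      have h1 := TF_reach_smul hadj (⟨a, ha⟩ : F) ihb
      have h2 : (⟨a * b, mul_mem ha hb⟩ : F) • (⟨v₀, hv₀⟩ : VF F K) =
          (⟨a, ha⟩ : F) • (⟨b, hb⟩ : F) • (⟨v₀, hv₀⟩ : VF F K) :=
        mul_smul (⟨a, ha⟩ : F) (⟨b, hb⟩ : F) (⟨v₀, hv₀⟩ : VF F K)
      rw [h2]
      exact iha.trans h1
    | inv a ha iha =>
      have h1 := TF_reach_smul hadj (⟨a, ha⟩⁻¹ : F) iha
      rw [inv_smul_smul] at h1
      exact h1.symm
  have hcon : (TF T F K).Connected := by
    have : Nonempty (VF F K) := ⟨⟨v₀, hv₀⟩⟩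
    refine (connected_iff_exists_forall_reachable _).2 ⟨⟨v₀, hv₀⟩, ?_⟩
    rintro ⟨w, g, hg⟩
    obtain ⟨h1, h2⟩ := hconK _ hg
    have h3 := TF_reach_smul hadj g⁻¹ h2
    have h4 : g⁻¹ • (⟨g • w, h1⟩ : VF F K) = ⟨w, g, hg⟩ := Subtype.ext (inv_smul_smul g w)
    rw [h4] at h3
    exact (hconF g⁻¹).trans h3
  have htree : (TF T F K).IsTree := ⟨hcon, hT.isAcyclic.comap
    (⟨fun x => (x : V), fun {a b} h => h.1⟩ : TF T F K →g T) Subtype.val_injective⟩
  -- stabilizers
  have hstab : ∀ w : VF F K, MulAction.stabilizer G (w : V) ≤ F := by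
    rintro ⟨w, g, hg⟩ a ha
    have h1 : (g : G) * a * (g : G)⁻¹ ∈ F := by
      refine hFK _ hg ?_
      change ((g : G) * a * (g : G)⁻¹) • (g : G) • w = (g : G) • w
      rw [mul_smul, inv_smul_smul, mul_smul]
      exact congrArg _ ha
    have h2 := mul_mem (mul_mem (inv_mem g.2) h1) g.2
    have h3 : (g : G)⁻¹ * ((g : G) * a * (g : G)⁻¹) * g = a := by group
    rwa [h3] at h2
  obtain ⟨s, hs⟩ : ∃ s : G → F, LiftsTo S F.subtype s := by
    have hex : ∀ g : G, ∃ z : F, g ∈ F → (z : G) = g := by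
      intro g
      by_cases hg : g ∈ F
      · exact ⟨⟨g, hg⟩, fun _ => rfl⟩
      · exact ⟨1, fun h => absurd h hg⟩
    choose s hs using hex
    refine ⟨s, fun x hx => hs x (hFS x hx), fun x hx y hy hxy => Subtype.ext ?_⟩
    rw [Subgroup.coe_mul, hs x (hFS x hx), hs y (hFS y hy), hs _ (hFS _ hxy)]
  refine ⟨F, inferInstance, F.subtype, s, hs, ?_⟩
  let K' : Finset (VF F K) := K.attach.image fun x => ⟨x.1, mem_VF_of_mem x.2⟩
  have hK' : ∀ w : VF F K, (w : V) ∈ K → w ∈ K' := fun w hw =>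
    Finset.mem_image.2 ⟨⟨w.1, hw⟩, Finset.mem_attach _ _, rfl⟩
  refine tree_dir (G := F) (V := VF F K) htree (fun g a b => TF_adj_smul hadj g a b) ?_ ?_ K'
    ?_ ?_ hQ ?_
  · intro g w hw h1
    exact hinv (g : G) (w : V) hw.1 (congrArg Subtype.val h1)
  · intro a b hab
    have h1 := hfin _ _ hab.1
    refine Finite.of_injective (β := (MulAction.stabilizer G (a : V) ⊓
      MulAction.stabilizer G (b : V) : Subgroup G))
      (fun x => ⟨((x : F) : G), congrArg Subtype.val x.2.1, congrArg Subtype.val x.2.2⟩) ?_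
    intro x y hxy
    have h3 : ((x : F) : G) = ((y : F) : G) := congrArg (fun z : (MulAction.stabilizer G (a : V) ⊓
      MulAction.stabilizer G (b : V) : Subgroup G) => (z : G)) hxy
    exact Subtype.ext (Subtype.ext h3)
  · rintro ⟨w, g, hg⟩
    exact ⟨g, hK' _ hg⟩
  · rintro a b ⟨_, g, h1, h2⟩
    exact ⟨g, hK' _ h1, hK' _ h2⟩
  · intro w
    let ι : MulAction.stabilizer F w →* MulAction.stabilizer G (w : V) :=
      { toFun := fun x => ⟨((x : F) : G), congrArg Subtype.val x.2⟩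
        map_one' := rfl
        map_mul' := fun _ _ => rfl }
    let π : MulAction.stabilizer G (w : V) →* MulAction.stabilizer F w :=
      { toFun := fun x => ⟨⟨x, hstab w x.2⟩, Subtype.ext x.2⟩
        map_one' := rfl
        map_mul' := fun _ _ => rfl }
    exact l1Bass_retract ι π (fun x => rfl) (h w)

end

end Vale.Agent.P184.H290.Tree
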