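import Vale.Agent.P184.H788.ProdN
import Vale.Agent.P184.H856.LocMain
import Vale.Agent.P184.H444.VDefs

/-!
# P184: wreath products with torsion free amenable base
-/

namespace Vale.Agent.P184.H290

open Vale.Agent.P184 Vale.Agent.P184.H788 Vale.Agent.P184.H977

universe u v w

theorem wnice_of_isAmenable {G : Type u} [Group G] (h : IsAmenable G) : W.Nice G := by
  have h1 := Vale.Agent.P184.nice_of_amenable h
  exact W.nice_of_V (V.nice_iff.2 ⟨fun x hx => (h1.locTame_or_good x hx).imp id
    goodD_of_good, tgoodD_of_tgood (tgood_of_nice h1.2)⟩)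

/-- Restricted wreath products of an amenable group with a finite group are amenable. -/
theorem isAmenable_rw {B : Type u} {Z : Type v} [Group B] [Group Z] [Finite Z]
    (hB : IsAmenable B) : IsAmenable (RW B Z) := by
  refine isAmenable_of_ker (RW.proj (B := B) (Q := Z)) ?_ isAmenable_of_finite
  refine isAmenable_of_injective (B := Z → B)
    { toFun := fun a => a.1.fn, map_one' := rfl, map_mul' := ?_ } ?_ (isAmenable_pi hB Z)
  · rintro ⟨a, ha⟩ ⟨b, hb⟩
    funext x
    have h1 : a.pt = 1 := ha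
    show (a * b).fn x = a.fn x * b.fn x
    rw [RW.mul_fn, h1, inv_one, one_mul]
  · rintro ⟨a, ha⟩ ⟨b, hb⟩ hab
    apply Subtype.ext
    have h1 : a.pt = 1 := ha
    have h2 : b.pt = 1 := hb
    exact RW.ext' (fun x => congrFun hab x) (h1.trans h2.symm)

theorem torSep_rw {B : Type u} {Z : Type v} [Group B] [Group Z] [Finite Z]
    (hB : ∀ b : B, IsOfFinOrder b → b = 1) (hZ : ∀ a b : Z, a * b = b * a) :
    TorSep (RW B Z) := by
  intro x y hx hy hxy
  refine ⟨(RW.proj (B := B) (Q := Z)).ker, inferInstance, inferInstance, fun c hc => hxy ?_⟩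
  have h1 : c.pt * x.pt * c.pt⁻¹ * y.pt⁻¹ = 1 := by
    have := (MonoidHom.mem_ker).1 hc
    simpa [RW.proj_apply, RW.mul_pt, RW.inv_pt] using this
  have h2 : x.pt = y.pt := by
    rw [hZ c.pt x.pt, mul_inv_cancel_right] at h1
    exact mul_inv_eq_one.1 h1
  have h3 := conj_of_torsion hB x hx
  have h4 := conj_of_torsion hB y hy
  rw [h2] at h3
  exact h3.trans h4.symm

/-- The case of a torsion free amenable base and a finite abelian top group. -/
theorem bass_rw_fin {S : Type w} {B : Type u} {Z : Type v} [Group S] [Group B] [Group Z]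
    [Finite Z] (hA : IsAmenable B) (hB : ∀ b : B, IsOfFinOrder b → b = 1)
    (hZ : ∀ a b : Z, a * b = b * a) : L1Bass (S × RW B Z) ↔ L1Bass S :=
  bass_prod_nice (wnice_of_isAmenable (isAmenable_rw hA)) (torSep_rw hB hZ)

/-- the top part is a retract -/
theorem bass_top {S : Type w} {B : Type u} {Q : Type v} [Group S] [Group B] [Group Q]
    (h : L1Bass (S × RW B Q)) : L1Bass (S × Q) :=
  H11.l1Bass_retract ((MonoidHom.id S).prodMap (RW.incl (B := B) (Q := Q)))
    ((MonoidHom.id S).prodMap (RW.proj (B := B) (Q := Q))) (fun _ => rfl) h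

/-- **Wreath products with a torsion free amenable base**: any top group, any spectator. -/
theorem wreath_amen {S : Type w} {B : Type u} {Q : Type v} [Group S] [Group B] [Group Q]
    (hA : IsAmenable B) (hB : ∀ b : B, IsOfFinOrder b → b = 1) :
    L1Bass (S × RW B Q) ↔ L1Bass (S × Q) := by
  refine ⟨bass_top, fun hQ => H856.Loc.wreath_of hQ fun s hs k => ?_⟩
  have hS : L1Bass S := H11.l1Bass_retract (MonoidHom.inl S Q) (MonoidHom.fst S Q)
    (fun _ => rfl) hQ
  have hfin : Finite (Subgroup.zpowers s) := hs.finite_zpowers.to_subtype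
  refine (bass_rw_fin (isAmenable_pi hA (Fin k)) (fun b hb => ?_) fun a b => ?_).2 hS
  · funext i
    exact hB _ ((Pi.evalMonoidHom (fun _ : Fin k => B) i).isOfFinOrder hb)
  · obtain ⟨i, hi⟩ := Subgroup.mem_zpowers_iff.1 a.2
    obtain ⟨j, hj⟩ := Subgroup.mem_zpowers_iff.1 b.2
    apply Subtype.ext
    rw [Subgroup.coe_mul, Subgroup.coe_mul, ← hi, ← hj, ← zpow_add, ← zpow_add, add_comm]

/-- the same with `H444.Amen` -/
theorem wreath_amen' {S : Type w} {B : Type u} {Q : Type v} [Group S] [Group B] [Group Q]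
    (hA : H444.Amen B) (hB : ∀ b : B, IsOfFinOrder b → b = 1) :
    L1Bass (S × RW B Q) ↔ L1Bass (S × Q) := wreath_amen hA hB

end Vale.Agent.P184.H290
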