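import Vale.Agent.P184.H290.WAm
import Vale.Agent.P184.H290.TSep
import Vale.Agent.P184.H113.RwVa
import Vale.Agent.P184.H113.NiceVa

/-!
# P184: wreath products with abelian-by-finite base
-/

namespace Vale.Agent.P184.H290

open Vale.Agent.P184 Vale.Agent.P184.H788 Vale.Agent.P184.H977

universe u v w

theorem bass_rw_va {S : Type w} {B : Type u} {Z : Type v} [Group S] [Group B] [Group Z]
    [Finite Z] (A0 : Subgroup B) [A0.FiniteIndex] (hA0 : ∀ x ∈ A0, ∀ y ∈ A0, x * y = y * x)
    (k : ℕ) : L1Bass (S × RW (Fin k → B) Z) ↔ L1Bass S := by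
  refine bass_prod_locNice fun T => ?_
  obtain ⟨M, h1, h2, h3⟩ := H113.rw_va_sub A0 hA0 Z k (Subgroup.closure (T : Set _))
  have hfg : Group.FG (Subgroup.closure (T : Set (RW (Fin k → B) Z))) :=
    (Group.fg_iff_subgroup_fg _).2 ⟨T, rfl⟩
  exact ⟨H113.nice_va M h3, torSep_va hfg M h3⟩

/-- **Wreath products with abelian-by-finite base**: any top group, any spectator. -/
theorem wreath_va {S : Type w} {B : Type u} {Q : Type v} [Group S] [Group B] [Group Q]
    (A0 : Subgroup B) [A0.FiniteIndex] (hA0 : ∀ x ∈ A0, ∀ y ∈ A0, x * y = y * x) :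
    L1Bass (S × RW B Q) ↔ L1Bass (S × Q) := by
  refine ⟨bass_top, fun hQ => H856.Loc.wreath_of hQ fun s hs k => ?_⟩
  have hS : L1Bass S := H11.l1Bass_retract (MonoidHom.inl S Q) (MonoidHom.fst S Q)
    (fun _ => rfl) hQ
  have hfin : Finite (Subgroup.zpowers s) := hs.finite_zpowers.to_subtype
  exact (bass_rw_va A0 hA0 k).2 hS

end Vale.Agent.P184.H290
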